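import Crest.Agent.R191.Meas

/-! Attaching: relating two points on a side when the polygon relates them. -/

set_option autoImplicit false
set_option linter.unusedSectionVars false

open MeasureTheory Set Crest.Dynamics
open scoped ENNReal

namespace Crest.Agent.R191

theorem att_pairS_self {V : Type*} (a : V) : pairS a a = ⊥ :=
  le_bot_iff.mp (pairS_le_iff.mpr rfl)

theorem att_mem_supp_pairS {V : Type*} {a b w : V} (h : w ∈ supp (pairS a b)) :
    a ≠ b ∧ (w = a ∨ w = b) := by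
  obtain ⟨t, ht, h⟩ := h
  rcases (pairS_iff _ _ _ _).mp h with h | ⟨h1, h2⟩ | ⟨h1, h2⟩
  · exact absurd h ht
  · exact ⟨fun e => ht (by rw [h1, h2, e]), Or.inr h2⟩
  · exact ⟨fun e => ht (by rw [h1, h2, e]), Or.inl h2⟩

theorem att_measurableSet_smul_eq {X : Type} [MeasurableSpace X] {u : X → Vtx}
    (hu : ∀ w, MeasurableSet {x | u x = w}) (g : Gam) (w : Vtx) :
    MeasurableSet {x | g • u x = w} := by
  have : {x | g • u x = w} = {x | u x = g⁻¹ • w} := by
    ext x
    simp only [mem_ofPred_eq, eq_inv_smul_iff]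
  rw [this]
  exact hu _

variable {X : Type} [MeasurableSpace X] [StandardBorelSpace X] [MulAction Gam X]
  {μ : Measure X} [IsProbabilityMeasure μ]

theorem attach (hX : IsFreePMPAction Gam X μ) (Y : Str X) (hY : Valid μ Y) (D : Set X)
    (hD : MeasurableSet D) (hM : Y.M μ + μ D ≤ 1 / 100) (i : Fin 100) (u v : X → Vtx)
    (hu : ∀ w, MeasurableSet {x | u x = w}) (hv : ∀ w, MeasurableSet {x | v x = w})
    (h : ∀ᵐ x ∂μ, x ∈ D →
      Y.J x 1 (u x) (v x) ∧ IsEnd (sig i) (u x).base ∧ IsEnd (sig i) (v x).base) :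
    ∃ Y' : Str X, Valid μ Y' ∧ Succ μ Y Y' (fun _ w => w) ∧ Y'.Phi μ ≤ Y.Phi μ ∧
      Y'.df μ ≤ Y.df μ ∧ ∀ᵐ x ∂μ, x ∈ D → Y'.S x (sig i) (u x) (v x) := by
  classical
  obtain ⟨D', hD'⟩ : ∃ D' : Set X, D' = {x | x ∈ D ∧ ¬ Y.S x (sig i) (u x) (v x)} := ⟨_, rfl⟩
  have hD'm : MeasurableSet D' := by
    rw [hD']
    exact hD.inter ((Y.meas_s.trS hX (sig i)).apply u v hu hv).compl
  have hD'D : D' ⊆ D := by rw [hD']; exact fun x hx => hx.1
  have hT : MeasurableSet {y : X | sig i • y ∈ D'} := measurable_smul_of hX (sig i) hD'm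
  -- the pair added at `y`
  obtain ⟨lift, hlift⟩ : ∃ lift : (X → Vtx) → X → Vtx, ∀ w y, lift w y =
      if sig i • y ∈ D' then (sig i)⁻¹ • w (sig i • y) else Vtx.sp ((1 : Gam) : K) :=
    ⟨_, fun _ _ => rfl⟩
  have hliftm : ∀ w : X → Vtx, (∀ t, MeasurableSet {x | w x = t}) →
      ∀ t, MeasurableSet {y | lift w y = t} := by
    intro w hw t
    have h1 : MeasurableSet {y : X | (sig i)⁻¹ • w (sig i • y) = t} :=
      measurableSet_smul_of hX (sig i) (P := fun x => (sig i)⁻¹ • w x = t)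
        (att_measurableSet_smul_eq hw _ t)
    have : {y | lift w y = t} = ({y : X | sig i • y ∈ D'} ∩
        {y : X | (sig i)⁻¹ • w (sig i • y) = t}) ∪
        ({y : X | sig i • y ∈ D'}ᶜ ∩ {_y : X | Vtx.sp ((1 : Gam) : K) = t}) := by
      ext y
      by_cases hy : sig i • y ∈ D' <;> simp [hlift, hy]
    rw [this]
    exact (hT.inter h1).union (hT.compl.inter (MeasurableSet.const _))
  obtain ⟨p, hp⟩ : ∃ p : X → Setoid Vtx, ∀ y, p y = pairS (lift u y) (lift v y) :=
    ⟨_, fun _ => rfl⟩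
  have hpm : MeasS p := by
    have : p = fun y => pairS (lift u y) (lift v y) := funext hp
    rw [this]
    exact MeasS.pairS _ _ (hliftm u hu) (hliftm v hv)
  obtain ⟨e, he⟩ : ∃ e : X → ℕ, ∀ x, e x = if x ∈ D' then 1 else 0 := ⟨_, fun _ => rfl⟩
  have hem : Measurable e := by
    have : e = fun x => if x ∈ D' then 1 else 0 := funext he
    rw [this]
    exact Measurable.ite hD'm measurable_const measurable_const
  have heint : ∫⁻ x, (e x : ℝ≥0∞) ∂μ = μ D' := by
    rw [← lintegral_indicator_one hD'm]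
    refine lintegral_congr fun x => ?_
    by_cases hx : x ∈ D' <;> simp [he, hx]
  have hem' : Measurable fun x => (e x : ℝ≥0∞) := (measurable_of_countable _).comp hem
  have hpbot : ∀ y, sig i • y ∉ D' → p y = ⊥ := fun y hy => by
    rw [hp, hlift, hlift, if_neg hy, if_neg hy, att_pairS_self]
  have hprk : ∀ y, rk (p y) ≤ e (sig i • y) := fun y => by
    by_cases hy : sig i • y ∈ D'
    · rw [he, if_pos hy, hp]
      exact rk_pairS_le _ _
    · rw [hpbot y hy, rk_bot]
      exact zero_le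
  have hrk : ∀ y, rk (Y.s y ⊔ p y) = rk (Y.s y) + e (sig i • y) := fun y => by
    by_cases hy : sig i • y ∈ D'
    · rw [he, if_pos hy, hp, rk_sup_pairS_of_not_rel, Nat.cast_one]
      rw [hlift, hlift, if_pos hy, if_pos hy]
      rw [hD'] at hy
      have h2 := hy.2
      rwa [trS_apply, inv_smul_smul] at h2
    · rw [hpbot y hy, he, if_neg hy, sup_bot_eq, Nat.cast_zero, add_zero]
  let Y' : Str X :=
    { s := fun y => Y.s y ⊔ p y
      m := fun x => Y.m x + e x
      vert := Y.vert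
      meas_s := Y.meas_s.sup hpm
      meas_m := Y.meas_m.add hem
      meas_vert := Y.meas_vert }
  have hS : ∀ x γ, Y'.S x γ = Y.S x γ ⊔ trS p x γ := fun x γ => trS_sup Y.s p x γ
  have hVert : ∀ x, Y'.Vert x = Y.Vert x := fun _ => rfl
  have hE : Y'.E μ = Y.E μ + μ D' := by
    have h1 : ∀ y, (rk (Y'.s y) : ℝ≥0∞) = (rk (Y.s y) : ℝ≥0∞) + (e (sig i • y) : ℝ≥0∞) :=
      fun y => by
        change ((rk (Y.s y ⊔ p y) : ℕ∞) : ℝ≥0∞) = _
        rw [hrk, ENat.toENNReal_add, ENat.toENNReal_coe]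
    unfold Str.E
    simp only [h1]
    rw [lintegral_add_left Y.meas_s.rk, lintegral_smul_of hX (sig i) hem', heint]
  have hMM : Y'.M μ = Y.M μ + μ D' := by
    have h1 : ∀ y, (Y'.m y : ℝ≥0∞) = (Y.m y : ℝ≥0∞) + (e y : ℝ≥0∞) := fun y => Nat.cast_add _ _
    unfold Str.M
    simp only [h1]
    rw [lintegral_add_right _ hem', heint]
  have hPhi : Y'.Phi μ = Y.Phi μ := by
    have hMne : Y.M μ ≠ ∞ := ne_top_of_le_ne_top (by simp) hY.M_le
    unfold Str.Phi
    rw [hE, hMM, ENNReal.toReal_add hY.E_lt.ne (measure_ne_top _ _),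
      ENNReal.toReal_add hMne (measure_ne_top _ _)]
    ring
  have hpair : ∀ x ∈ D', trS p x (sig i) = pairS (u x) (v x) := by
    intro x hx
    have hx' : sig i • (sig i)⁻¹ • x ∈ D' := by rwa [smul_inv_smul]
    ext a b
    rw [trS_apply, hp, hlift, hlift, if_pos hx', if_pos hx', smul_inv_smul, pairS_iff, pairS_iff]
    simp only [smul_left_cancel_iff]
  have hpair' : ∀ x ∉ D', trS p x (sig i) = ⊥ := by
    intro x hx
    have hx' : sig i • (sig i)⁻¹ • x ∉ D' := by rwa [smul_inv_smul]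
    ext a b
    rw [trS_apply, hpbot _ hx']
    change _ = _ ↔ a = b
    simp only [smul_left_cancel_iff]
  refine ⟨Y', ⟨?_, ?_, ?_, ?_, hY.V_lt, ?_⟩, ⟨fun a b => MeasurableSet.const _, fun _ _ => rfl,
    fun _ _ => rfl, ?_⟩, hPhi.le, ?_, ?_⟩
  · filter_upwards [hY.supp, ae_forall_smul hX h, ae_forall_smul hX (hY.supp_all hX)]
      with y h1 h2 h3 w hw
    change w ∈ supp (Y.s y ⊔ p y) at hw
    rw [supp_sup] at hw
    rcases hw with hw | hw
    · exact h1 w hw
    rw [hVert]
    by_cases hy : sig i • y ∈ D'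
    swap
    · rw [hpbot y hy] at hw
      obtain ⟨t, ht, h⟩ := hw
      exact absurd h ht
    rw [hp, hlift, hlift, if_pos hy, if_pos hy] at hw
    obtain ⟨hne, hw⟩ := att_mem_supp_pairS hw
    obtain ⟨hJ, hu', hv'⟩ := h2 (sig i) (hD'D hy)
    have hne' : u (sig i • y) ≠ v (sig i • y) := fun e => hne (by rw [e])
    obtain ⟨su, sv⟩ := mem_supp_of_rel hJ hne'
    have key : ∀ t : Vtx, t ∈ supp (Y.J (sig i • y) 1) → IsEnd (sig i) t.base →
        (sig i)⁻¹ • t ∈ Y.Vert y ∧ IsEnd 1 ((sig i)⁻¹ • t).base := by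
      intro t ht hend
      constructor
      · rw [← Y.smul_mem_Vert y (sig i), smul_inv_smul]
        change t ∈ supp (⨆ j, trS Y.s (sig i • y) (1 * sig j)) at ht
        rw [supp_iSup] at ht
        obtain ⟨j, hj⟩ := mem_iUnion.mp ht
        exact (h3 (sig i) _ t hj).1
      · rw [Vtx.base_smul, ← inv_mul_cancel (sig i), isEnd_smul]
        exact hend
    rcases hw with rfl | rfl
    · exact key _ su hu'
    · exact key _ sv hv'
  · filter_upwards [hY.conn] with x hx a ha b hb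
    have hle : (⨆ γ, Y.S x γ) ≤ ⨆ γ, Y'.S x γ :=
      iSup_mono fun γ => by rw [hS]; exact le_sup_left
    exact hle (hx a ha b hb)
  · filter_upwards [hY.cyc, h] with x hx hx'
    have h1 : ∀ j, rk (Y'.S x (sig j)) = rk (Y.S x (sig j)) + e (sig i • (sig j)⁻¹ • x) :=
      fun j => by
        rw [rk_trS, rk_trS]
        exact hrk _
    have h2 : Y'.J x 1 ≤ Y.J x 1 ⊔ ⨆ j, if j = i then ⊥ else trS p x (sig j) := by
      change trJ Y'.s x 1 ≤ _
      rw [trJ_one]
      refine iSup_le fun j => ?_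
      change Y'.S x (sig j) ≤ _
      rw [hS]
      refine sup_le (le_trans ?_ le_sup_left) ?_
      · change _ ≤ trJ Y.s x 1
        rw [trJ_one]
        exact le_iSup (fun j => trS Y.s x (sig j)) j
      · by_cases hj : j = i
        · subst hj
          by_cases hxD : x ∈ D'
          · rw [hpair x hxD]
            exact le_trans (pairS_le_iff.mpr (hx' (hD'D hxD)).1) le_sup_left
          · rw [hpair' x hxD]
            exact bot_le
        · refine le_trans ?_ le_sup_right
          refine le_trans ?_ (le_iSup _ j)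
          rw [if_neg hj]
    have h3 : rk (Y'.J x 1) ≤ rk (Y.J x 1) +
        ∑ j ∈ Finset.univ.erase i, (e (sig i • (sig j)⁻¹ • x) : ℕ∞) := by
      refine (rk_mono h2).trans ((rk_sup_le _ _).trans (add_le_add_right ?_ _))
      refine (rk_iSup_le _).trans ?_
      rw [← Finset.add_sum_erase _ _ (Finset.mem_univ i), if_pos rfl, rk_bot, zero_add]
      refine Finset.sum_le_sum fun j hj => ?_
      rw [if_neg (Finset.ne_of_mem_erase hj), rk_trS]
      exact hprk _
    simp only [h1]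
    rw [Finset.sum_add_distrib,
      ← Finset.add_sum_erase _ (fun j => (e (sig i • (sig j)⁻¹ • x) : ℕ∞)) (Finset.mem_univ i),
      smul_inv_smul]
    change ((Y.m x + e x : ℕ) : ℕ∞) + _ ≤ _
    calc _ ≤ ((Y.m x + e x : ℕ) : ℕ∞) + (rk (Y.J x 1) +
          ∑ j ∈ Finset.univ.erase i, (e (sig i • (sig j)⁻¹ • x) : ℕ∞)) := add_le_add_right h3 _
      _ = ((Y.m x : ℕ∞) + rk (Y.J x 1)) + ((e x : ℕ∞) +
          ∑ j ∈ Finset.univ.erase i, (e (sig i • (sig j)⁻¹ • x) : ℕ∞)) := by
        push_cast; ring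
      _ ≤ _ := add_le_add_left hx _
  · rw [hE]
    exact ENNReal.add_lt_top.mpr ⟨hY.E_lt, measure_lt_top _ _⟩
  · rw [hMM]
    exact le_trans (add_le_add_right (measure_mono hD'D) _) hM
  · refine Filter.Eventually.of_forall fun x γ a b hab => ?_
    rw [hS]
    exact (le_sup_left : Y.S x γ ≤ _) hab
  · unfold Str.df
    rw [hPhi]
    rfl
  · refine Filter.Eventually.of_forall fun x hx => ?_
    rw [hS]
    by_cases hxD : x ∈ D'
    · rw [hpair x hxD]
      exact pairS_le_iff.mp le_sup_right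
    · refine (le_sup_left : Y.S x (sig i) ≤ _) ?_
      by_contra hc
      exact hxD (by rw [hD']; exact ⟨hx, hc⟩)

end Crest.Agent.R191
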