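import Crest.Agent.R191.Group

/-! The Bernoulli shift: free, measure preserving, markers, small cover. -/

set_option autoImplicit false

open MeasureTheory Set Crest.Dynamics
open scoped ENNReal

namespace Crest.Agent.R191

theorem coin_singleton (b : Bool) : coin {b} = 2⁻¹ := by
  rw [coin, ProbabilityTheory.uniformOn_univ]
  simp

/-- the law of one row -/
noncomputable def rowM : Measure (ℕ → Bool) := Measure.infinitePi fun _ : ℕ => coin

instance : IsProbabilityMeasure rowM := by unfold rowM; infer_instance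

/-- the cylinder of rows with prescribed first `k` letters -/
def rowCyl (k : ℕ) (w : ℕ → Bool) : Set (ℕ → Bool) := {y | ∀ i < k, y i = w i}

theorem rowCyl_eq (k : ℕ) (w : ℕ → Bool) :
    rowCyl k w = Set.pi (Finset.range k : Set ℕ) fun i => {w i} := by
  ext y; simp [rowCyl, Set.mem_pi]

theorem measurableSet_rowCyl (k : ℕ) (w : ℕ → Bool) : MeasurableSet (rowCyl k w) := by
  rw [rowCyl_eq]
  exact MeasurableSet.pi (Finset.countable_toSet _) fun _ _ => measurableSet_singleton _

theorem rowM_rowCyl (k : ℕ) (w : ℕ → Bool) : rowM (rowCyl k w) = 2⁻¹ ^ k := by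
  rw [rowCyl_eq, rowM, Measure.infinitePi_pi _ fun _ _ => measurableSet_singleton _]
  simp [coin_singleton]

theorem rowM_singleton (w : ℕ → Bool) : rowM {w} = 0 := by
  have h : ∀ k : ℕ, rowM {w} ≤ 2⁻¹ ^ k := fun k => by
    rw [← rowM_rowCyl k w]
    exact measure_mono (by rintro y rfl i _; rfl)
  have ht : Filter.Tendsto (fun k : ℕ => (2⁻¹ : ℝ≥0∞) ^ k) Filter.atTop (nhds 0) :=
    ENNReal.tendsto_pow_atTop_nhds_zero_of_lt_one (by norm_num)
  exact le_antisymm (ge_of_tendsto' ht h) zero_le

/-- the rows of a configuration -/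
def rows (x : Bern) : Gam → ℕ → Bool := fun g n => x (g, n)

theorem measurePreserving_rows :
    MeasurePreserving rows bernM (Measure.infinitePi fun _ : Gam => rowM) :=
  ⟨(MeasurableEquiv.curry Gam ℕ Bool).measurable,
    Measure.infinitePi_map_curry (fun (_ : Gam) (_ : ℕ) => coin)⟩

theorem measurePreserving_row (g : Gam) : MeasurePreserving (fun x => rows x g) bernM rowM :=
  (measurePreserving_eval_infinitePi (fun _ : Gam => rowM) g).comp measurePreserving_rows

theorem rows_smul (g h : Gam) (x : Bern) : rows (g • x) h = rows x (g⁻¹ * h) := rfl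

theorem bern_measurePreserving (g : Gam) :
    MeasurePreserving (fun x : Bern => g • x) bernM bernM := by
  have hf : Function.Injective fun p : Gam × ℕ => (g⁻¹ * p.1, p.2) := by
    rintro ⟨a, b⟩ ⟨c, d⟩ h
    simpa using h
  refine ⟨?_, Measure.map_infinitePi_infinitePi_of_inj (P := fun _ : Gam × ℕ => coin) hf⟩
  change Measurable fun (x : Gam × ℕ → Bool) (p : Gam × ℕ) => x (g⁻¹ * p.1, p.2)
  fun_prop

theorem bern_free : IsFreePMPAction Gam Bern bernM := by
  refine ⟨bern_measurePreserving, fun g hg => ?_⟩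
  have hne : g⁻¹ ≠ 1 := inv_ne_one.2 hg
  have h2 : MeasurePreserving (fun ω : Gam → ℕ → Bool => (ω g⁻¹, ω 1))
      (Measure.infinitePi fun _ : Gam => rowM) (rowM.prod rowM) :=
    ⟨by fun_prop, Measure.infinitePi_map_eval_prod (P := fun _ : Gam => rowM) hne⟩
  have h3 := h2.comp measurePreserving_rows
  have hd : MeasurableSet {p : (ℕ → Bool) × (ℕ → Bool) | p.1 = p.2} :=
    measurableSet_eq_fun measurable_fst measurable_snd
  have h0 : (rowM.prod rowM) {p : (ℕ → Bool) × (ℕ → Bool) | p.1 = p.2} = 0 := by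
    rw [Measure.prod_apply hd]
    simp [rowM_singleton]
  rw [← h3.measure_preimage hd.nullMeasurableSet] at h0
  refine measure_mono_null (fun x hx => ?_) h0
  have hx' : g • x = x := hx
  change rows x g⁻¹ = rows x 1
  conv_rhs => rw [← hx', rows_smul, mul_one]

theorem bern_markers : HasMarkers bernM := by
  classical
  intro η hη
  have ht : Filter.Tendsto (fun k : ℕ => (2⁻¹ : ℝ≥0∞) ^ k) Filter.atTop (nhds 0) :=
    ENNReal.tendsto_pow_atTop_nhds_zero_of_lt_one (by norm_num)
  obtain ⟨k, hk⟩ := ((ht.eventually (ge_mem_nhds hη))).exists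
  set C := rowCyl k fun _ => true with hC
  have hCm : MeasurableSet C := measurableSet_rowCyl _ _
  have hCv : rowM C = 2⁻¹ ^ k := rowM_rowCyl _ _
  refine ⟨(fun x => rows x 1) ⁻¹' C, (measurePreserving_row 1).measurable hCm, ?_, ?_⟩
  · rw [(measurePreserving_row 1).measure_preimage hCm.nullMeasurableSet, hCv]
    exact hk
  · rw [ae_iff]
    have hlt : rowM Cᶜ < 1 := by
      rw [prob_compl_eq_one_sub hCm, hCv]
      exact ENNReal.sub_lt_self ENNReal.one_ne_top one_ne_zero (pow_ne_zero _ (by norm_num))
    have ht' := ENNReal.tendsto_pow_atTop_nhds_zero_of_lt_one hlt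
    refine le_antisymm (ge_of_tendsto' ht' fun n => ?_) zero_le
    have hinj : Function.Injective fun j : ℕ => tt ^ (j : ℤ) := fun a b h => by
      have := tt_zpow_injective h
      exact_mod_cast this
    set S : Finset Gam := (Finset.range n).image fun j : ℕ => tt ^ (j : ℤ) with hS
    have hcard : S.card = n := by
      rw [hS, Finset.card_image_of_injective _ hinj, Finset.card_range]
    have hm : MeasurableSet (Set.pi (S : Set Gam) fun _ => Cᶜ) :=
      MeasurableSet.pi (Finset.countable_toSet _) fun _ _ => hCm.compl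
    have hv : (Measure.infinitePi fun _ : Gam => rowM) (Set.pi (S : Set Gam) fun _ => Cᶜ) =
        rowM Cᶜ ^ n := by
      rw [Measure.infinitePi_pi _ fun _ _ => hCm.compl, Finset.prod_const, hcard]
    rw [← hv, ← measurePreserving_rows.measure_preimage hm.nullMeasurableSet]
    refine measure_mono fun x hx => ?_
    intro g hg
    obtain ⟨j, -, rfl⟩ := Finset.mem_image.1 (Finset.mem_coe.1 hg)
    intro hmem
    refine hx ⟨-(j : ℤ), ?_⟩
    change rows (tt ^ (-(j : ℤ)) • x) 1 ∈ C
    rw [rows_smul, mul_one, zpow_neg, inv_inv]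
    exact hmem

theorem bern_cover : SmallCover bernM := by
  classical
  let e := Fintype.equivFin (Fin 8 → Bool)
  let ext : (Fin 8 → Bool) → ℕ → Bool := fun w i => if h : i < 8 then w ⟨i, h⟩ else true
  refine ⟨_, fun j => (fun x => rows x 1) ⁻¹' rowCyl 8 (ext (e.symm j)), fun j =>
    (measurePreserving_row 1).measurable (measurableSet_rowCyl _ _), fun j => ?_, fun x => ?_⟩
  · rw [(measurePreserving_row 1).measure_preimage (measurableSet_rowCyl _ _).nullMeasurableSet,
      rowM_rowCyl, ← ENNReal.inv_pow, one_div]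
    exact ENNReal.inv_le_inv.2 (by norm_num)
  · refine ⟨e fun i => rows x 1 i, fun i hi => ?_⟩
    simp [ext, hi]

end Crest.Agent.R191
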