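import Crest.Agent.R191.Prune

/-! Counting: the robust rank and the bound on the cycle credits. -/

set_option autoImplicit false

open MeasureTheory Set Crest.Dynamics
open scoped ENNReal

namespace Crest.Agent.R191

variable {X : Type} [MeasurableSpace X] [StandardBorelSpace X] [MulAction Gam X]
  {μ : Measure X} [IsProbabilityMeasure μ]

theorem Count.mul_encard_le_tsum (A : Set ℕ) (f : ℕ → ℝ≥0∞) (c : ℝ≥0∞) (h : ∀ k ∈ A, c ≤ f k) :
    c * (A.encard : ℝ≥0∞) ≤ ∑' k, A.indicator f k := by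
  rw [encard_eq_tsum, ← ENNReal.tsum_mul_left]
  refine ENNReal.tsum_le_tsum fun k => ?_
  by_cases hk : k ∈ A
  · simpa [hk] using h k hk
  · simp [hk]

theorem rrob_le (hX : IsFreePMPAction Gam X μ) (Y : Str X) (hY : Valid μ Y) :
    2 * Y.Rrob μ + 6 * Y.V μ ≤ 6 * Y.E μ + 6 * Y.L μ := by
  set A2 : X → Set ℕ := fun x => Y.weak x \ Y.leaf x with hA2
  set A3 : X → Set ℕ := fun x => Y.vert x \ Y.weak x with hA3
  have m2 : MeasL A2 := fun k => (Y.measL_weak hX k).diff (Y.measL_leaf hX k)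
  have m3 : MeasL A3 := fun k => (Y.meas_vert k).diff (Y.measL_weak hX k)
  have hw : ∀ x, 2 * (rk (Y.srob x) : ℝ≥0∞) + 3 * ((supp (Y.s x) ∩ glob A2 x).encard : ℝ≥0∞) +
      2 * ((supp (Y.s x) ∩ glob A3 x).encard : ℝ≥0∞) ≤ 6 * (rk (Y.s x) : ℝ≥0∞) := by
    intro x
    have h1 : glob A2 x ⊆ glob Y.weak x := by
      rintro v ⟨γ, k, rfl, hk⟩
      exact ⟨γ, k, rfl, hk.1⟩
    have h2 : supp (Y.s x) ∩ glob A3 x ⊆ supp (Y.s x) \ glob Y.weak x := by
      rintro v ⟨hv, γ, k, rfl, hk⟩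
      refine ⟨hv, fun h => hk.2 ?_⟩
      exact (ex_mem_glob _ _ _ _).1 h
    have h3 := weight_ineq (Y.s x) (glob Y.weak x) (glob A2 x) h1
    have h4 : 2 * rk (Y.srob x) + 3 * (supp (Y.s x) ∩ glob A2 x).encard +
        2 * (supp (Y.s x) ∩ glob A3 x).encard ≤ 6 * rk (Y.s x) := by
      refine le_trans ?_ h3
      have := encard_le_encard h2
      unfold Str.srob
      gcongr
    exact_mod_cast h4
  have ms2 : Measurable fun x => ((supp (Y.s x) ∩ glob A2 x).encard : ℝ≥0∞) :=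
    measurable_encard_of _ fun v => (Y.meas_s.supp v).inter (m2.glob hX v)
  have ms3 : Measurable fun x => ((supp (Y.s x) ∩ glob A3 x).encard : ℝ≥0∞) :=
    measurable_encard_of _ fun v => (Y.meas_s.supp v).inter (m3.glob hX v)
  have mr : Measurable fun x => (rk (Y.srob x) : ℝ≥0∞) := (Y.measS_srob hX).rk
  have hI := lintegral_mono (μ := μ) hw
  rw [lintegral_add_right _ (ms3.const_mul 2), lintegral_add_right _ (ms2.const_mul 3),
    lintegral_const_mul _ mr, lintegral_const_mul _ ms2, lintegral_const_mul _ ms3,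
    lintegral_const_mul _ Y.meas_s.rk, lintegral_slots hX Y m2, lintegral_slots hX Y m3] at hI
  have e2 : Measurable fun x => ((A2 x).encard : ℝ≥0∞) := measurable_encard_of _ m2
  have e3 : Measurable fun x => ((A3 x).encard : ℝ≥0∞) := measurable_encard_of _ m3
  have h2 : 2 * ∫⁻ x, ((A2 x).encard : ℝ≥0∞) ∂μ ≤
      ∫⁻ x, ∑' k, (A2 x).indicator (fun k => (Y.deg x k : ℝ≥0∞)) k ∂μ := by
    rw [← lintegral_const_mul _ e2]
    refine lintegral_mono_ae ?_
    filter_upwards [hY.one_le_deg hX] with x hx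
    refine Count.mul_encard_le_tsum _ _ _ fun k hk => ?_
    have h1 := hx k hk.1.1
    have h2 : Y.deg x k ≠ 1 := fun h => hk.2 ⟨hk.1.1, h⟩
    have h3 : (2 : ℕ∞) ≤ Y.deg x k := by
      have : (1 : ℕ∞) < Y.deg x k := lt_of_le_of_ne h1 (Ne.symm h2)
      exact Order.add_one_le_of_lt this
    exact_mod_cast h3
  have h3 : 3 * ∫⁻ x, ((A3 x).encard : ℝ≥0∞) ∂μ ≤
      ∫⁻ x, ∑' k, (A3 x).indicator (fun k => (Y.deg x k : ℝ≥0∞)) k ∂μ := by
    rw [← lintegral_const_mul _ e3]
    refine lintegral_mono fun x => ?_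
    refine Count.mul_encard_le_tsum _ _ _ fun k hk => ?_
    have h2 : ¬ Y.deg x k ≤ 2 := fun h => hk.2 ⟨hk.1, h⟩
    have h3 : (3 : ℕ∞) ≤ Y.deg x k := Order.add_one_le_of_lt (not_le.1 h2)
    exact_mod_cast h3
  have hV : Y.V μ ≤ Y.L μ + ∫⁻ x, ((A2 x).encard : ℝ≥0∞) ∂μ +
      ∫⁻ x, ((A3 x).encard : ℝ≥0∞) ∂μ := by
    unfold Str.V Str.L
    rw [← lintegral_add_right _ e2, ← lintegral_add_right _ e3]
    refine lintegral_mono fun x => ?_
    have hsub : Y.vert x ⊆ Y.leaf x ∪ A2 x ∪ A3 x := by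
      intro k hk
      by_cases h1 : k ∈ Y.weak x
      · by_cases h2 : k ∈ Y.leaf x
        · exact Or.inl (Or.inl h2)
        · exact Or.inl (Or.inr ⟨h1, h2⟩)
      · exact Or.inr ⟨hk, h1⟩
    have : (Y.vert x).encard ≤ (Y.leaf x).encard + (A2 x).encard + (A3 x).encard :=
      (encard_le_encard hsub).trans <| (encard_union_le _ _).trans <| by
        gcongr; exact encard_union_le _ _
    simpa using ENat.toENNReal_le.2 this
  set a2 := ∫⁻ x, ((A2 x).encard : ℝ≥0∞) ∂μ
  set a3 := ∫⁻ x, ((A3 x).encard : ℝ≥0∞) ∂μ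
  calc 2 * Y.Rrob μ + 6 * Y.V μ ≤ 2 * Y.Rrob μ + 6 * (Y.L μ + a2 + a3) := by gcongr
    _ = (2 * Y.Rrob μ + 3 * (2 * a2) + 2 * (3 * a3)) + 6 * Y.L μ := by ring
    _ ≤ 6 * Y.E μ + 6 * Y.L μ := by
      gcongr
      refine le_trans ?_ hI
      unfold Str.Rrob
      gcongr

theorem rrob_real (hX : IsFreePMPAction Gam X μ) (Y : Str X) (hY : Valid μ Y) {δ : ℝ}
    (hδ : 0 ≤ δ) (hmin : NearMin μ δ Y) :
    Y.Rrob μ ≠ ∞ ∧ (Y.Rrob μ).toReal ≤ 3 * (Y.df μ + (Y.M μ).toReal + δ) := by
  have h1 := rrob_le hX Y hY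
  have h2 := L_le hX Y hY hmin
  have h3 : 2 * Y.Rrob μ + 6 * Y.V μ ≤ 6 * Y.E μ + 6 * ENNReal.ofReal δ := h1.trans (by gcongr)
  have hE := hY.E_lt.ne
  have hV := hY.V_lt.ne
  have hfin : 6 * Y.E μ + 6 * ENNReal.ofReal δ ≠ ∞ := by finiteness
  have hR : Y.Rrob μ ≠ ∞ := by
    intro h
    rw [h] at h3
    simp at h3
    rcases h3 with h3 | h3
    · exact absurd h3 (by finiteness)
    · exact absurd h3 (by finiteness)
  refine ⟨hR, ?_⟩
  have h4 := ENNReal.toReal_mono hfin h3
  rw [ENNReal.toReal_add (by finiteness) (by finiteness),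
    ENNReal.toReal_add (by finiteness) (by finiteness)] at h4
  simp only [ENNReal.toReal_mul, ENNReal.toReal_ofNat, ENNReal.toReal_ofReal hδ] at h4
  unfold Str.df Str.Phi
  linarith

/-- over a folded polygon, the sides other than `i` carry no cycle -/
theorem folded_poly {V : Type*} (base : V → K) (c : Gam) (s : Fin 100 → Setoid V)
    (h : ∀ j u v, s j u v → u ≠ v →
      base u ≠ base v ∧ IsEnd (c * sig j) (base u) ∧ IsEnd (c * sig j) (base v)) (i : Fin 100) :
    ∑ j, rk (s j) ≤ rk (s i) + rk (⨆ j, s j) := by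
  classical
  set q : Fin 100 → K := fun j => ((c * sig j : Gam) : K) with hq
  have hqi : Function.Injective q := corner_injective c
  set H : Fin 100 → Set V := fun j => {v | v ∈ supp (s j) ∧ base v = q (j + 1)} with hH
  -- the partner of a head point is a tail point
  have hpart : ∀ j u v, s j u v → u ≠ v → base v = q (j + 1) → base u = q j := by
    intro j u v huv hne hv
    obtain ⟨h1, h2, -⟩ := h j u v huv hne
    rcases (isEnd_sig_iff c j _).1 h2 with h2 | h2
    · exact h2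
    · exact absurd (h2.trans hv.symm) h1
  have hsucc : ∀ j : Fin 100, j + 1 ≠ j := by decide
  have hrk : ∀ j, rk (s j) ≤ (H j).encard := by
    intro j
    let rep : V → V := fun v => if hv : v ∈ H j then hv.1.choose else v
    have hrep1 : ∀ v, s j (rep v) v := by
      intro v
      by_cases hv : v ∈ H j
      · simp only [rep, dif_pos hv]; exact hv.1.choose_spec.2
      · simp only [rep, dif_neg hv]; exact (s j).refl' v
    have hkey : ∀ u v, s j u v → u ≠ v → base v = q (j + 1) → rep u = rep v := by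
      intro u v huv hne hv
      have hu := hpart j u v huv hne hv
      have hvH : v ∈ H j := ⟨⟨u, hne, huv⟩, hv⟩
      have huH : u ∉ H j := fun hu' => hsucc j (hqi (hu'.2.symm.trans hu))
      simp only [rep, dif_pos hvH, dif_neg huH]
      obtain ⟨h1, h2⟩ := hvH.1.choose_spec
      have hu' := hpart j _ v h2 h1 hv
      by_contra hne'
      exact (h j _ _ ((s j).trans' huv ((s j).symm' h2)) hne').1 (hu.trans hu'.symm)
    have hrep2 : ∀ u v, s j u v → rep u = rep v := by
      intro u v huv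
      by_cases hne : u = v
      · rw [hne]
      obtain ⟨h1, h2, h3⟩ := h j u v huv hne
      rcases (isEnd_sig_iff c j _).1 h3 with h3 | h3
      · rcases (isEnd_sig_iff c j _).1 h2 with h2 | h2
        · exact absurd (h2.trans h3.symm) h1
        · exact (hkey v u ((s j).symm' huv) (Ne.symm hne) h2).symm
      · exact hkey u v huv hne h3
    rw [rk_eq_of_rep (s j) rep hrep1 hrep2]
    refine encard_le_encard fun v hv => ?_
    by_contra hvH
    exact hv (by simp only [rep, dif_neg hvH])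
  let H' : Fin 100 → Set V := fun j => if j = i then ∅ else H j
  have hdisj : Pairwise (Function.onFun Disjoint H') := by
    intro j j' hjj
    rw [Function.onFun, Set.disjoint_left]
    intro v hv hv'
    by_cases h1 : j = i
    · simp [H', h1] at hv
    by_cases h2 : j' = i
    · simp [H', h2] at hv'
    simp only [H', if_neg h1, if_neg h2] at hv hv'
    exact hjj (add_right_cancel (hqi (hv.2.symm.trans hv'.2)))
  have hA : (⋃ j, H' j).encard ≤ rk (⨆ j, s j) := by
    refine le_rk _ _ ?_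
    have key : ∀ n : ℕ, ∀ j : Fin 100, (j - i).val = n → ∀ v ∈ H' j,
        ∃ u, u ∉ (⋃ j, H' j) ∧ (⨆ j, s j) u v := by
      intro n
      induction n using Nat.strong_induction_on with
      | _ n ih =>
        intro j hj v hv
        by_cases h1 : j = i
        · simp [H', h1] at hv
        simp only [H', if_neg h1] at hv
        obtain ⟨⟨u, hne, huv⟩, hv⟩ := hv
        have hu := hpart j u v huv hne hv
        have huv' : (⨆ j, s j) u v := (le_iSup s j) huv
        by_cases hu' : u ∈ ⋃ j, H' j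
        · obtain ⟨j', hj'⟩ := mem_iUnion.1 hu'
          have hj'' := hj'
          by_cases h2 : j' = i
          · simp [H', h2] at hj'
          simp only [H', if_neg h2] at hj'
          have hjj : j' + 1 = j := hqi (hj'.2.symm.trans hu)
          have hlt : (j' - i).val < n := by
            rw [← hj, ← hjj]
            have hne' : j' + 1 ≠ i := hjj ▸ h1
            clear * - hne'
            have : ∀ a : Fin 100, a + 1 ≠ 0 → a.val < (a + 1).val := by decide
            have h3 := this (j' - i) (by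
              intro h; apply hne'
              have : j' + 1 = i + (j' - i + 1) := by abel
              rw [this, h, add_zero])
            have h4 : j' + 1 - i = j' - i + 1 := by abel
            rw [h4]; exact h3
          obtain ⟨w, hw, hwu⟩ := ih _ hlt j' rfl u hj''
          exact ⟨w, hw, (⨆ j, s j).trans' hwu huv'⟩
        · exact ⟨u, hu', huv'⟩
    intro v hv
    obtain ⟨j, hj⟩ := mem_iUnion.1 hv
    exact key _ j rfl v hj
  rw [encard_iUnion_of_finite hdisj, finsum_eq_sum_of_fintype] at hA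
  rw [← Finset.add_sum_erase _ _ (Finset.mem_univ i)]
  gcongr
  refine le_trans ?_ hA
  refine le_trans ?_ (Finset.sum_le_sum_of_subset (Finset.erase_subset i _))
  refine Finset.sum_le_sum fun j hj => ?_
  simp only [H', if_neg (Finset.ne_of_mem_erase hj)]
  exact hrk j

theorem Count.tsum_lt (m : ℕ) :
    ∑' n : ℕ, (if n < m then (1 : ℝ≥0∞) else 0) = m := by
  rw [tsum_eq_sum (s := Finset.range m)]
  · rw [Finset.sum_congr rfl (g := fun _ => 1)]
    · simp
    · intro n hn; simp [Finset.mem_range.1 hn]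
  · intro n hn; simp [Finset.mem_range.not.1 hn]

/-- layer-cake form of expansion -/
theorem expands_fun (hX : IsFreePMPAction Gam X μ) (hexp : Expands μ) (k : X → ℕ)
    (hk : Measurable k) (hle : ∫⁻ x, (k x : ℝ≥0∞) ∂μ ≤ 1 / 100) (r : X → ℝ≥0∞)
    (hr : ∀ᵐ y ∂μ, ∀ i, (k (sig i • y) : ℝ≥0∞) ≤ r y) :
    14 * ∫⁻ x, (k x : ℝ≥0∞) ∂μ ≤ ∫⁻ y, r y ∂μ := by
  classical
  set A : ℕ → Set X := fun n => {x | n < k x} with hA
  have mA : ∀ n, MeasurableSet (A n) := fun n => hk (MeasurableSet.of_discrete (s := {m | n < m}))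
  set B : ℕ → Set X := fun n => {y | ∃ i, sig i • y ∈ A n} with hB
  have mB : ∀ n, MeasurableSet (B n) := by
    intro n
    have : B n = ⋃ i, (fun y => sig i • y) ⁻¹' A n := by ext y; simp [hB]
    rw [this]
    exact MeasurableSet.iUnion fun i => measurable_smul_of hX _ (mA n)
  have h1 : ∫⁻ x, (k x : ℝ≥0∞) ∂μ = ∑' n, μ (A n) := by
    simp_rw [← lintegral_indicator_one (mA _)]
    rw [← lintegral_tsum fun n => (measurable_one.indicator (mA n)).aemeasurable]
    refine lintegral_congr fun x => ?_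
    rw [← Count.tsum_lt]
    refine tsum_congr fun n => ?_
    simp [hA, indicator_apply]
  have h2 : ∑' n, μ (B n) ≤ ∫⁻ y, r y ∂μ := by
    simp_rw [← lintegral_indicator_one (mB _)]
    rw [← lintegral_tsum fun n => (measurable_one.indicator (mB n)).aemeasurable]
    refine lintegral_mono_ae ?_
    filter_upwards [hr] with y hy
    obtain ⟨i, -, hi⟩ := Finset.exists_max_image Finset.univ (fun i => k (sig i • y))
      Finset.univ_nonempty
    refine le_trans ?_ (hy i)
    rw [← Count.tsum_lt]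
    refine ENNReal.tsum_le_tsum fun n => ?_
    by_cases hn : y ∈ B n
    · obtain ⟨j, hj⟩ := hn
      have : n < k (sig i • y) := lt_of_lt_of_le hj (hi j (Finset.mem_univ _))
      rw [if_pos this]
      exact indicator_le_self' (fun _ _ => zero_le) _
    · simp [hn]
  rw [h1, ← ENNReal.tsum_mul_left]
  refine le_trans (ENNReal.tsum_le_tsum fun n => hexp _ (mA n) ?_) h2
  exact le_trans (ENNReal.le_tsum n) (h1 ▸ hle)

theorem M_bound (hX : IsFreePMPAction Gam X μ) (hexp : Expands μ) (Y : Str X) (hY : Valid μ Y)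
    {δ : ℝ} (hδ : 0 ≤ δ) (hmin : NearMin μ δ Y) :
    14 * ((Y.M μ).toReal - δ - (∫⁻ x in {x | Y.BadPoly x}, (Y.m x : ℝ≥0∞) ∂μ).toReal) ≤
      (Y.Rrob μ).toReal := by
  classical
  obtain ⟨cy, hcm, hcy, hc⟩ := cyc_le hX Y hY hmin
  have hR := (rrob_real hX Y hY hδ hmin).1
  have mB := Y.measurableSet_badPoly hX
  let k : X → ℕ := fun x => if Y.BadPoly x then 0 else ((Y.m x : ℕ∞) - cy x).toNat
  have hfin : ∀ x, (Y.m x : ℕ∞) - cy x ≠ ⊤ := fun x =>
    ne_top_of_le_ne_top (ENat.natCast_ne_top _) tsub_le_self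
  have mm : Measurable fun x => (Y.m x : ℝ≥0∞) := (measurable_of_countable _).comp Y.meas_m
  have hk : Measurable k := by
    refine Measurable.ite mB measurable_const ?_
    have : (fun x => ((Y.m x : ℕ∞) - cy x).toNat) =
        fun x => ⌊((Y.m x : ℝ≥0∞) - (cy x : ℝ≥0∞)).toReal⌋₊ := by
      funext x
      obtain ⟨n, hn⟩ := ENat.ne_top_iff_exists.1 (hfin x)
      have : (Y.m x : ℝ≥0∞) - (cy x : ℝ≥0∞) = n := by
        rw [← ENat.toENNReal_coe (Y.m x), ← ENat.toENNReal_sub, ← hn, ENat.toENNReal_coe]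
      rw [this, ← hn]; simp
    rw [this]
    exact Nat.measurable_floor.comp (mm.sub hcm).ennreal_toReal
  have hkc : ∀ x, ¬ Y.BadPoly x → (k x : ℕ∞) = (Y.m x : ℕ∞) - cy x := by
    intro x hx
    simp only [k, if_neg hx]
    exact ENat.natCast_toNat (hfin x)
  have hkm : ∀ x, (k x : ℝ≥0∞) ≤ Y.m x := by
    intro x
    by_cases hx : Y.BadPoly x
    · simp [k, hx]
    · have : (k x : ℕ∞) ≤ Y.m x := by rw [hkc x hx]; exact tsub_le_self
      exact_mod_cast this
  have hkM : ∫⁻ x, (k x : ℝ≥0∞) ∂μ ≤ Y.M μ := lintegral_mono hkm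
  have hmain : ∀ᵐ x ∂μ, ∀ i, (k x : ℝ≥0∞) ≤ (rk (Y.srob ((sig i)⁻¹ • x)) : ℝ≥0∞) := by
    filter_upwards [hc, hY.cyc, hY.supp_all hX, hY.rk_ne_top hX] with x h1 h2 h3 h4 i
    by_cases hx : Y.BadPoly x
    · simp [k, hx]
    have hle : ∀ j, trS Y.srob x (sig j) ≤ Y.S x (sig j) := fun j u v huv =>
      del_le (Y.s ((sig j)⁻¹ • x)) _ huv
    have h5 := folded_poly Vtx.base 1 (fun j => trS Y.srob x (sig j)) (by
      intro j u v huv hne
      have huv' := hle j huv
      obtain ⟨hu, hv⟩ := mem_supp_of_rel huv' hne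
      rw [one_mul]
      refine ⟨fun hb => hx ⟨j, (sig j)⁻¹ • u, (sig j)⁻¹ • v, ?_, ?_, huv'⟩,
        (h3 _ _ hu).2, (h3 _ _ hv).2⟩
      · exact fun h => hne (MulAction.injective _ h)
      · rw [Vtx.base_smul, Vtx.base_smul, hb]) i
    rw [← trJ_one, rk_trS] at h5
    have f1 : ∑ j, rk (Y.S x (sig j)) ≠ ⊤ := by
      intro h
      obtain ⟨j, -, hj⟩ := (WithTop.sum_eq_top (s := Finset.univ)
        (f := fun j => rk (Y.S x (sig j)))).1 h
      exact h4 _ hj
    have f2 : rk (Y.J x 1) ≠ ⊤ := ne_top_of_le_ne_top f1 (le_trans le_add_self h2)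
    have f3 : rk (trJ Y.srob x 1) ≠ ⊤ := by
      refine ne_top_of_le_ne_top f2 (rk_mono ?_)
      rw [Str.J, trJ_one, trJ_one]
      exact iSup_mono hle
    have h6 : (Y.m x : ℕ∞) + (rk (Y.J x 1) + rk (trJ Y.srob x 1)) ≤
        rk (Y.srob ((sig i)⁻¹ • x)) + cy x + (rk (Y.J x 1) + rk (trJ Y.srob x 1)) := by
      calc (Y.m x : ℕ∞) + (rk (Y.J x 1) + rk (trJ Y.srob x 1))
          = ((Y.m x : ℕ∞) + rk (Y.J x 1)) + rk (trJ Y.srob x 1) := by ring
        _ ≤ ∑ j, rk (Y.S x (sig j)) + rk (trJ Y.srob x 1) := by gcongr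
        _ ≤ _ := h1
        _ ≤ rk (Y.srob ((sig i)⁻¹ • x)) + rk (trJ Y.srob x 1) + rk (Y.J x 1) + cy x := by gcongr
        _ = _ := by ring
    have h7 := (ENat.add_le_add_iff_right (WithTop.add_ne_top.2 ⟨f2, f3⟩)).1 h6
    have h8 : (k x : ℕ∞) ≤ rk (Y.srob ((sig i)⁻¹ • x)) := by
      rw [hkc x hx]; exact tsub_le_iff_right.2 h7
    exact_mod_cast h8
  have h9 := expands_fun hX hexp k hk (hkM.trans hY.M_le) (fun y => (rk (Y.srob y) : ℝ≥0∞)) (by
    filter_upwards [ae_forall_smul hX hmain] with y hy i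
    simpa using hy (sig i) i)
  have h10 : Y.M μ ≤ ∫⁻ x, (k x : ℝ≥0∞) ∂μ + ENNReal.ofReal δ +
      ∫⁻ x in {x | Y.BadPoly x}, (Y.m x : ℝ≥0∞) ∂μ := by
    refine le_trans ?_ (add_le_add (add_le_add le_rfl hcy) le_rfl)
    rw [← lintegral_add_right _ hcm, ← lintegral_indicator mB,
      ← lintegral_add_right _ (mm.indicator mB)]
    refine lintegral_mono fun x => ?_
    by_cases hx : Y.BadPoly x
    · rw [indicator_of_mem (show x ∈ {x | Y.BadPoly x} from hx)]
      exact le_add_self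
    · have : (Y.m x : ℕ∞) ≤ k x + cy x := by rw [hkc x hx]; exact le_tsub_add
      refine le_trans ?_ le_self_add
      simpa using ENat.toENNReal_le.2 this
  have fM : Y.M μ ≠ ∞ := ne_top_of_le_ne_top (by simp) hY.M_le
  have fk : ∫⁻ x, (k x : ℝ≥0∞) ∂μ ≠ ∞ := ne_top_of_le_ne_top fM hkM
  have fB : ∫⁻ x in {x | Y.BadPoly x}, (Y.m x : ℝ≥0∞) ∂μ ≠ ∞ :=
    ne_top_of_le_ne_top fM (setLIntegral_le_lintegral _ _)
  have h11 := ENNReal.toReal_mono (by finiteness) h10
  rw [ENNReal.toReal_add (by finiteness) fB, ENNReal.toReal_add fk (by finiteness),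
    ENNReal.toReal_ofReal hδ] at h11
  have h12 := ENNReal.toReal_mono hR h9
  rw [ENNReal.toReal_mul, ENNReal.toReal_ofNat] at h12
  linarith

theorem special_le (hX : IsFreePMPAction Gam X μ) (Y : Str X) :
    μ {x | Y.s x (Vtx.sp ((1 : Gam) : K)) (Vtx.sp (aa : K))} ≤ Y.Rrob μ := by
  rw [← lintegral_indicator_one (Y.meas_s _ _)]
  refine lintegral_mono fun x => ?_
  by_cases hx : x ∈ {x | Y.s x (Vtx.sp ((1 : Gam) : K)) (Vtx.sp (aa : K))}
  · rw [indicator_of_mem hx]
    have : 1 ≤ rk (Y.srob x) := by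
      refine one_le_rk (u := Vtx.sp ((1 : Gam) : K)) (v := Vtx.sp (aa : K))
        (Or.inr ⟨hx, sp_notMem_glob _ _ _, sp_notMem_glob _ _ _⟩) ?_
      intro h
      exact coe_aa_ne_one (Vtx.sp.inj h).symm
    simpa using ENat.toENNReal_le.2 this
  · simp [hx]

end Crest.Agent.R191
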