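import Mathlib
import Crest.Prelude.Def_Cost

/-!
# Row 191 (fixed price fails): definitions

See `Crest/Agent/R191/Blueprint.lean` for the whole proof in words.

Group: `F` free on 99 generators, `sigF 0 = 1`, `sigF (i+1) = of i`, `yF i = (sigF i)⁻¹ * sigF (i+1)`
(indices cyclic in `Fin 100`), `U = ⟨(yF 0)⁻¹ * yF j⟩`, `Gam = FreeGroup (F ⧸ U) ⋊ F`
(this is `F *_U (U × ℤ)`), `tt` the stable letter, `Gsub = U × ⟨tt⟩`, `aa = yF 0`.

Geometry (coordinates: the group element `γ` stands for the point `γ⁻¹ • x` of the orbit of `x`):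
* `K = Gam ⧸ Gsub` are the vertices of a polygonal complex,
* every `z : Gam` is an edge ("variable") from `z Gsub` to `z aa Gsub`,
* every `c : Gam` is a 100-gon ("check") with sides the variables `c * sig i`.
-/

set_option autoImplicit false

open MeasureTheory Set
open scoped ENNReal

namespace Crest.Agent.R191

/-! ## The group -/

abbrev F : Type := FreeGroup (Fin 99)

/-- `sigF 0 = 1`, `sigF (i+1) = of i`. -/
def sigF (i : Fin 100) : F := Fin.cases (motive := fun _ => F) 1 FreeGroup.of i

def yF (i : Fin 100) : F := (sigF i)⁻¹ * sigF (i + 1)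

def U : Subgroup F := Subgroup.closure (Set.range fun j : Fin 100 => (yF 0)⁻¹ * yF j)

abbrev Q : Type := F ⧸ U

abbrev N : Type := FreeGroup Q

/-- `F` permutes the free basis `F ⧸ U` of `N`. -/
def actN : F →* MulAut N where
  toFun f := FreeGroup.freeGroupCongr (MulAction.toPerm f)
  map_one' := by
    ext x
    have : (MulAction.toPerm (1 : F) : Equiv.Perm Q) = Equiv.refl _ := by
      ext q; simp
    rw [this]; simp
  map_mul' f g := by
    have : (MulAction.toPerm (f * g) : Equiv.Perm Q) =
        (MulAction.toPerm g : Equiv.Perm Q).trans (MulAction.toPerm f) := by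
      ext q; simp [mul_smul]
    rw [this, ← FreeGroup.freeGroupCongr_trans]
    rfl

/-- The group of the counterexample. -/
abbrev Gam : Type := N ⋊[actN] F

/-- the basis element of `N` given by the trivial coset -/
def tN : N := FreeGroup.of ((1 : F) : Q)

/-- the stable letter -/
def tt : Gam := SemidirectProduct.inl tN

def sig (i : Fin 100) : Gam := SemidirectProduct.inr (sigF i)

def aa : Gam := SemidirectProduct.inr (yF 0)

theorem actN_of (f : F) (q : Q) : actN f (FreeGroup.of q) = FreeGroup.of (f • q) := by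
  simp [actN, FreeGroup.freeGroupCongr]

theorem actN_tN_of_mem {u : F} (hu : u ∈ U) : actN u tN = tN := by
  rw [tN, actN_of]
  congr 1
  change ((u • (1 : F) : F) : Q) = _
  rw [QuotientGroup.eq]
  simpa using hu

/-- `Gsub = U × ⟨tt⟩`. -/
def Gsub : Subgroup Gam where
  carrier := {γ | γ.right ∈ U ∧ γ.left ∈ Subgroup.zpowers tN}
  one_mem' := ⟨U.one_mem, (Subgroup.zpowers tN).one_mem⟩
  mul_mem' := by
    rintro a b ⟨ha, ha'⟩ ⟨hb, k, hk⟩
    refine ⟨U.mul_mem ha hb, ?_⟩
    rw [SemidirectProduct.mul_left]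
    refine (Subgroup.zpowers tN).mul_mem ha' ?_
    have hk' : tN ^ k = b.left := hk
    rw [← hk', map_zpow, actN_tN_of_mem ha]
    exact Subgroup.zpow_mem_zpowers tN k
  inv_mem' := by
    rintro a ⟨ha, k, hk⟩
    refine ⟨U.inv_mem ha, ?_⟩
    have hk' : tN ^ k = a.left := hk
    rw [SemidirectProduct.inv_left, ← hk', map_inv, map_zpow, actN_tN_of_mem (U.inv_mem ha)]
    exact (Subgroup.zpowers tN).inv_mem (Subgroup.zpow_mem_zpowers tN k)

instance : Countable Q := Quotient.countable

instance : Countable Gam := (SemidirectProduct.equivProd (φ := actN)).injective.countable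

/-- vertices of the polygonal complex -/
abbrev K : Type := Gam ⧸ Gsub

instance : Countable K := Quotient.countable

/-- `q` is one of the two ends of the variable (edge) `z`. -/
def IsEnd (z : Gam) (q : K) : Prop := q = (z : K) ∨ q = ((z * aa : Gam) : K)

/-! ## Vertices of the measured complexes -/

/-- `sp q` is the special vertex over `q`; `ex γ k` is the extra vertex with label `k` located at
the orbit point `γ`; it lies over `γ Gsub`. -/
inductive Vtx : Type
  | sp (q : K) : Vtx
  | ex (γ : Gam) (k : ℕ) : Vtx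

namespace Vtx

def base : Vtx → K
  | sp q => q
  | ex γ _ => (γ : K)

instance : SMul Gam Vtx where
  smul g v := match v with
    | sp q => sp (g • q)
    | ex γ k => ex (g * γ) k

@[simp] theorem smul_sp (g : Gam) (q : K) : g • sp q = sp (g • q) := rfl
@[simp] theorem smul_ex (g γ : Gam) (k : ℕ) : g • ex γ k = ex (g * γ) k := rfl
@[simp] theorem base_sp (q : K) : (sp q).base = q := rfl
@[simp] theorem base_ex (γ : Gam) (k : ℕ) : (ex γ k).base = (γ : K) := rfl

instance : MulAction Gam Vtx where
  one_smul v := by cases v <;> simp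
  mul_smul g h v := by cases v <;> simp [mul_smul, mul_assoc]

@[simp] theorem base_smul (g : Gam) (v : Vtx) : (g • v).base = g • v.base := by
  cases v <;> rfl

instance : Countable Vtx := by
  let f : Vtx → K ⊕ (Gam × ℕ) := fun v => match v with
    | sp q => Sum.inl q
    | ex γ k => Sum.inr (γ, k)
  refine Function.Injective.countable (f := f) ?_
  intro u v h
  cases u <;> cases v <;> simp_all [f]

end Vtx

/-! ## Equivalence relations and their rank -/

section Rank
variable {V : Type*}

/-- The rank of an equivalence relation: the number of points that are not the chosen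
representative of their class (`= ∑ over classes (size - 1)`). -/
noncomputable def rk (s : Setoid V) : ℕ∞ :=
  {v | (Quotient.mk s v).out ≠ v}.encard

/-- points in non-trivial classes -/
def supp (s : Setoid V) : Set V := {v | ∃ u, u ≠ v ∧ s u v}

/-- delete the points of `P` from their classes -/
def del (s : Setoid V) (P : Set V) : Setoid V where
  r u v := u = v ∨ (s u v ∧ u ∉ P ∧ v ∉ P)
  iseqv :=
    { refl := fun _ => Or.inl rfl
      symm := by
        rintro u v (h | ⟨h, hu, hv⟩)
        · exact Or.inl h.symm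
        · exact Or.inr ⟨s.symm' h, hv, hu⟩
      trans := by
        rintro u v w (h | ⟨h, hu, hv⟩) (h' | ⟨h', hv', hw⟩)
        · exact Or.inl (h.trans h')
        · subst h; exact Or.inr ⟨h', hv', hw⟩
        · subst h'; exact Or.inr ⟨h, hu, hv⟩
        · exact Or.inr ⟨s.trans' h h', hu, hw⟩ }

/-- the equivalence relation whose only non-trivial class is `{u, v}` -/
def pairS (u v : V) : Setoid V := Relation.EqvGen.setoid fun a b => a = u ∧ b = v

end Rank

/-! ## Measured structures -/

section Str
variable {X : Type} [MeasurableSpace X] [MulAction Gam X]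

/-- A measurable family of relations on `Vtx`. -/
def MeasS (s : X → Setoid Vtx) : Prop := ∀ u v, MeasurableSet {x | s x u v}

/-- A measurable family of sets of labels. -/
def MeasL (A : X → Set ℕ) : Prop := ∀ k, MeasurableSet {x | k ∈ A x}

/-- The relation on the variable `γ` seen from `x`: the translate of the local relation at the
orbit point `γ⁻¹ • x`. -/
def trS (s : X → Setoid Vtx) (x : X) (γ : Gam) : Setoid Vtx :=
  (s (γ⁻¹ • x)).comap fun v => γ⁻¹ • v

/-- The join over the sides of the polygon `c` seen from `x`. -/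
def trJ (s : X → Setoid Vtx) (x : X) (c : Gam) : Setoid Vtx := ⨆ i, trS s x (c * sig i)

/-- The extra vertices given by local label sets `A`, seen from `x`. -/
def glob (A : X → Set ℕ) (x : X) : Set Vtx := {v | ∃ γ k, v = Vtx.ex γ k ∧ k ∈ A (γ⁻¹ • x)}

/-- The relabelling given by local targets `τ` (`τ x k` is the target of `ex 1 k`), seen from `x`. -/
def relab (τ : X → ℕ → Vtx) (x : X) : Vtx → Vtx
  | Vtx.sp q => Vtx.sp q
  | Vtx.ex γ k => γ • τ (γ⁻¹ • x) k

variable (X) in
/-- Local data: the relation on the variable `1`, the number of cycles credited to the polygon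
`1`, the labels of the extra vertices located at `1`. -/
structure Str where
  s : X → Setoid Vtx
  m : X → ℕ
  vert : X → Set ℕ
  meas_s : MeasS s
  meas_m : Measurable m
  meas_vert : MeasL vert

namespace Str
variable (Y : Str X)

abbrev S (x : X) (γ : Gam) : Setoid Vtx := trS Y.s x γ
abbrev J (x : X) (c : Gam) : Setoid Vtx := trJ Y.s x c

/-- all vertices seen from `x` -/
def Vert (x : X) : Set Vtx := Set.range Vtx.sp ∪ glob Y.vert x

/-- the number of variables whose relation involves `ex 1 k` -/
noncomputable def deg (x : X) (k : ℕ) : ℕ∞ := {z : Gam | Vtx.ex 1 k ∈ supp (Y.S x z)}.encard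

def leaf (x : X) : Set ℕ := {k | k ∈ Y.vert x ∧ Y.deg x k = 1}

def weak (x : X) : Set ℕ := {k | k ∈ Y.vert x ∧ Y.deg x k ≤ 2}

/-- the relation restricted to robust vertices (special, or of degree at least 3) -/
def srob (x : X) : Setoid Vtx := del (Y.s x) (glob Y.weak x)

/-- the relation on the variable `1` is not folded -/
def Bad (x : X) : Prop := ∃ u v, u ≠ v ∧ u.base = v.base ∧ Y.s x u v

/-- some side of the polygon `1` is not folded -/
def BadPoly (x : X) : Prop := ∃ i, Y.Bad ((sig i)⁻¹ • x)

noncomputable def E (μ : Measure X) : ℝ≥0∞ := ∫⁻ x, (rk (Y.s x) : ℝ≥0∞) ∂μ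
noncomputable def M (μ : Measure X) : ℝ≥0∞ := ∫⁻ x, (Y.m x : ℝ≥0∞) ∂μ
noncomputable def V (μ : Measure X) : ℝ≥0∞ := ∫⁻ x, ((Y.vert x).encard : ℝ≥0∞) ∂μ
noncomputable def L (μ : Measure X) : ℝ≥0∞ := ∫⁻ x, ((Y.leaf x).encard : ℝ≥0∞) ∂μ
noncomputable def Rrob (μ : Measure X) : ℝ≥0∞ := ∫⁻ x, (rk (Y.srob x) : ℝ≥0∞) ∂μ

/-- the potential -/
noncomputable def Phi (μ : Measure X) : ℝ := (Y.E μ).toReal - (Y.M μ).toReal

/-- the deficiency -/
noncomputable def df (μ : Measure X) : ℝ := Y.Phi μ - (Y.V μ).toReal

end Str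

/-- The class of structures over which the potential is minimised. -/
structure Valid (μ : Measure X) (Y : Str X) : Prop where
  supp : ∀ᵐ x ∂μ, ∀ v ∈ supp (Y.s x), v ∈ Y.Vert x ∧ IsEnd 1 v.base
  conn : ∀ᵐ x ∂μ, ∀ u ∈ Y.Vert x, ∀ v ∈ Y.Vert x, (⨆ γ, Y.S x γ) u v
  cyc : ∀ᵐ x ∂μ, (Y.m x : ℕ∞) + rk (Y.J x 1) ≤ ∑ i, rk (Y.S x (sig i))
  E_lt : Y.E μ < ∞
  V_lt : Y.V μ < ∞
  M_le : Y.M μ ≤ 1 / 100

/-- `Y'` is a successor of `Y` through the vertex maps `ρ x`. -/
structure Succ (μ : Measure X) (Y Y' : Str X) (ρ : X → Vtx → Vtx) : Prop where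
  meas : ∀ v w, MeasurableSet {x | ρ x v = w}
  base : ∀ x v, (ρ x v).base = v.base
  sp : ∀ x q, ρ x (Vtx.sp q) = Vtx.sp q
  rel : ∀ᵐ x ∂μ, ∀ γ u v, Y.S x γ u v → Y'.S x γ (ρ x u) (ρ x v)

/-- `Y` minimises the potential up to `δ` among valid structures of no larger deficiency. -/
def NearMin (μ : Measure X) (δ : ℝ) (Y : Str X) : Prop :=
  ∀ Y' : Str X, Valid μ Y' → Y'.df μ ≤ Y.df μ → Y.Phi μ - δ ≤ Y'.Phi μ

/-- small sets expand by a factor 14 under the elements `sig i` -/
def Expands (μ : Measure X) : Prop :=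
  ∀ A : Set X, MeasurableSet A → μ A ≤ 1 / 100 → 14 * μ A ≤ μ {y | ∃ i, sig i • y ∈ A}

/-- arbitrarily small sets meet almost every orbit of the stable letter -/
def HasMarkers (μ : Measure X) : Prop :=
  ∀ η : ℝ≥0∞, 0 < η → ∃ D : Set X, MeasurableSet D ∧ μ D ≤ η ∧ ∀ᵐ x ∂μ, ∃ k : ℤ, tt ^ k • x ∈ D

/-- the space is a finite union of sets of measure at most `1/200` -/
def SmallCover (μ : Measure X) : Prop :=
  ∃ (n : ℕ) (D : Fin n → Set X), (∀ j, MeasurableSet (D j)) ∧ (∀ j, μ (D j) ≤ 1 / 200) ∧
    ∀ x, ∃ j, x ∈ D j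

end Str

/-- A family of relations on the variables that is closed under folding and attaching. -/
structure Closed {V : Type*} (base : V → K) (D : Gam → Setoid V) : Prop where
  transfer : ∀ z z' u v, D z u v → base u = base v → D z' u v
  attach : ∀ c i u v, (⨆ j, D (c * sig j)) u v → IsEnd (c * sig i) (base u) →
    IsEnd (c * sig i) (base v) → D (c * sig i) u v
  proper : ∀ z u v, D z u v → base u = base v ∨ (IsEnd z (base u) ∧ IsEnd z (base v))

/-- A rooting of the bipartite forest of a free `F`-set `Z`: the check `c` has the variables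
`(sigF i)⁻¹ • c`; `b c` is the position of its base variable, the others are its children. -/
structure Rooting (Z : Type*) [MulAction F Z] where
  b : Z → Fin 100
  ρ : Z → ℕ
  par_unique : ∀ z i j, b (sigF i • z) ≠ i → b (sigF j • z) ≠ j → i = j
  rank_lt : ∀ c i, b (sigF i • ((sigF (b c))⁻¹ • c)) ≠ i →
    ρ (sigF i • ((sigF (b c))⁻¹ • c)) < ρ c

/-! ## The Bernoulli shift -/

/-- the space of the Bernoulli shift -/
def Bern : Type := Gam × ℕ → Bool

instance : MeasurableSpace Bern := inferInstanceAs (MeasurableSpace (Gam × ℕ → Bool))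

instance : StandardBorelSpace Bern := inferInstanceAs (StandardBorelSpace (Gam × ℕ → Bool))

instance : MulAction Gam Bern where
  smul g x := fun p => x (g⁻¹ * p.1, p.2)
  one_smul x := by
    funext p; change x (1⁻¹ * p.1, p.2) = x p; simp
  mul_smul g h x := by
    funext p
    change x ((g * h)⁻¹ * p.1, p.2) = x (h⁻¹ * (g⁻¹ * p.1), p.2)
    simp [mul_assoc]

theorem Bern.smul_apply (g : Gam) (x : Bern) (p : Gam × ℕ) :
    (g • x) p = x (g⁻¹ * p.1, p.2) := rfl

/-- the fair coin -/
noncomputable def coin : Measure Bool := ProbabilityTheory.uniformOn Set.univ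

instance : IsProbabilityMeasure coin := by unfold coin; infer_instance

noncomputable def bernM : Measure Bern :=
  (Measure.infinitePi fun _ : Gam × ℕ => coin : Measure (Gam × ℕ → Bool))

instance : IsProbabilityMeasure bernM := by
  unfold bernM
  exact inferInstanceAs (IsProbabilityMeasure
    (Measure.infinitePi fun _ : Gam × ℕ => coin : Measure (Gam × ℕ → Bool)))

end Crest.Agent.R191
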