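import Crest.Agent.R191.Tree

/-! The local-to-global (Dehn) property of the polygonal complex. -/

set_option autoImplicit false

open MeasureTheory Set
open scoped ENNReal

namespace Crest.Agent.R191

section Abstract
variable {V : Type*}

/-- Peeling off one layer of cells. -/
theorem dehn_peel {ι Z : Type*} (R : Setoid V) (T : ι → Setoid V) (New : ι → Set V)
    (hdisj : ∀ κ κ' u, u ∈ New κ → u ∈ New κ' → κ = κ')
    (hTR : ∀ κ u v, (∀ κ', u ∉ New κ') → (∀ κ', v ∉ New κ') → T κ u v → R u v)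
    (D : Z → Setoid V)
    (hD : ∀ z u v, D z u v → ((∀ κ', u ∉ New κ') ∧ (∀ κ', v ∉ New κ') ∧ R u v) ∨
      ∃ κ, (u ∈ New κ ∨ ∀ κ', u ∉ New κ') ∧ (v ∈ New κ ∨ ∀ κ', v ∉ New κ') ∧ T κ u v)
    (u v : V) (h : (⨆ z, D z) u v) (hu : ∀ κ', u ∉ New κ') (hv : ∀ κ', v ∉ New κ') : R u v := by
  let P : V → Set V := fun w => {o | ((∀ κ', w ∉ New κ') ∧ R w o) ∨
    ∃ κ, w ∈ New κ ∧ ∃ o', (∀ κ', o' ∉ New κ') ∧ T κ w o' ∧ R o' o}
  have h1 : ∀ a b, (∀ κ', a ∉ New κ') → (∀ κ', b ∉ New κ') → R a b → P a ⊆ P b := by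
    rintro a b ha hb hab o (⟨_, ho⟩ | ⟨κ, hκ, _⟩)
    · exact Or.inl ⟨hb, R.trans' (R.symm' hab) ho⟩
    · exact absurd hκ (ha κ)
  have h2 : ∀ κ a b, (a ∈ New κ ∨ ∀ κ', a ∉ New κ') → (b ∈ New κ ∨ ∀ κ', b ∉ New κ') →
      T κ a b → P a ⊆ P b := by
    rintro κ a b ha hb hab o (⟨ha', ho⟩ | ⟨κ', hκ', o', ho', hT, hR⟩)
    · rcases hb with hb | hb
      · exact Or.inr ⟨κ, hb, a, ha', (T κ).symm' hab, ho⟩
      · exact Or.inl ⟨hb, R.trans' (hTR κ b a hb ha' ((T κ).symm' hab)) ho⟩
    · have hκ : κ' = κ := by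
        rcases ha with ha | ha
        · exact hdisj _ _ a hκ' ha
        · exact absurd hκ' (ha κ')
      subst hκ
      have hT' : T κ' b o' := (T κ').trans' ((T κ').symm' hab) hT
      rcases hb with hb | hb
      · exact Or.inr ⟨κ', hb, o', ho', hT', hR⟩
      · exact Or.inl ⟨hb, R.trans' (hTR κ' b o' hb ho' hT') hR⟩
  have hle : (⨆ z, D z) ≤ Setoid.ker P := by
    refine iSup_le fun z => Setoid.le_def.2 fun {a b} hab => ?_
    rw [Setoid.ker_def]
    rcases hD z a b hab with ⟨ha, hb, hR⟩ | ⟨κ, ha, hb, hT⟩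
    · exact Set.Subset.antisymm (h1 a b ha hb hR) (h1 b a hb ha (R.symm' hR))
    · exact Set.Subset.antisymm (h2 κ a b ha hb hT) (h2 κ b a hb ha ((T κ).symm' hT))
  have hP : P u = P v := Setoid.ker_def.1 (Setoid.le_def.1 hle h)
  have hvv : v ∈ P u := by
    rw [hP]
    exact Or.inl ⟨hv, R.refl' v⟩
  rcases hvv with ⟨_, h'⟩ | ⟨κ, hκ, _⟩
  · exact h'
  · exact absurd hκ (hu κ)

/-- Descending through the levels. -/
theorem dehn_levels {Z : Type*} (D : Z → Setoid V) (Lev : Z → ℕ → Prop)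
    (hmono : ∀ z m, Lev z m → Lev z (m + 1)) (hall : ∀ z, ∃ m, Lev z m) (u v : V)
    (hstep : ∀ m, (⨆ z : {z // Lev z (m + 1)}, D z.1) u v → (⨆ z : {z // Lev z m}, D z.1) u v)
    (h : (⨆ z, D z) u v) : (⨆ z : {z // Lev z 0}, D z.1) u v := by
  let R : ℕ → Setoid V := fun m => ⨆ z : {z // Lev z m}, D z.1
  have hR : Monotone R := by
    refine monotone_nat_of_le_succ fun m => iSup_le fun z => ?_
    exact le_iSup_of_le (f := fun z : {z // Lev z (m + 1)} => D z.1) ⟨z.1, hmono _ _ z.2⟩ le_rfl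
  let W : Setoid V :=
    { r := fun a b => ∃ m, R m a b
      iseqv :=
        { refl := fun a => ⟨0, (R 0).refl' a⟩
          symm := fun ⟨m, hm⟩ => ⟨m, (R m).symm' hm⟩
          trans := fun ⟨m, hm⟩ ⟨m', hm'⟩ => ⟨max m m', (R _).trans'
            (Setoid.le_def.1 (hR (le_max_left m m')) hm)
            (Setoid.le_def.1 (hR (le_max_right m m')) hm')⟩ } }
  have hle : (⨆ z, D z) ≤ W := by
    refine iSup_le fun z => Setoid.le_def.2 fun {a b} hab => ?_
    obtain ⟨m, hm⟩ := hall z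
    exact ⟨m, Setoid.le_def.1 (le_iSup (fun z : {z // Lev z m} => D z.1) ⟨z, hm⟩) hab⟩
  obtain ⟨m, hm⟩ : ∃ m, R m u v := Setoid.le_def.1 hle h
  induction m with
  | zero => exact hm
  | succ m ih => exact ih (hstep m hm)

/-- Points related through a family of variables have the same base and are related everywhere,
or both lie over ends of variables of the family. -/
theorem dehn_ends {base : V → K} {D : Gam → Setoid V} (hD : Closed base D) {Z : Type*}
    (e : Z → Gam) (A : Set K) (hA : ∀ z q, IsEnd (e z) q → q ∈ A) (u v : V)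
    (h : (⨆ z, D (e z)) u v) :
    (base u = base v ∧ ∀ z', D z' u v) ∨ (base u ∈ A ∧ base v ∈ A) := by
  let W : Setoid V :=
    { r := fun a b => (base a = base b ∧ ∀ z', D z' a b) ∨ (base a ∈ A ∧ base b ∈ A)
      iseqv :=
        { refl := fun a => Or.inl ⟨rfl, fun z' => (D z').refl' a⟩
          symm := by
            rintro a b (⟨h1, h2⟩ | ⟨h1, h2⟩)
            · exact Or.inl ⟨h1.symm, fun z' => (D z').symm' (h2 z')⟩
            · exact Or.inr ⟨h2, h1⟩
          trans := by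
            rintro a b c (⟨h1, h2⟩ | ⟨h1, h2⟩) (⟨h3, h4⟩ | ⟨h3, h4⟩)
            · exact Or.inl ⟨h1.trans h3, fun z' => (D z').trans' (h2 z') (h4 z')⟩
            · exact Or.inr ⟨h1 ▸ h3, h4⟩
            · exact Or.inr ⟨h1, h3 ▸ h2⟩
            · exact Or.inr ⟨h1, h4⟩ } }
  have hle : (⨆ z, D (e z)) ≤ W := by
    refine iSup_le fun z => Setoid.le_def.2 fun {a b} hab => ?_
    rcases hD.proper _ a b hab with h1 | ⟨h1, h2⟩
    · exact Or.inl ⟨h1, fun z' => hD.transfer _ z' a b hab h1⟩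
    · exact Or.inr ⟨hA z _ h1, hA z _ h2⟩
  exact Setoid.le_def.1 hle h

end Abstract

/-! ## Layer 1: one coset of `F` -/

/-- The half-variables (`true` = head, `false` = tail) below the corner `j + 1` of the check `c`. -/
inductive DehnH (b : F → Fin 100) (c : F) (j : Fin 100) : F → Bool → Prop
  | head : DehnH b c j (c * sigF j) true
  | tail : DehnH b c j (c * sigF (j + 1)) false
  | down_head (c' : F) : DehnH b c j (c' * sigF (b c')) true →
      DehnH b c j (c' * sigF (b c' + 1)) false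
  | down_tail (c' : F) (i : Fin 100) : b c' = i + 1 → DehnH b c j (c' * sigF (i + 1)) false →
      DehnH b c j (c' * sigF i) true

theorem dehn_succ_ne (i : Fin 100) : i + 1 ≠ i := by
  intro h
  simp at h

section Layer1
variable {b : F → Fin 100} {ρ : F → ℕ}
  (hpar : ∀ z i j, b (z * (sigF i)⁻¹) ≠ i → b (z * (sigF j)⁻¹) ≠ j → i = j)
  (hrank : ∀ c i, b (c * sigF (b c) * (sigF i)⁻¹) ≠ i → ρ (c * sigF (b c) * (sigF i)⁻¹) < ρ c)
  (hroot : ∀ i, b (sigF i)⁻¹ = i)
  (hex : ∀ z, z ≠ 1 → ∃ i, b (z * (sigF i)⁻¹) ≠ i)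

include hpar in
theorem dehn_par {c c' : F} {i i' : Fin 100} (h : c * sigF i = c' * sigF i') (hi : b c ≠ i)
    (hi' : b c' ≠ i') : i = i' ∧ c = c' := by
  have h1 : i = i' := hpar (c * sigF i) i i' (by simpa using hi) (by rw [h]; simpa using hi')
  subst h1
  exact ⟨rfl, mul_right_cancel h⟩

include hpar in
theorem dehnH_move {c : F} {j : Fin 100} (hj : b c ≠ j) (hj' : b c ≠ j + 1) (c' : F) (i : Fin 100) :
    DehnH b c j (c' * sigF i) true ↔ DehnH b c j (c' * sigF (i + 1)) false := by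
  constructor
  · intro h
    by_cases hb : b c' = i
    · subst hb
      exact DehnH.down_head c' h
    · generalize hz : c' * sigF i = z at h
      generalize hs : true = s at h
      cases h with
      | head =>
        obtain ⟨h1, h2⟩ := dehn_par hpar hz hb hj
        subst h1; subst h2
        exact DehnH.tail
      | tail => exact absurd hs (by simp)
      | down_head c'' _ => exact absurd hs (by simp)
      | down_tail c'' k hk h' =>
        obtain ⟨h1, h2⟩ := dehn_par hpar hz hb (by rw [hk]; exact dehn_succ_ne k)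
        subst h1; subst h2
        exact h'
  · intro h
    by_cases hb : b c' = i + 1
    · exact DehnH.down_tail c' i hb h
    · generalize hz : c' * sigF (i + 1) = z at h
      generalize hs : false = s at h
      cases h with
      | head => exact absurd hs (by simp)
      | tail =>
        obtain ⟨h1, h2⟩ := dehn_par hpar hz hb hj'
        have h3 : i = j := add_right_cancel h1
        subst h3; subst h2
        exact DehnH.head
      | down_head c'' h' =>
        obtain ⟨h1, h2⟩ := dehn_par hpar hz hb (dehn_succ_ne _).symm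
        have h3 : i = b c'' := add_right_cancel h1
        subst h3; subst h2
        exact h'
      | down_tail c'' k hk h' => exact absurd hs (by simp)

include hpar in
theorem dehnH_move' {c : F} {j : Fin 100} (hj : b c ≠ j) (hj' : b c ≠ j + 1) (z : F) (i : Fin 100) :
    DehnH b c j z true ↔ DehnH b c j (z * yF i) false := by
  have := dehnH_move hpar hj hj' (z * (sigF i)⁻¹) i
  simpa [yF, mul_assoc] using this

include hpar in
theorem dehnH_U {c : F} {j : Fin 100} (hj : b c ≠ j) (hj' : b c ≠ j + 1) {g : F} (hg : g ∈ U) :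
    ∀ w, DehnH b c j w false ↔ DehnH b c j (w * g) false := by
  induction hg using Subgroup.closure_induction with
  | mem x hx =>
    obtain ⟨i, rfl⟩ := hx
    intro w
    have h1 := dehnH_move' hpar hj hj' (w * (yF 0)⁻¹) 0
    have h2 := dehnH_move' hpar hj hj' (w * (yF 0)⁻¹) i
    rw [inv_mul_cancel_right] at h1
    rw [← h1, h2, mul_assoc]
  | one => intro w; simp
  | mul x y _ _ hx hy => intro w; rw [hx, hy, mul_assoc]
  | inv x _ hx => intro w; rw [hx (w * x⁻¹)]; simp

/-- the variable `z` has level at most `m` -/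
def DehnLev (b : F → Fin 100) (ρ : F → ℕ) (z : F) (m : ℕ) : Prop :=
  z = 1 ∨ ∃ i, b (z * (sigF i)⁻¹) ≠ i ∧ ρ (z * (sigF i)⁻¹) < m

include hpar hroot in
theorem dehnLev_child {c : F} {i : Fin 100} (hi : b c ≠ i) (m : ℕ) :
    DehnLev b ρ (c * sigF i) m ↔ ρ c < m := by
  constructor
  · rintro (h | ⟨k, hk, hk'⟩)
    · exfalso
      have : c = (sigF i)⁻¹ := eq_inv_of_mul_eq_one_left h
      exact hi (this ▸ hroot i)
    · have : k = i := hpar (c * sigF i) k i hk (by simpa using hi)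
      subst this
      simpa using hk'
  · intro h
    exact Or.inr ⟨i, by simpa using hi, by simpa using h⟩

include hrank hex in
theorem dehnLev_base (c : F) {m : ℕ} (h : ρ c ≤ m) : DehnLev b ρ (c * sigF (b c)) m := by
  by_cases h1 : c * sigF (b c) = 1
  · exact Or.inl h1
  · obtain ⟨i, hi⟩ := hex _ h1
    exact Or.inr ⟨i, hi, (hrank c i hi).trans_le h⟩

theorem dehnLev_succ {z : F} {m : ℕ} (h : DehnLev b ρ z m) : DehnLev b ρ z (m + 1) := by
  rcases h with h | ⟨i, hi, hi'⟩
  · exact Or.inl h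
  · exact Or.inr ⟨i, hi, Nat.lt_succ_of_lt hi'⟩

include hpar hrank hroot hex in
theorem dehnH_lev {c : F} {j : Fin 100} (hj : b c ≠ j) (hj' : b c ≠ j + 1) {z : F} {s : Bool}
    (h : DehnH b c j z s) : ¬ DehnLev b ρ z (ρ c) ∧
      ((∃ i, b c ≠ i ∧ z = c * sigF i) ∨ ¬ DehnLev b ρ z (ρ c + 1)) := by
  induction h with
  | head => exact ⟨by rw [dehnLev_child hpar hroot hj]; simp, Or.inl ⟨j, hj, rfl⟩⟩
  | tail => exact ⟨by rw [dehnLev_child hpar hroot hj']; simp, Or.inl ⟨j + 1, hj', rfl⟩⟩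
  | down_head c' _ ih =>
    have : ¬ DehnLev b ρ (c' * sigF (b c' + 1)) (ρ c + 1) := by
      rw [dehnLev_child hpar hroot (dehn_succ_ne _).symm]
      intro hlt
      exact ih.1 (dehnLev_base hrank hex c' (Nat.lt_succ_iff.1 hlt))
    exact ⟨fun h' => this (dehnLev_succ h'), Or.inr this⟩
  | down_tail c' i hi _ ih =>
    have : ¬ DehnLev b ρ (c' * sigF i) (ρ c + 1) := by
      rw [dehnLev_child hpar hroot (by rw [hi]; exact dehn_succ_ne _)]
      intro hlt
      exact ih.1 (hi ▸ dehnLev_base hrank hex c' (Nat.lt_succ_iff.1 hlt))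
    exact ⟨fun h' => this (dehnLev_succ h'), Or.inr this⟩

theorem dehn_coe_inr_eq (z₀ : Gam) (f f' : F) :
    ((z₀ * SemidirectProduct.inr f : Gam) : K) = ((z₀ * SemidirectProduct.inr f' : Gam) : K) ↔
      f⁻¹ * f' ∈ U := by
  rw [QuotientGroup.eq]
  have : (z₀ * SemidirectProduct.inr f : Gam)⁻¹ * (z₀ * SemidirectProduct.inr f') =
      SemidirectProduct.inr (f⁻¹ * f') := by
    rw [map_mul, map_inv]; group
  rw [this]
  exact ⟨fun h => h.1, fun h => inr_mem_Gsub h⟩

include hpar hrank hroot hex in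
/-- A new corner of `c` is touched only by children of `c` and by deeper variables. -/
theorem dehn_touch (z₀ : Gam) {c : F} {j : Fin 100} (hj : b c ≠ j) (hj' : b c ≠ j + 1) {z : F}
    (h : IsEnd (z₀ * SemidirectProduct.inr z)
      ((z₀ * SemidirectProduct.inr (c * sigF (j + 1)) : Gam) : K)) :
    ¬ DehnLev b ρ z (ρ c) ∧ ((∃ i, b c ≠ i ∧ z = c * sigF i) ∨ ¬ DehnLev b ρ z (ρ c + 1)) := by
  rcases h with h | h
  · rw [dehn_coe_inr_eq] at h
    have h1 := (dehnH_U hpar hj hj' h _).1 DehnH.tail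
    rw [mul_inv_cancel_left] at h1
    exact dehnH_lev hpar hrank hroot hex hj hj' h1
  · rw [aa, mul_assoc, ← map_mul, dehn_coe_inr_eq] at h
    have h1 := (dehnH_U hpar hj hj' h _).1 DehnH.tail
    rw [mul_inv_cancel_left, ← dehnH_move' hpar hj hj'] at h1
    exact dehnH_lev hpar hrank hroot hex hj hj' h1

end Layer1

theorem dehn_layer1 {V : Type*} {base : V → K} {D : Gam → Setoid V} (hD : Closed base D)
    (z₀ : Gam) (u v : V) (h : (⨆ f : F, D (z₀ * SemidirectProduct.inr f)) u v)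
    (hu : IsEnd z₀ (base u)) (hv : IsEnd z₀ (base v)) : D z₀ u v := by
  obtain ⟨b, ρ, hpar, hrank, hroot, hex⟩ := exists_rootingF
  have hall : ∀ z, ∃ m, DehnLev b ρ z m := by
    intro z
    by_cases h1 : z = 1
    · exact ⟨0, Or.inl h1⟩
    · obtain ⟨i, hi⟩ := hex z h1
      exact ⟨_, Or.inr ⟨i, hi, Nat.lt_succ_self _⟩⟩
  have hsig : ∀ (c : F) (i : Fin 100), z₀ * SemidirectProduct.inr c * sig i =
      z₀ * SemidirectProduct.inr (c * sigF i) := by
    intro c i
    rw [map_mul, sig, mul_assoc]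
  have h0 := dehn_levels (fun f : F => D (z₀ * SemidirectProduct.inr f)) (DehnLev b ρ)
    (fun z m => dehnLev_succ) hall u v ?_ h
  · have hle : (⨆ z : {z // DehnLev b ρ z 0}, D (z₀ * SemidirectProduct.inr z.1)) ≤ D z₀ := by
      refine iSup_le fun z => ?_
      rcases z.2 with h1 | ⟨i, _, hi⟩
      · rw [h1]; simp
      · exact absurd hi (Nat.not_lt_zero _)
    exact Setoid.le_def.1 hle h0
  intro m hm
  let New : {c : F // ρ c = m} → Set V := fun c => {w | ∃ j, b c.1 ≠ j ∧ b c.1 ≠ j + 1 ∧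
    base w = ((z₀ * SemidirectProduct.inr (c.1 * sigF (j + 1)) : Gam) : K)}
  have hnew : ∀ (c : {c : F // ρ c = m}) (w : V) (z : F), w ∈ New c →
      IsEnd (z₀ * SemidirectProduct.inr z) (base w) →
      ¬ DehnLev b ρ z m ∧ ((∃ i, b c.1 ≠ i ∧ z = c.1 * sigF i) ∨ ¬ DehnLev b ρ z (m + 1)) := by
    rintro c w z ⟨j, hj, hj', hw⟩ hz
    rw [hw] at hz
    have := dehn_touch hpar hrank hroot hex z₀ hj hj' hz
    rwa [c.2] at this
  have hold : ∀ (w : V) (z : F), DehnLev b ρ z m →
      IsEnd (z₀ * SemidirectProduct.inr z) (base w) → ∀ c, w ∉ New c :=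
    fun w z hz hw c hc => (hnew c w z hc hw).1 hz
  have hchild : ∀ (c c' : {c : F // ρ c = m}) (w : V) (i : Fin 100), b c.1 ≠ i →
      IsEnd (z₀ * SemidirectProduct.inr (c.1 * sigF i)) (base w) → w ∈ New c' → c = c' := by
    intro c c' w i hi hw hc'
    rcases (hnew c' w _ hc' hw).2 with ⟨i', hi', he⟩ | hlev
    · exact Subtype.ext (dehn_par hpar he hi hi').2
    · exfalso
      apply hlev
      rw [dehnLev_child hpar hroot hi, c.2]
      exact Nat.lt_succ_self m
  have hRle : ∀ z, DehnLev b ρ z m → ∀ a a', D (z₀ * SemidirectProduct.inr z) a a' →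
      (⨆ z : {z // DehnLev b ρ z m}, D (z₀ * SemidirectProduct.inr z.1)) a a' :=
    fun z hz a a' ha => Setoid.le_def.1
      (le_iSup (fun z : {z // DehnLev b ρ z m} => D (z₀ * SemidirectProduct.inr z.1)) ⟨z, hz⟩) ha
  have hTle : ∀ (c : F) (i : Fin 100) a a', D (z₀ * SemidirectProduct.inr (c * sigF i)) a a' →
      (⨆ j, D (z₀ * SemidirectProduct.inr c * sig j)) a a' := by
    intro c i a a' ha
    rw [← hsig] at ha
    exact Setoid.le_def.1 (le_iSup (fun j => D (z₀ * SemidirectProduct.inr c * sig j)) i) ha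
  refine dehn_peel _ (fun c : {c : F // ρ c = m} => ⨆ j, D (z₀ * SemidirectProduct.inr c.1 * sig j))
    New ?_ ?_ _ ?_ u v hm (hold u 1 (Or.inl rfl) (by simpa using hu))
    (hold v 1 (Or.inl rfl) (by simpa using hv))
  · rintro c c' w ⟨j, hj, hj', hw⟩ hc'
    refine hchild c c' w (j + 1) hj' ?_ hc'
    exact Or.inl hw
  · intro c a a' ha ha' hT
    have hend : ∀ w, (∀ c', w ∉ New c') →
        base w ∈ (Set.range fun j => ((z₀ * SemidirectProduct.inr c.1 * sig j : Gam) : K)) →
        IsEnd (z₀ * SemidirectProduct.inr c.1 * sig (b c.1)) (base w) := by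
      rintro w hw ⟨j, hj⟩
      rw [isEnd_sig_iff]
      by_contra hcon
      rw [not_or] at hcon
      refine hw c ⟨j - 1, fun h1 => hcon.2 ?_, fun h1 => hcon.1 ?_, ?_⟩
      · rw [← hj, h1, sub_add_cancel]
      · rw [← hj, h1, sub_add_cancel]
      · rw [← hj, sub_add_cancel, ← hsig]
    rcases dehn_ends hD (fun j => z₀ * SemidirectProduct.inr c.1 * sig j)
      (Set.range fun j => ((z₀ * SemidirectProduct.inr c.1 * sig j : Gam) : K)) (by
        intro j q hq
        rcases (isEnd_sig_iff _ _ _).1 hq with h1 | h1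
        · exact ⟨j, h1.symm⟩
        · exact ⟨j + 1, h1.symm⟩) a a' hT with ⟨_, h2⟩ | ⟨h1, h2⟩
    · exact hRle 1 (Or.inl rfl) a a' (h2 _)
    · have := hD.attach _ (b c.1) a a' hT (hend a ha h1) (hend a' ha' h2)
      rw [hsig] at this
      exact hRle _ (dehnLev_base hrank hex c.1 c.2.le) a a' this
  · rintro ⟨z, hz⟩ a a' haa
    rcases hD.proper _ a a' haa with h1 | ⟨h1, h2⟩
    · by_cases ha : ∃ c, a ∈ New c
      · obtain ⟨c, j, hj, hj', hw⟩ := ha
        exact Or.inr ⟨c, Or.inl ⟨j, hj, hj', hw⟩, Or.inl ⟨j, hj, hj', h1 ▸ hw⟩,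
          hTle c.1 0 a a' (hD.transfer _ _ a a' haa h1)⟩
      · refine Or.inl ⟨fun c hc => ha ⟨c, hc⟩, fun c hc => ha ⟨c, ?_⟩,
          hRle 1 (Or.inl rfl) a a' (hD.transfer _ _ a a' haa h1)⟩
        obtain ⟨j, hj, hj', hw⟩ := hc
        exact ⟨j, hj, hj', h1.trans hw⟩
    · by_cases hzm : DehnLev b ρ z m
      · exact Or.inl ⟨hold a z hzm h1, hold a' z hzm h2, hRle z hzm a a' haa⟩
      · rcases hz with hz | ⟨i, hi, hi'⟩
        · exact absurd (Or.inl hz) hzm
        · have hρ : ρ (z * (sigF i)⁻¹) = m := by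
            by_contra hne
            exact hzm (Or.inr ⟨i, hi, by omega⟩)
          have hz' : z = z * (sigF i)⁻¹ * sigF i := by simp
          have hcase : ∀ w, IsEnd (z₀ * SemidirectProduct.inr z) (base w) →
              w ∈ New ⟨_, hρ⟩ ∨ ∀ c', w ∉ New c' := by
            intro w hw
            by_cases hw' : ∃ c', w ∈ New c'
            · obtain ⟨c', hc'⟩ := hw'
              left
              rw [hchild ⟨_, hρ⟩ c' w i hi (by rw [← hz']; exact hw) hc']
              exact hc'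
            · exact Or.inr fun c' hc' => hw' ⟨c', hc'⟩
          refine Or.inr ⟨⟨_, hρ⟩, hcase a h1, hcase a' h2, hTle _ i a a' ?_⟩
          rw [← hz']
          exact haa

/-! ## Layer 2: the tree of cosets -/

open Classical in
/-- the reduced word of `n` does not end with the letter `q` -/
def DehnClean (q : Q) (n : N) : Prop := ∀ x ∈ n.toWord.getLast?, x.1 ≠ q

open Classical in
theorem dehn_norm_clean {q : Q} {n : N} (h : DehnClean q n) (k : ℤ) :
    FreeGroup.norm (n * FreeGroup.of q ^ k) = FreeGroup.norm n + k.natAbs := by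
  have hw : ∃ s : Bool, (FreeGroup.of q ^ k).toWord = List.replicate k.natAbs (q, s) := by
    cases k with
    | ofNat l => exact ⟨true, by simp⟩
    | negSucc l =>
      refine ⟨false, ?_⟩
      rw [zpow_negSucc, FreeGroup.toWord_inv, FreeGroup.toWord_of_pow]
      simp [FreeGroup.invRev]
  obtain ⟨s, hs⟩ := hw
  have hred : FreeGroup.IsReduced (n.toWord ++ List.replicate k.natAbs (q, s)) := by
    rw [FreeGroup.IsReduced, List.isChain_append]
    refine ⟨FreeGroup.isReduced_toWord, ?_, ?_⟩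
    · rw [← hs]; exact FreeGroup.isReduced_toWord
    · intro x hx y hy hxy
      exfalso
      have : y = (q, s) := List.eq_of_mem_replicate (List.mem_of_mem_head? hy)
      exact h x hx (by rw [hxy, this])
  rw [FreeGroup.norm, FreeGroup.toWord_mul, hs, hred.reduce_eq, List.length_append,
    List.length_replicate, FreeGroup.norm]

open Classical in
theorem dehn_clean_unique {q q' : Q} {n : N} (h : ¬ DehnClean q n) (h' : ¬ DehnClean q' n) :
    q = q' := by
  simp only [DehnClean, not_forall, not_not] at h h'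
  obtain ⟨x, hx, rfl⟩ := h
  obtain ⟨y, hy, rfl⟩ := h'
  rw [Option.mem_unique hx hy]

theorem dehn_coe_eq {γ γ' : Gam} (h : (γ : K) = (γ' : K)) :
    (γ.right : Q) = (γ'.right : Q) ∧
      ∃ k : ℤ, γ'.left = γ.left * FreeGroup.of (γ.right : Q) ^ k := by
  rw [QuotientGroup.eq] at h
  obtain ⟨h1, k, hk⟩ := h
  refine ⟨QuotientGroup.eq.2 (by simpa using h1), k, ?_⟩
  have hk' : tN ^ k = actN γ.right⁻¹ (γ.left⁻¹ * γ'.left) := by
    have : tN ^ k = (γ⁻¹ * γ').left := hk
    rw [this]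
    simp
  have h2 : actN γ.right (tN ^ k) = γ.left⁻¹ * γ'.left := by
    rw [hk', ← MulAut.mul_apply, ← map_mul]
    simp
  rw [map_zpow, tN, actN_of] at h2
  have h3 : γ.right • ((1 : F) : Q) = (γ.right : Q) := by
    change ((γ.right • (1 : F) : F) : Q) = _
    simp
  rw [h3] at h2
  rw [h2]
  simp

theorem dehn_coe_eq_of {γ γ' : Gam} (h : γ.left = γ'.left) (h' : (γ.right : Q) = (γ'.right : Q)) :
    (γ : K) = (γ' : K) := by
  rw [QuotientGroup.eq]
  refine ⟨by simpa using QuotientGroup.eq.1 h', ?_⟩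
  have : (γ⁻¹ * γ').left = 1 := by simp [h]
  rw [this]
  exact Subgroup.one_mem _

theorem dehn_isEnd_left {z : Gam} {q : K} (h : IsEnd z q) :
    ∃ γ : Gam, q = (γ : K) ∧ γ.left = z.left := by
  rcases h with h | h
  · exact ⟨z, h, rfl⟩
  · exact ⟨z * aa, h, by simp [aa]⟩

theorem dehn_layer1' {V : Type*} {base : V → K} {D : Gam → Setoid V} (hD : Closed base D)
    (z₀ : Gam) (u v : V) (h : (⨆ z : {z : Gam // z.left = z₀.left}, D z.1) u v)
    (hu : IsEnd z₀ (base u)) (hv : IsEnd z₀ (base v)) : D z₀ u v := by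
  refine dehn_layer1 hD z₀ u v (Setoid.le_def.1 (iSup_le fun z => ?_) h) hu hv
  have : z.1 = z₀ * SemidirectProduct.inr (z₀.right⁻¹ * z.1.right) := by
    ext
    · simp [z.2]
    · simp
  rw [this]
  exact le_iSup (fun f : F => D (z₀ * SemidirectProduct.inr f)) _

/-- If a family is closed under folding and attaching, two points over the ends of the variable
`1` that are connected through all variables are already related on the variable `1`. -/
theorem dehn {V : Type*} (base : V → K) (D : Gam → Setoid V) (hD : Closed base D) (u v : V)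
    (h : (⨆ z, D z) u v) (hu : IsEnd 1 (base u)) (hv : IsEnd 1 (base v)) : D 1 u v := by
  classical
  have h0 := dehn_levels D (fun z m => FreeGroup.norm z.left ≤ m)
    (fun z m hm => Nat.le_succ_of_le hm) (fun z => ⟨_, le_rfl⟩) u v ?_ h
  · refine dehn_layer1' hD 1 u v (Setoid.le_def.1 (iSup_le fun z => ?_) h0) hu hv
    have hz : z.1.left = (1 : Gam).left := by
      simpa using z.2
    exact le_iSup (fun z : {z : Gam // z.left = (1 : Gam).left} => D z.1) ⟨z.1, hz⟩
  intro m hm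
  let New : {n : N // FreeGroup.norm n = m + 1} → Set V := fun n =>
    {w | ∃ γ : Gam, base w = (γ : K) ∧ γ.left = n.1 ∧ DehnClean (γ.right : Q) n.1}
  have hnew : ∀ (n : {n : N // FreeGroup.norm n = m + 1}) (w : V) (γ : Gam), w ∈ New n →
      base w = (γ : K) → FreeGroup.norm γ.left ≤ m + 1 →
      γ.left = n.1 := by
    rintro n w γ ⟨γ', h1, h2, h3⟩ hw hle
    obtain ⟨_, k, hk⟩ := dehn_coe_eq (h1.symm.trans hw)
    rw [h2] at hk
    have := dehn_norm_clean h3 k
    rw [← hk, n.2] at this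
    have hk0 : k = 0 := by omega
    rw [hk, hk0, zpow_zero, mul_one]
  have hold : ∀ (w : V) (z : Gam), FreeGroup.norm z.left ≤ m → IsEnd z (base w) →
      ∀ n, w ∉ New n := by
    intro w z hz hw n hn
    obtain ⟨γ, h1, h2⟩ := dehn_isEnd_left hw
    have := hnew n w γ hn h1 (by rw [h2]; omega)
    have h3 := n.2
    rw [← this, h2] at h3
    omega
  have h1m : FreeGroup.norm (1 : Gam).left ≤ m := by simp
  have hRle : ∀ z : Gam, FreeGroup.norm z.left ≤ m → ∀ a a', D z a a' →
      (⨆ z : {z : Gam // FreeGroup.norm z.left ≤ m}, D z.1) a a' :=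
    fun z hz a a' ha => Setoid.le_def.1
      (le_iSup (fun z : {z : Gam // FreeGroup.norm z.left ≤ m} => D z.1) ⟨z, hz⟩) ha
  have hTle : ∀ (n : N) (z : Gam), z.left = n → ∀ a a', D z a a' →
      (⨆ z : {z : Gam // z.left = n}, D z.1) a a' :=
    fun n z hz a a' ha => Setoid.le_def.1
      (le_iSup (fun z : {z : Gam // z.left = n} => D z.1) ⟨z, hz⟩) ha
  refine dehn_peel _ (fun n : {n : N // FreeGroup.norm n = m + 1} =>
    ⨆ z : {z : Gam // z.left = n.1}, D z.1) New ?_ ?_ _ ?_ u v hm (hold u 1 h1m hu)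
    (hold v 1 h1m hv)
  · rintro n n' w ⟨γ, h1, h2, _⟩ hn'
    refine Subtype.ext ?_
    rw [← h2]
    exact hnew n' w γ hn' h1 (by rw [h2, n.2])
  · intro n a a' ha ha' hT
    rcases dehn_ends hD (fun z : {z : Gam // z.left = n.1} => z.1)
      {q | ∃ γ : Gam, q = (γ : K) ∧ γ.left = n.1} (by
        intro z q hq
        obtain ⟨γ, h1, h2⟩ := dehn_isEnd_left hq
        exact ⟨γ, h1, h2.trans z.2⟩) a a' hT with ⟨_, h2⟩ | ⟨⟨γ, h1, h2⟩, ⟨γ', h1', h2'⟩⟩
    · exact hRle 1 h1m a a' (h2 _)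
    · have hq : (γ.right : Q) = (γ'.right : Q) :=
        dehn_clean_unique (n := n.1) (fun hc => ha n ⟨γ, h1, h2, hc⟩)
          (fun hc => ha' n ⟨γ', h1', h2', hc⟩)
      have hb : base a = base a' := by
        rw [h1, h1']
        exact dehn_coe_eq_of (h2.trans h2'.symm) hq
      have := dehn_layer1' hD γ a a' (by rw [h2]; exact hT) (Or.inl h1) (Or.inl (hb ▸ h1))
      exact hRle 1 h1m a a' (hD.transfer _ _ a a' this hb)
  · rintro ⟨z, hz⟩ a a' haa
    rcases hD.proper _ a a' haa with h1 | ⟨h1, h2⟩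
    · by_cases ha : ∃ n, a ∈ New n
      · obtain ⟨n, γ, hγ, hγ', hc⟩ := ha
        exact Or.inr ⟨n, Or.inl ⟨γ, hγ, hγ', hc⟩, Or.inl ⟨γ, h1 ▸ hγ, hγ', hc⟩,
          hTle n.1 γ hγ' a a' (hD.transfer _ _ a a' haa h1)⟩
      · refine Or.inl ⟨fun n hn => ha ⟨n, hn⟩, fun n hn => ha ⟨n, ?_⟩,
          hRle 1 h1m a a' (hD.transfer _ _ a a' haa h1)⟩
        obtain ⟨γ, hγ, hγ', hc⟩ := hn
        exact ⟨γ, h1.trans hγ, hγ', hc⟩
    · by_cases hzm : FreeGroup.norm z.left ≤ m
      · exact Or.inl ⟨hold a z hzm h1, hold a' z hzm h2, hRle z hzm a a' haa⟩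
      · have hzn : FreeGroup.norm z.left = m + 1 := by omega
        have hcase : ∀ w, IsEnd z (base w) → w ∈ New ⟨_, hzn⟩ ∨ ∀ n, w ∉ New n := by
          intro w hw
          by_cases hw' : ∃ n, w ∈ New n
          · obtain ⟨n, hn⟩ := hw'
            obtain ⟨γ, h3, h4⟩ := dehn_isEnd_left hw
            have h5 := hnew n w γ hn h3 (by rw [h4, hzn])
            have h6 : (⟨_, hzn⟩ : {n : N // FreeGroup.norm n = m + 1}) = n :=
              Subtype.ext (h4.symm.trans h5)
            left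
            rw [h6]
            exact hn
          · exact Or.inr fun n hn => hw' ⟨n, hn⟩
        exact Or.inr ⟨⟨_, hzn⟩, hcase a h1, hcase a' h2, hTle _ z rfl a a' haa⟩

end Crest.Agent.R191
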