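import Crest.Agent.R191.Seq

/-! Deleting extra vertices. -/

set_option autoImplicit false

open MeasureTheory Set Crest.Dynamics
open scoped ENNReal

namespace Crest.Agent.R191

variable {X : Type} [MeasurableSpace X] [StandardBorelSpace X] [MulAction Gam X]
  {μ : Measure X} [IsProbabilityMeasure μ]

/-- the deleted vertices that come before `w` -/
def delLow (P : X → Set ℕ) (x : X) (w : Vtx) : Set Vtx := {v ∈ glob P x | key x v < key x w}

theorem smul_mem_delLow (P : X → Set ℕ) (x : X) (g : Gam) (v w : Vtx) :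
    g • v ∈ delLow P (g • x) (g • w) ↔ v ∈ delLow P x w := by
  simp only [delLow, mem_ofPred_eq, smul_mem_glob, key_smul]

theorem delHit_smul (s : X → Setoid Vtx) (P : X → Set ℕ) (x : X) (g c : Gam) (w : Vtx) :
    g • w ∈ supp (del (trS s (g • x) (g * c)) (delLow P (g • x) (g • w))) ↔
      w ∈ supp (del (trS s x c) (delLow P x w)) := by
  constructor
  · rintro ⟨u, hu, h⟩
    obtain ⟨u, rfl⟩ := (vtx_smul_bijective g).2 u
    refine ⟨u, fun e => hu (by rw [e]), ?_⟩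
    rcases (del_iff _ _ _ _).1 h with h | ⟨h1, h2, h3⟩
    · exact absurd h hu
    · exact (del_iff _ _ _ _).2 (Or.inr ⟨(trS_smul s x g c u w).1 h1,
        fun h => h2 ((smul_mem_delLow P x g u w).2 h),
        fun h => h3 ((smul_mem_delLow P x g w w).2 h)⟩)
  · rintro ⟨u, hu, h⟩
    refine ⟨g • u, fun e => hu ((vtx_smul_bijective g).1 e), ?_⟩
    rcases (del_iff _ _ _ _).1 h with h | ⟨h1, h2, h3⟩
    · exact absurd h hu
    · exact (del_iff _ _ _ _).2 (Or.inr ⟨(trS_smul s x g c u w).2 h1,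
        fun h => h2 ((smul_mem_delLow P x g u w).1 h),
        fun h => h3 ((smul_mem_delLow P x g w w).1 h)⟩)

theorem delHit_iff (s : X → Setoid Vtx) (P : X → Set ℕ) (x : X) (γ c : Gam) (k : ℕ) :
    Vtx.ex 1 k ∈ supp (del (trS s (γ⁻¹ • x) (γ⁻¹ * c)) (delLow P (γ⁻¹ • x) (Vtx.ex 1 k))) ↔
      Vtx.ex γ k ∈ supp (del (trS s x c) (delLow P x (Vtx.ex γ k))) := by
  rw [← delHit_smul s P x γ⁻¹ c (Vtx.ex γ k), Vtx.smul_ex, inv_mul_cancel]

omit [MeasurableSpace X] [StandardBorelSpace X] in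
theorem encard_glob_sep (P : X → Set ℕ) (x : X) (R : Vtx → Prop) :
    {p : Gam × ℕ | p.2 ∈ P (p.1⁻¹ • x) ∧ R (Vtx.ex p.1 p.2)}.encard =
      {w ∈ glob P x | R w}.encard := by
  have hinj : Function.Injective fun p : Gam × ℕ => Vtx.ex p.1 p.2 := by
    rintro ⟨a, b⟩ ⟨c, d⟩ h
    simpa using h
  rw [← hinj.encard_image]
  congr 1
  ext w
  constructor
  · rintro ⟨p, ⟨h1, h2⟩, rfl⟩
    exact ⟨(ex_mem_glob P x _ _).2 h1, h2⟩
  · rintro ⟨⟨γ, k, rfl, h1⟩, h2⟩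
    exact ⟨(γ, k), ⟨h1, h2⟩, rfl⟩

/-- connectivity survives the deletion of anchored points whose anchors stay connected -/
theorem del_conn {V ι : Type*} (S : ι → Setoid V) (P : Set V)
    (hanch : ∀ z, ∀ v ∈ supp (S z), ∃ u, u ∉ P ∧ S z u v)
    (hconn : ∀ w ∈ P, ∀ z z' a a', a ∉ P → a' ∉ P → S z a w → S z' a' w →
      (⨆ z, del (S z) P) a a') {u v : V} (hu : u ∉ P) (hv : v ∉ P) (h : (⨆ z, S z) u v) :
    (⨆ z, del (S z) P) u v := by
  set T := ⨆ z, del (S z) P with hT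
  let A : V → V → Prop := fun w a => a ∉ P ∧ (a = w ∨ (w ∈ P ∧ ∃ z, S z a w))
  have hAA : ∀ w a a', A w a → A w a' → T a a' := by
    rintro w a a' ⟨h1, rfl | ⟨h2, z, h3⟩⟩ ⟨h1', rfl | ⟨h2', z', h3'⟩⟩
    · exact T.refl' _
    · exact absurd h2' h1
    · exact absurd h2 h1'
    · exact hconn w h2 z z' a a' h1 h1' h3 h3'
  have hstep : ∀ z c w, c ∉ P → S z c w → ∃ a, A w a ∧ T c a := by
    intro z c w hc hcw
    by_cases hw : w ∈ P
    · exact ⟨c, ⟨hc, Or.inr ⟨hw, z, hcw⟩⟩, T.refl' _⟩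
    · exact ⟨w, ⟨hw, Or.inl rfl⟩,
        le_iSup (fun z => del (S z) P) z ((del_iff _ _ _ _).2 (Or.inr ⟨hcw, hc, hw⟩))⟩
  have main : ∀ u v, Relation.EqvGen (fun a b => ∃ z, S z a b) u v →
      u = v ∨ ∃ a b, A u a ∧ A v b ∧ T a b := by
    intro u v h
    induction h with
    | rel u v h =>
      obtain ⟨z, h⟩ := h
      by_cases e : u = v
      · exact Or.inl e
      · obtain ⟨c, hc, hcu⟩ := hanch z u (mem_supp_of_rel h e).1
        obtain ⟨a, ha, hca⟩ := hstep z c u hc hcu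
        obtain ⟨b, hb, hcb⟩ := hstep z c v hc ((S z).trans' hcu h)
        exact Or.inr ⟨a, b, ha, hb, T.trans' (T.symm' hca) hcb⟩
    | refl u => exact Or.inl rfl
    | symm u v _ ih =>
      rcases ih with e | ⟨a, b, ha, hb, hab⟩
      · exact Or.inl e.symm
      · exact Or.inr ⟨b, a, hb, ha, T.symm' hab⟩
    | trans u v w _ _ ih ih' =>
      rcases ih with e | ⟨a, b, ha, hb, hab⟩
      · rw [e]; exact ih'
      · rcases ih' with e | ⟨a', b', ha', hb', hab'⟩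
        · rw [← e]; exact Or.inr ⟨a, b, ha, hb, hab⟩
        · exact Or.inr ⟨a, b', ha, hb', T.trans' hab (T.trans' (hAA v b a' hb ha') hab')⟩
  rcases main u v ((iSup_rel_iff S u v).1 h) with e | ⟨a, b, ha, hb, hab⟩
  · rw [e]
  · exact T.trans' (hAA u u a ⟨hu, Or.inl rfl⟩ ha) (T.trans' hab (hAA v b v hb ⟨hv, Or.inl rfl⟩))

/-- Deletion move. Use `seq_account` with `act = P` and
`H x k = {z | ex 1 k ∈ supp (del (Y.S x z) {v ∈ glob P x | key x v < key x (ex 1 k)})}`, and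
`rk_del_tele`. -/
theorem delete (hX : IsFreePMPAction Gam X μ) (Y : Str X) (hY : Valid μ Y) (P : X → Set ℕ)
    (hPm : MeasL P) (hP : ∀ᵐ x ∂μ, P x ⊆ Y.vert x)
    (hanch : ∀ᵐ x ∂μ, ∀ v ∈ supp (Y.s x), ∃ u, u ∉ glob P x ∧ Y.s x u v)
    (hconn : ∀ᵐ x ∂μ, ∀ k ∈ P x, ∀ z z' a a', a ∉ glob P x → a' ∉ glob P x →
      Y.S x z a (Vtx.ex 1 k) → Y.S x z' a' (Vtx.ex 1 k) →
      (⨆ γ, del (Y.S x γ) (glob P x)) a a') :
    ∃ Y' : Str X, Valid μ Y' ∧
      Y'.V μ + ∫⁻ x, ((P x).encard : ℝ≥0∞) ∂μ = Y.V μ ∧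
      Y'.E μ + Y.M μ + ∫⁻ x, ((P x).encard : ℝ≥0∞) ∂μ ≤ Y.E μ + Y'.M μ := by
  set s' : X → Setoid Vtx := fun x => del (Y.s x) (glob P x) with hs'
  have hs'm : MeasS s' := Y.meas_s.del _ (hPm.glob hX)
  have htr : ∀ x γ, trS s' x γ = del (Y.S x γ) (glob P x) :=
    trS_del Y.s (glob P) (smul_mem_glob P)
  set H : X → ℕ → Set Gam := fun x k =>
    {z | Vtx.ex 1 k ∈ supp (del (Y.S x z) (delLow P x (Vtx.ex 1 k)))} with hH
  have hHm : ∀ k z, MeasurableSet {x | z ∈ H x k} := by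
    intro k z
    refine MeasS.supp (MeasS.del (Y.meas_s.trS hX z) (fun x => delLow P x (Vtx.ex 1 k)) ?_) _
    intro v
    exact (hPm.glob hX v).inter (measurableSet_key_lt hX v _)
  have hkey : ∀ᵐ x ∂μ, InjOn (key x) (glob P x) := by
    filter_upwards [ae_free hX] with x hx
    refine (key_injOn x hx).mono ?_
    rintro _ ⟨γ, k, rfl, -⟩
    exact ⟨γ, k, rfl⟩
  have hanch' : ∀ᵐ x ∂μ, ∀ z, ∀ v ∈ supp (Y.S x z), ∃ u, u ∉ glob P x ∧ Y.S x z u v := by
    filter_upwards [ae_forall_smul hX hanch] with x hx z v hv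
    obtain ⟨u, hu, h⟩ := hx z⁻¹ _ ((mem_supp_trS _ _ _ _).1 hv)
    refine ⟨z • u, fun h' => hu ?_, ?_⟩
    · have := (smul_mem_glob P x z⁻¹ (z • u)).2 h'
      rwa [inv_smul_smul] at this
    · rw [Str.S, trS_apply, inv_smul_smul]; exact h
  have hconn' : ∀ᵐ x ∂μ, ∀ w ∈ glob P x, ∀ z z' a a', a ∉ glob P x → a' ∉ glob P x →
      Y.S x z a w → Y.S x z' a' w → (⨆ γ, del (Y.S x γ) (glob P x)) a a' := by
    filter_upwards [ae_forall_smul hX hconn] with x hx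
    rintro _ ⟨γ, k, rfl, hk⟩ z z' a a' ha ha' h h'
    have e : γ⁻¹ • Vtx.ex γ k = Vtx.ex 1 k := by rw [Vtx.smul_ex, inv_mul_cancel]
    have h1 := hx γ⁻¹ k hk (γ⁻¹ * z) (γ⁻¹ * z') (γ⁻¹ • a) (γ⁻¹ • a')
      (fun h => ha ((smul_mem_glob P x _ _).1 h)) (fun h => ha' ((smul_mem_glob P x _ _).1 h))
      (by rw [← e]; exact (trS_smul _ _ _ _ _ _).2 h)
      (by rw [← e]; exact (trS_smul _ _ _ _ _ _).2 h')
    have e1 : ∀ y, (⨆ γ, del (Y.S y γ) (glob P y)) = ⨆ γ, trS s' y γ :=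
      fun y => iSup_congr fun γ => (htr y γ).symm
    rw [e1] at h1 ⊢
    exact (iSup_trS_smul s' x γ⁻¹ a a').1 h1
  obtain ⟨m', hm'm, hm'le, hcyc, hacc⟩ := seq_account hX Y hY P hPm H hHm s' hs'm
    (by
      filter_upwards [hY.rk_ne_top hX, hkey] with x h1 h2
      have h3 := h1 1
      rw [Str.S, trS_one] at h3
      rw [rk_del_tele (Y.s x) h3 (glob P x) (key x) h2]
      congr 1
      rw [← encard_glob_sep P x fun w => w ∈ supp (del (Y.s x) {v ∈ glob P x | key x v < key x w})]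
      congr 1
      ext p
      refine and_congr_right fun _ => ?_
      have := delHit_iff Y.s P x p.1 1 p.2
      rw [mul_one, trS_one] at this
      exact this.symm)
    (by
      filter_upwards [hY.rk_ne_top hX, hkey] with x h1 h2
      have h3 : rk (Y.J x 1) ≠ ⊤ := by
        rw [Str.J, trJ_one]
        refine ne_top_of_le_ne_top ?_ (rk_iSup_le _)
        exact (ENat.sum_lt_top.2 fun i _ => (h1 _).lt_top).ne
      rw [rk_del_tele (Y.J x 1) h3 (glob P x) (key x) h2]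
      refine add_le_add (rk_mono ?_) ?_
      · rw [Str.J, trJ_one, trJ_one]
        simp only [htr]
        exact iSup_del_le _ _
      · rw [← encard_glob_sep P x
          fun w => w ∈ supp (del (Y.J x 1) {v ∈ glob P x | key x v < key x w})]
        refine Set.encard_le_encard ?_
        rintro p ⟨hp, i, hi⟩
        refine ⟨hp, ?_⟩
        have h4 := (delHit_iff Y.s P x p.1 (sig i) p.2).1 hi
        refine supp_mono (del_mono ?_ subset_rfl) h4
        rw [Str.J, trJ_one]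
        exact le_iSup (fun i => trS Y.s x (sig i)) i)
  let Y' : Str X :=
    { s := s'
      m := m'
      vert := fun x => Y.vert x \ P x
      meas_s := hs'm
      meas_m := hm'm
      meas_vert := fun k => (Y.meas_vert k).diff (hPm k) }
  have hVert : ∀ x v, v ∈ Y'.Vert x ↔ v ∈ Y.Vert x ∧ v ∉ glob P x := by
    intro x v
    cases v with
    | sp q => simp [Str.sp_mem_Vert, sp_notMem_glob]
    | ex γ k => rw [Str.ex_mem_Vert, Str.ex_mem_Vert, ex_mem_glob]; rfl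
  have hV : Y'.V μ + ∫⁻ x, ((P x).encard : ℝ≥0∞) ∂μ = Y.V μ := by
    rw [Str.V, Str.V, ← lintegral_add_left (measurable_encard_of _ Y'.meas_vert)]
    refine lintegral_congr_ae ?_
    filter_upwards [hP] with x hx
    rw [← ENat.toENNReal_add]
    congr 1
    exact Set.encard_sdiff_add_encard_of_subset hx
  refine ⟨Y', ⟨?_, ?_, hcyc, ?_, ?_, ?_⟩, hV, ?_⟩
  · filter_upwards [hY.supp] with x hx v hv
    obtain ⟨h1, h2⟩ := supp_del_subset _ _ hv
    exact ⟨(hVert x v).2 ⟨(hx v h1).1, h2⟩, (hx v h1).2⟩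
  · filter_upwards [hY.conn, hanch', hconn'] with x h1 h2 h3 u hu v hv
    rw [hVert] at hu hv
    change (⨆ γ, trS s' x γ) u v
    rw [iSup_congr (htr x)]
    exact del_conn (fun z => Y.S x z) (glob P x) h2 h3 hu.2 hv.2 (h1 u hu.1 v hv.1)
  · refine lt_of_le_of_lt (lintegral_mono fun x => ?_) hY.E_lt
    exact ENat.toENNReal_le.2 (rk_mono (del_le _ _))
  · exact lt_of_le_of_lt (hV ▸ le_self_add) hY.V_lt
  · refine le_trans (lintegral_mono fun x => ?_) hY.M_le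
    exact Nat.cast_le.2 (hm'le x)
  · refine le_trans (le_of_eq ?_) hacc
    congr 1
    refine lintegral_congr_ae ?_
    filter_upwards [hP, hY.one_le_deg hX, hanch'] with x h1 h2 h3
    congr 2
    ext k
    refine ⟨fun hk => ⟨hk, ?_⟩, fun hk => hk.1⟩
    obtain ⟨z, hz⟩ := Set.one_le_encard_iff_nonempty.1 (h2 k (h1 hk))
    obtain ⟨u, hu, h4⟩ := h3 z _ hz
    have hmem : Vtx.ex 1 k ∈ glob P x := by
      rw [ex_mem_glob, inv_one, one_smul]; exact hk
    refine ⟨z, u, fun e => hu (e ▸ hmem), (del_iff _ _ _ _).2 (Or.inr ⟨h4, fun h => hu h.1, ?_⟩)⟩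
    exact fun h => lt_irrefl _ h.2

/-- for a near-minimiser only few vertices can be deleted -/
theorem delete_le (hX : IsFreePMPAction Gam X μ) (Y : Str X) (hY : Valid μ Y) {δ : ℝ}
    (hmin : NearMin μ δ Y) (P : X → Set ℕ)
    (hPm : MeasL P) (hP : ∀ᵐ x ∂μ, P x ⊆ Y.vert x)
    (hanch : ∀ᵐ x ∂μ, ∀ v ∈ supp (Y.s x), ∃ u, u ∉ glob P x ∧ Y.s x u v)
    (hconn : ∀ᵐ x ∂μ, ∀ k ∈ P x, ∀ z z' a a', a ∉ glob P x → a' ∉ glob P x →
      Y.S x z a (Vtx.ex 1 k) → Y.S x z' a' (Vtx.ex 1 k) →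
      (⨆ γ, del (Y.S x γ) (glob P x)) a a') :
    ∫⁻ x, ((P x).encard : ℝ≥0∞) ∂μ ≤ ENNReal.ofReal δ := by
  obtain ⟨Y', hY', hV, hE⟩ := delete hX Y hY P hPm hP hanch hconn
  set p := ∫⁻ x, ((P x).encard : ℝ≥0∞) ∂μ with hp
  have hpt : p ≠ ∞ := ne_top_of_le_ne_top hY.V_lt.ne (hV ▸ le_add_self)
  have hM : Y.M μ ≠ ∞ := ne_top_of_le_ne_top (by simp) hY.M_le
  have hM' : Y'.M μ ≠ ∞ := ne_top_of_le_ne_top (by simp) hY'.M_le
  have h1 : (Y'.V μ).toReal + p.toReal = (Y.V μ).toReal := by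
    rw [← hV, ENNReal.toReal_add hY'.V_lt.ne hpt]
  have h2 : (Y'.E μ).toReal + (Y.M μ).toReal + p.toReal ≤ (Y.E μ).toReal + (Y'.M μ).toReal := by
    rw [← ENNReal.toReal_add hY'.E_lt.ne hM, ← ENNReal.toReal_add
      (ENNReal.add_ne_top.2 ⟨hY'.E_lt.ne, hM⟩) hpt, ← ENNReal.toReal_add hY.E_lt.ne hM']
    exact ENNReal.toReal_mono (ENNReal.add_ne_top.2 ⟨hY.E_lt.ne, hM'⟩) hE
  have h3 := hmin Y' hY' (by simp only [Str.df, Str.Phi]; linarith)
  simp only [Str.Phi] at h3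
  rw [← ENNReal.ofReal_toReal hpt]
  exact ENNReal.ofReal_le_ofReal (by linarith)

end Crest.Agent.R191
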