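import Crest.Agent.R191.Defs

/-! The rank of an equivalence relation. -/

set_option autoImplicit false

open MeasureTheory Set
open scoped ENNReal

namespace Crest.Agent.R191

section
variable {V W : Type*}

/-- two choices of representatives leave out the same number of points -/
theorem encard_rep_le (s : Setoid V) (r₁ r₂ : V → V) (h1 : ∀ v, s (r₁ v) v)
    (h2 : ∀ u v, s u v → r₁ u = r₁ v) (k2 : ∀ u v, s u v → r₂ u = r₂ v) :
    {v | r₁ v ≠ v}.encard ≤ {v | r₂ v ≠ v}.encard := by
  classical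
  refine encard_le_encard_of_injOn (f := fun v => if r₂ v = v then r₁ v else v) ?_ ?_
  · intro v hv
    simp only [mem_ofPred_eq] at hv ⊢
    split_ifs with h
    · rw [k2 _ _ (h1 v), h]; exact fun e => hv e.symm
    · exact h
  · intro u hu v hv huv
    simp only [mem_ofPred_eq] at hu hv huv
    split_ifs at huv with a b b
    · have : s u v := s.trans' (s.symm' (h1 u)) (huv ▸ h1 v)
      rw [← a, ← b]; exact k2 _ _ this
    · exfalso; apply hv
      have : s u v := huv ▸ s.symm' (h1 u)
      rw [← h2 _ _ this, huv]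
    · exfalso; apply hu
      have : s v u := huv ▸ s.symm' (h1 v)
      rw [← h2 _ _ this, huv]
    · exact huv

theorem out_rel (s : Setoid V) (v : V) : s (Quotient.mk s v).out v :=
  Quotient.mk_out (s := s) v

theorem out_eq_of_rel (s : Setoid V) {u v : V} (h : s u v) :
    (Quotient.mk s u).out = (Quotient.mk s v).out := by
  rw [Quotient.sound (s := s) h]

theorem rk_eq_of_rep (s : Setoid V) (rep : V → V) (h1 : ∀ v, s (rep v) v)
    (h2 : ∀ u v, s u v → rep u = rep v) : rk s = {v | rep v ≠ v}.encard :=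
  le_antisymm
    (encard_rep_le s _ rep (out_rel s) (fun _ _ h => out_eq_of_rel s h) h2)
    (encard_rep_le s rep _ h1 h2 (fun _ _ h => out_eq_of_rel s h))

/-- representatives chosen with a preference `P` -/
theorem exists_rep (s : Setoid V) (P : V → Prop) :
    ∃ rep : V → V, (∀ v, s (rep v) v) ∧ (∀ u v, s u v → rep u = rep v) ∧
      ∀ v u, P u → s u v → P (rep v) := by
  classical
  let R : Quotient s → V := fun q =>
    if h : ∃ u, P u ∧ Quotient.mk s u = q then h.choose else q.out
  refine ⟨fun v => R (Quotient.mk s v), fun v => ?_, fun u v h => ?_, fun v u hu huv => ?_⟩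
  · simp only [R]
    split_ifs with h
    · exact Quotient.exact h.choose_spec.2
    · exact out_rel s v
  · simp only [Quotient.sound (s := s) h]
  · have h : ∃ u, P u ∧ Quotient.mk s u = Quotient.mk s v := ⟨u, hu, Quotient.sound huv⟩
    simp only [R, dif_pos h]
    exact h.choose_spec.1

theorem le_rk (s : Setoid V) (A : Set V) (h : ∀ v ∈ A, ∃ u, u ∉ A ∧ s u v) :
    A.encard ≤ rk s := by
  obtain ⟨rep, h1, h2, h3⟩ := exists_rep s (fun u => u ∉ A)
  rw [rk_eq_of_rep s rep h1 h2]
  refine encard_le_encard fun v hv => ?_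
  obtain ⟨u, hu, huv⟩ := h v hv
  intro e
  exact h3 v u hu huv (e.symm ▸ hv)

theorem rk_eq_encard_lt (s : Setoid V) (ι : V → ℕ) (hι : Function.Injective ι) :
    rk s = {v | ∃ u, ι u < ι v ∧ s u v}.encard := by
  obtain ⟨rep, h1, h2, h3⟩ := exists_rep s (fun u => ∀ w, s w u → ι u ≤ ι w)
  have hmin : ∀ v w, s w v → ι (rep v) ≤ ι w := by
    intro v w hw
    obtain ⟨u, hu, hmin⟩ := (measure ι).wf.has_min {u | s u v} ⟨v, s.refl' v⟩
    have := h3 v u (fun w' hw' => not_lt.1 (hmin w' (s.trans' hw' hu))) hu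
    exact this w (s.trans' hw (s.symm' (h1 v)))
  rw [rk_eq_of_rep s rep h1 h2]
  congr 1
  ext v
  simp only [mem_ofPred_eq]
  constructor
  · intro hv
    exact ⟨rep v, lt_of_le_of_ne (hmin v v (s.refl' v)) (fun e => hv (hι e)), h1 v⟩
  · rintro ⟨u, hu, huv⟩ e
    have := hmin v u huv
    rw [e] at this
    omega

theorem rk_mono {s t : Setoid V} (h : s ≤ t) : rk s ≤ rk t := by
  refine le_rk t _ fun v _ => ⟨(Quotient.mk s v).out, ?_, h (out_rel s v)⟩
  simp

theorem rk_bot : rk (⊥ : Setoid V) = 0 := by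
  rw [rk_eq_of_rep (⊥ : Setoid V) id (fun v => rfl) (fun u v h => h)]
  simp

theorem rk_comap_equiv (e : V ≃ W) (s : Setoid W) : rk (s.comap e) = rk s := by
  rw [rk_eq_of_rep (s.comap e) (fun v => e.symm (Quotient.mk s (e v)).out)]
  · rw [rk, ← encard_preimage_of_bijective e.bijective]
    congr 1
    ext v
    simp [Equiv.symm_apply_eq]
  · intro v
    rw [Setoid.comap_rel, Equiv.apply_symm_apply]
    exact out_rel s _
  · intro u v h
    rw [out_eq_of_rel s ((Setoid.comap_rel _ _ _ _).1 h)]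

theorem rk_comap_of_bijective (f : V → W) (hf : Function.Bijective f) (s : Setoid W) :
    rk (s.comap f) = rk s :=
  rk_comap_equiv (Equiv.ofBijective f hf) s

theorem mem_supp_of_rel {s : Setoid V} {u v : V} (h : s u v) (hne : u ≠ v) :
    u ∈ supp s ∧ v ∈ supp s :=
  ⟨⟨v, hne.symm, s.symm' h⟩, ⟨u, hne, h⟩⟩

theorem supp_mono {s t : Setoid V} (h : s ≤ t) : supp s ⊆ supp t := by
  rintro v ⟨u, hu, huv⟩
  exact ⟨u, hu, h huv⟩

theorem encard_supp_le (s : Setoid V) : (supp s).encard ≤ 2 * rk s := by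
  set A : Set V := {v | (Quotient.mk s v).out ≠ v} with hA
  have hsub : supp s ⊆ A ∪ (fun v => (Quotient.mk s v).out) '' A := by
    rintro v ⟨u, hu, huv⟩
    by_cases hv : v ∈ A
    · exact Or.inl hv
    · have hv' : (Quotient.mk s v).out = v := by simpa [hA] using hv
      have : (Quotient.mk s u).out = v := by rw [out_eq_of_rel s huv, hv']
      exact Or.inr ⟨u, by simp only [hA, mem_ofPred_eq, this]; exact hu.symm, this⟩
  calc (supp s).encard ≤ A.encard + ((fun v => (Quotient.mk s v).out) '' A).encard :=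
        (encard_le_encard hsub).trans (encard_union_le _ _)
    _ ≤ A.encard + A.encard := add_le_add le_rfl (encard_image_le _ _)
    _ = 2 * rk s := by rw [two_mul]; rfl

theorem rk_le_encard_supp (s : Setoid V) : rk s ≤ (supp s).encard :=
  encard_le_encard fun v hv => ⟨_, hv, out_rel s v⟩

theorem supp_finite {s : Setoid V} (h : rk s ≠ ⊤) : (supp s).Finite := by
  refine finite_of_encard_le_coe (k := 2 * (rk s).toNat) ?_
  refine (encard_supp_le s).trans (le_of_eq ?_)
  push_cast
  rw [ENat.natCast_toNat h]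

theorem one_le_rk {s : Setoid V} {u v : V} (h : s u v) (hne : u ≠ v) : 1 ≤ rk s := by
  rw [← encard_singleton v]
  refine le_rk s _ fun w hw => ⟨u, by simpa using hne, ?_⟩
  rw [mem_singleton_iff.1 hw]; exact h

theorem pairS_iff (u v a b : V) :
    pairS u v a b ↔ a = b ∨ (a = u ∧ b = v) ∨ (a = v ∧ b = u) := by
  constructor
  · intro h
    change Relation.EqvGen _ a b at h
    induction h with
    | rel x y h => exact Or.inr (Or.inl h)
    | refl x => exact Or.inl rfl
    | symm x y _ ih => tauto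
    | trans x y z _ _ ih1 ih2 =>
      rcases ih1 with h | ⟨h, h'⟩ | ⟨h, h'⟩ <;> rcases ih2 with k | ⟨k, k'⟩ | ⟨k, k'⟩ <;>
        subst_vars <;> simp
  · rintro (rfl | ⟨rfl, rfl⟩ | ⟨rfl, rfl⟩)
    · exact (pairS u v).refl' _
    · exact Relation.EqvGen.rel _ _ ⟨rfl, rfl⟩
    · exact Relation.EqvGen.symm _ _ (Relation.EqvGen.rel _ _ ⟨rfl, rfl⟩)

theorem pairS_le_iff {s : Setoid V} {u v : V} : pairS u v ≤ s ↔ s u v := by
  constructor
  · intro h
    exact h ((pairS_iff u v u v).2 (Or.inr (Or.inl ⟨rfl, rfl⟩)))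
  · intro h
    refine Setoid.eqvGen_le ?_
    rintro x y ⟨rfl, rfl⟩
    exact h

theorem sup_pairS_iff (s : Setoid V) (u v a b : V) :
    (s ⊔ pairS u v) a b ↔ s a b ∨ (s a u ∧ s v b) ∨ (s a v ∧ s u b) := by
  constructor
  · intro h
    let t : Setoid V :=
      { r := fun a b => s a b ∨ (s a u ∧ s v b) ∨ (s a v ∧ s u b)
        iseqv :=
          { refl := fun a => Or.inl (s.refl' a)
            symm := by
              rintro a b (h | ⟨h, h'⟩ | ⟨h, h'⟩)
              · exact Or.inl (s.symm' h)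
              · exact Or.inr (Or.inr ⟨s.symm' h', s.symm' h⟩)
              · exact Or.inr (Or.inl ⟨s.symm' h', s.symm' h⟩)
            trans := by
              rintro a b c (h | ⟨h, h'⟩ | ⟨h, h'⟩) (k | ⟨k, k'⟩ | ⟨k, k'⟩)
              · exact Or.inl (s.trans' h k)
              · exact Or.inr (Or.inl ⟨s.trans' h k, k'⟩)
              · exact Or.inr (Or.inr ⟨s.trans' h k, k'⟩)
              · exact Or.inr (Or.inl ⟨h, s.trans' h' k⟩)
              · exact Or.inr (Or.inl ⟨h, k'⟩)
              · exact Or.inl (s.trans' h k')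
              · exact Or.inr (Or.inr ⟨h, s.trans' h' k⟩)
              · exact Or.inl (s.trans' h k')
              · exact Or.inr (Or.inr ⟨h, k'⟩) } }
    have : s ⊔ pairS u v ≤ t := by
      refine sup_le (fun _ _ h => Or.inl h) (pairS_le_iff.2 ?_)
      exact Or.inr (Or.inl ⟨s.refl' u, s.refl' v⟩)
    exact this h
  · have hs : s ≤ s ⊔ pairS u v := le_sup_left
    have huv : (s ⊔ pairS u v) u v := pairS_le_iff.1 le_sup_right
    rintro (h | ⟨h, h'⟩ | ⟨h, h'⟩)
    · exact hs h
    · exact Setoid.trans' _ (hs h) (Setoid.trans' _ huv (hs h'))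
    · exact Setoid.trans' _ (hs h) (Setoid.trans' _ (Setoid.symm' _ huv) (hs h'))

theorem rk_sup_pairS_of_not_rel {s : Setoid V} {u v : V} (h : ¬ s u v) :
    rk (s ⊔ pairS u v) = rk s + 1 := by
  classical
  obtain ⟨rep, h1, h2, -⟩ := exists_rep s (fun _ => True)
  rw [rk_eq_of_rep s rep h1 h2,
    rk_eq_of_rep (s ⊔ pairS u v) (fun w => if s w v then rep u else rep w)]
  · rw [← encard_insert_of_notMem (a := rep v) (by simpa using h2 _ _ (h1 v))]
    congr 1
    ext w
    simp only [mem_ofPred_eq, mem_insert_iff]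
    split_ifs with hw
    · refine iff_of_true (fun e => h (s.trans' (s.symm' (e ▸ h1 u)) hw)) ?_
      rw [h2 _ _ hw]
      by_cases e : w = rep v
      · exact Or.inl e
      · exact Or.inr (Ne.symm e)
    · refine ⟨Or.inr, ?_⟩
      rintro (e | e)
      · exact absurd (e ▸ h1 v) hw
      · exact e
  · intro w
    rw [sup_pairS_iff]
    split_ifs with hw
    · exact Or.inr (Or.inl ⟨h1 u, s.symm' hw⟩)
    · exact Or.inl (h1 w)
  · intro a b hab
    rw [sup_pairS_iff] at hab
    rcases hab with k | ⟨k, k'⟩ | ⟨k, k'⟩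
    · by_cases hb : s b v
      · rw [if_pos hb, if_pos (s.trans' k hb)]
      · rw [if_neg hb, if_neg (fun ha => hb (s.trans' (s.symm' k) ha)), h2 _ _ k]
    · rw [if_neg (fun ha => h (s.trans' (s.symm' k) ha)), if_pos (s.symm' k'), h2 _ _ k]
    · rw [if_pos k, if_neg (fun hb => h (s.trans' k' hb)), h2 _ _ k']

theorem rk_sup_pairS_le (s : Setoid V) (u v : V) : rk (s ⊔ pairS u v) ≤ rk s + 1 := by
  by_cases h : s u v
  · rw [sup_eq_left.2 (pairS_le_iff.2 h)]; exact le_self_add
  · exact (rk_sup_pairS_of_not_rel h).le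

theorem rk_pairS_le (u v : V) : rk (pairS u v) ≤ 1 := by
  simpa [rk_bot] using rk_sup_pairS_le (⊥ : Setoid V) u v

theorem rk_sup_biSup_pairS_le (s : Setoid V) (r : V → V) {B : Set V} (hB : B.Finite) :
    rk (s ⊔ ⨆ v ∈ B, pairS (r v) v) ≤ rk s + B.encard := by
  induction B, hB using Set.Finite.induction_on with
  | empty => simp
  | @insert a B ha _ ih =>
    rw [iSup_insert, sup_comm (pairS (r a) a), ← sup_assoc, encard_insert_of_notMem ha,
      ← add_assoc]
    exact (rk_sup_pairS_le _ _ _).trans (by gcongr)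

theorem rk_sup_le (s t : Setoid V) : rk (s ⊔ t) ≤ rk s + rk t := by
  by_cases ht : rk t = ⊤
  · simp [ht]
  have hB : {v | (Quotient.mk t v).out ≠ v}.Finite := encard_ne_top_iff.1 ht
  refine le_trans (rk_mono (sup_le_sup_left ?_ s))
    (rk_sup_biSup_pairS_le s (fun v => (Quotient.mk t v).out) hB)
  set T : Setoid V := ⨆ v ∈ {v | (Quotient.mk t v).out ≠ v}, pairS (Quotient.mk t v).out v
  have key : ∀ v, T (Quotient.mk t v).out v := by
    intro v
    by_cases hv : (Quotient.mk t v).out = v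
    · rw [hv]
    · exact pairS_le_iff.1 (le_iSup₂_of_le (f := fun v (_ : v ∈ {v | (Quotient.mk t v).out ≠ v}) =>
        pairS (Quotient.mk t v).out v) v hv le_rfl)
  intro a b hab
  refine T.trans' (T.symm' (key a)) ?_
  rw [out_eq_of_rel t hab]
  exact key b

theorem rk_biSup_le {ι : Type*} (s : ι → Setoid V) (A : Finset ι) :
    rk (⨆ i ∈ A, s i) ≤ ∑ i ∈ A, rk (s i) := by
  classical
  induction A using Finset.induction_on with
  | empty => simp [rk_bot]
  | insert a A ha ih =>
    rw [Finset.iSup_insert, Finset.sum_insert ha]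
    exact (rk_sup_le _ _).trans (by gcongr)

theorem rk_iSup_le {ι : Type*} [Fintype ι] (s : ι → Setoid V) :
    rk (⨆ i, s i) ≤ ∑ i, rk (s i) := by
  simpa using rk_biSup_le s Finset.univ

theorem iSup_rel_iff {ι : Sort*} (s : ι → Setoid V) (u v : V) :
    (⨆ i, s i) u v ↔ Relation.EqvGen (fun a b => ∃ i, s i a b) u v := by
  have : (⨆ i, s i) = Relation.EqvGen.setoid (fun a b => ∃ i, s i a b) := by
    refine le_antisymm (iSup_le fun i a b h => Relation.EqvGen.rel _ _ ⟨i, h⟩)
      (Setoid.eqvGen_le ?_)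
    rintro a b ⟨i, h⟩
    exact le_iSup s i h
  rw [this]; rfl

theorem eqvGen_mem_of_ne {r : V → V → Prop} {S : Set V} (h : ∀ a b, r a b → a = b ∨ (a ∈ S ∧ b ∈ S))
    {a b : V} (hab : Relation.EqvGen r a b) : a = b ∨ (a ∈ S ∧ b ∈ S) := by
  induction hab with
  | rel x y k => exact h x y k
  | refl x => exact Or.inl rfl
  | symm x y _ ih => tauto
  | trans x y z _ _ ih1 ih2 =>
    rcases ih1 with rfl | ⟨k, k'⟩
    · exact ih2
    · rcases ih2 with rfl | ⟨l, l'⟩
      · exact Or.inr ⟨k, k'⟩
      · exact Or.inr ⟨k, l'⟩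

theorem supp_iSup {ι : Sort*} (s : ι → Setoid V) : supp (⨆ i, s i) = ⋃ i, supp (s i) := by
  refine Subset.antisymm ?_ (iUnion_subset fun i => supp_mono (le_iSup s i))
  rintro v ⟨u, hu, huv⟩
  rw [iSup_rel_iff] at huv
  refine ((eqvGen_mem_of_ne (S := ⋃ i, supp (s i)) ?_ huv).resolve_left hu).2
  rintro a b ⟨i, h⟩
  by_cases e : a = b
  · exact Or.inl e
  · exact Or.inr ⟨mem_iUnion.2 ⟨i, (mem_supp_of_rel h e).1⟩,
      mem_iUnion.2 ⟨i, (mem_supp_of_rel h e).2⟩⟩

theorem supp_sup (s t : Setoid V) : supp (s ⊔ t) = supp s ∪ supp t := by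
  rw [sup_eq_iSup, supp_iSup, union_eq_iUnion]
  congr 1
  funext b
  cases b <;> rfl

theorem map_rel {s : Setoid V} {u v : V} (h : s u v) (f : V → W) : s.map f (f u) (f v) :=
  Relation.EqvGen.rel _ _ ⟨u, v, h, rfl, rfl⟩

theorem map_le_iff {s : Setoid V} {t : Setoid W} {f : V → W} :
    s.map f ≤ t ↔ ∀ u v, s u v → t (f u) (f v) := by
  constructor
  · intro h u v huv
    exact h (map_rel huv f)
  · intro h
    refine Setoid.eqvGen_le ?_
    rintro _ _ ⟨u, v, huv, rfl, rfl⟩
    exact h u v huv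

theorem map_le_iff_le_comap {s : Setoid V} {t : Setoid W} {f : V → W} :
    s.map f ≤ t ↔ s ≤ t.comap f :=
  map_le_iff.trans ⟨fun h _ _ k => h _ _ k, fun h _ _ k => h k⟩

theorem map_mono {s t : Setoid V} (h : s ≤ t) (f : V → W) : s.map f ≤ t.map f :=
  map_le_iff.2 fun _ _ k => map_rel (h k) f

theorem map_iSup {ι : Sort*} (s : ι → Setoid V) (f : V → W) :
    (⨆ i, s i).map f = ⨆ i, (s i).map f := by
  refine le_antisymm (map_le_iff_le_comap.2 (iSup_le fun i => ?_))
    (iSup_le fun i => map_mono (le_iSup s i) f)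
  exact map_le_iff_le_comap.1 (le_iSup (fun i => (s i).map f) i)

theorem map_map {W' : Type*} (s : Setoid V) (f : V → W) (g : W → W') :
    (s.map f).map g = s.map (g ∘ f) := by
  refine le_antisymm (map_le_iff_le_comap.2 (map_le_iff.2 fun u v h => ?_))
    (map_le_iff.2 fun u v h => map_rel (map_rel h f) g)
  exact map_rel h (g ∘ f)

theorem map_congr_supp (s : Setoid V) {f g : V → W} (h : ∀ v ∈ supp s, f v = g v) :
    s.map f = s.map g := by
  refine le_antisymm (map_le_iff.2 fun u v k => ?_) (map_le_iff.2 fun u v k => ?_)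
  · by_cases e : u = v
    · rw [e]
    · rw [h u (mem_supp_of_rel k e).1, h v (mem_supp_of_rel k e).2]; exact map_rel k g
  · by_cases e : u = v
    · rw [e]
    · rw [← h u (mem_supp_of_rel k e).1, ← h v (mem_supp_of_rel k e).2]; exact map_rel k f

theorem supp_map_subset (s : Setoid V) (f : V → W) : supp (s.map f) ⊆ f '' supp s := by
  rintro v ⟨u, hu, huv⟩
  refine ((eqvGen_mem_of_ne (S := f '' supp s) ?_ huv).resolve_left hu).2
  rintro _ _ ⟨a, b, h, rfl, rfl⟩
  by_cases e : a = b
  · exact Or.inl (congrArg f e)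
  · exact Or.inr ⟨mem_image_of_mem f (mem_supp_of_rel h e).1,
      mem_image_of_mem f (mem_supp_of_rel h e).2⟩

theorem comap_eq_map_symm (e : V ≃ W) (s : Setoid W) : s.comap e = s.map e.symm := by
  refine le_antisymm (fun a b h => ?_) (map_le_iff.2 fun u v h => ?_)
  · simpa using map_rel ((Setoid.comap_rel _ _ _ _).1 h) e.symm
  · rw [Setoid.comap_rel]; simpa using h

theorem comap_iSup_of_bijective {ι : Sort*} (s : ι → Setoid W) (f : V → W)
    (hf : Function.Bijective f) : (⨆ i, s i).comap f = ⨆ i, (s i).comap f := by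
  have := fun t : Setoid W => comap_eq_map_symm (Equiv.ofBijective f hf) t
  simp only [Equiv.coe_ofBijective] at this
  simp only [this, map_iSup]

theorem del_iff (s : Setoid V) (P : Set V) (u v : V) :
    del s P u v ↔ u = v ∨ (s u v ∧ u ∉ P ∧ v ∉ P) := Iff.rfl

theorem del_le (s : Setoid V) (P : Set V) : del s P ≤ s := by
  rintro u v (rfl | ⟨h, -⟩)
  · exact s.refl' _
  · exact h

theorem del_mono {s t : Setoid V} (h : s ≤ t) {P P' : Set V} (hP : P' ⊆ P) :
    del s P ≤ del t P' := by
  rintro u v (rfl | ⟨k, hu, hv⟩)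
  · exact Or.inl rfl
  · exact Or.inr ⟨h k, fun e => hu (hP e), fun e => hv (hP e)⟩

theorem del_del (s : Setoid V) (P P' : Set V) : del (del s P) P' = del s (P ∪ P') := by
  ext u v
  simp only [del_iff, mem_union]
  tauto

theorem del_inter_supp (s : Setoid V) (P : Set V) : del s (P ∩ supp s) = del s P := by
  refine le_antisymm ?_ (del_mono le_rfl inter_subset_left)
  rintro u v (rfl | ⟨k, hu, hv⟩)
  · exact Or.inl rfl
  · by_cases e : u = v
    · exact Or.inl e
    · exact Or.inr ⟨k, fun h => hu ⟨h, (mem_supp_of_rel k e).1⟩,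
        fun h => hv ⟨h, (mem_supp_of_rel k e).2⟩⟩

theorem del_empty (s : Setoid V) : del s ∅ = s :=
  le_antisymm (del_le s ∅) fun _ _ h => Or.inr ⟨h, notMem_empty _, notMem_empty _⟩

theorem supp_del_subset (s : Setoid V) (P : Set V) : supp (del s P) ⊆ supp s \ P := by
  rintro v ⟨u, hu, rfl | ⟨k, -, hv⟩⟩
  · exact absurd rfl hu
  · exact ⟨⟨u, hu, k⟩, hv⟩

theorem iSup_del_le {ι : Sort*} (s : ι → Setoid V) (P : Set V) :
    (⨆ i, del (s i) P) ≤ del (⨆ i, s i) P :=
  iSup_le fun i => del_mono (le_iSup s i) Subset.rfl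

/-- the rank after a deletion, for representatives that avoid `P` when possible -/
theorem rk_del_eq (s : Setoid V) (P : Set V) (rep : V → V) (h1 : ∀ v, s (rep v) v)
    (h2 : ∀ u v, s u v → rep u = rep v) (h3 : ∀ v u, u ∉ P → s u v → rep v ∉ P) :
    rk (del s P) = ({v | rep v ≠ v} \ P).encard := by
  classical
  rw [rk_eq_of_rep (del s P) (fun v => if v ∈ P then v else rep v)]
  · congr 1
    ext v
    by_cases hv : v ∈ P <;> simp [hv]
  · intro v
    split_ifs with hv
    · exact Or.inl rfl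
    · exact Or.inr ⟨h1 v, h3 v v hv (s.refl' v), hv⟩
  · rintro u v (rfl | ⟨k, hu, hv⟩)
    · rfl
    · rw [if_neg hu, if_neg hv, h2 _ _ k]

open Classical in
/-- deleting `w` lowers the rank by one exactly when `w` is in a non-trivial class -/
theorem rk_del_singleton (s : Setoid V) (w : V) :
    rk s = rk (del s {w}) + if w ∈ supp s then 1 else 0 := by
  split_ifs with hw
  · obtain ⟨rep, h1, h2, h3⟩ := exists_rep s (fun u => u ∉ ({w} : Set V))
    rw [rk_del_eq s {w} rep h1 h2 h3, rk_eq_of_rep s rep h1 h2]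
    obtain ⟨u, hu, huw⟩ := hw
    exact (encard_sdiff_singleton_add_one (show w ∈ {v | rep v ≠ v} from h3 w u hu huw)).symm
  · rw [← del_inter_supp, singleton_inter_eq_empty.2 hw, del_empty, add_zero]

open Classical in
theorem map_update_eq_del (s : Setoid V) {w t : V} (hwt : w ≠ t) :
    s.map (Function.update id w t) = del (s ⊔ pairS w t) {w} := by
  have hne : ∀ a, Function.update id w t a ∉ ({w} : Set V) := by
    intro a
    by_cases e : a = w
    · subst e; simpa using hwt.symm
    · simpa [Function.update_of_ne e] using e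
  have hrel : ∀ a, (s ⊔ pairS w t) a (Function.update id w t a) := by
    intro a
    by_cases e : a = w
    · subst e; rw [Function.update_self]; exact pairS_le_iff.1 le_sup_right
    · rw [Function.update_of_ne e]; exact Setoid.refl' _ _
  refine le_antisymm (map_le_iff.2 fun u v h => Or.inr ⟨?_, hne u, hne v⟩) ?_
  · exact Setoid.trans' _ (Setoid.symm' _ (hrel u))
      (Setoid.trans' _ ((le_sup_left : s ≤ s ⊔ pairS w t) h) (hrel v))
  · rintro u v (rfl | ⟨k, hu, hv⟩)
    · exact Setoid.refl' _ _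
    · have hle : s ⊔ pairS w t ≤ (s.map (Function.update id w t)).comap
          (Function.update id w t) := by
        refine sup_le (map_le_iff_le_comap.1 le_rfl) (pairS_le_iff.2 ?_)
        rw [Setoid.comap_rel, Function.update_self, Function.update_of_ne hwt.symm]
        exact Setoid.refl' _ _
      have := (Setoid.comap_rel _ _ _ _).1 (hle k)
      rwa [Function.update_of_ne hu, Function.update_of_ne hv] at this

open Classical in
/-- merging `w` into `t` lowers the rank by one exactly when they were related -/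
theorem rk_map_update (s : Setoid V) {w t : V} (hwt : w ≠ t) :
    rk s = rk (s.map (Function.update id w t)) + if s w t then 1 else 0 := by
  have hw : w ∈ supp (s ⊔ pairS w t) :=
    (mem_supp_of_rel (pairS_le_iff.1 le_sup_right) hwt).1
  have h := rk_del_singleton (s ⊔ pairS w t) w
  rw [if_pos hw, ← map_update_eq_del s hwt] at h
  split_ifs with hs
  · rwa [sup_eq_left.2 (pairS_le_iff.2 hs)] at h
  · rw [rk_sup_pairS_of_not_rel hs] at h
    rw [add_zero]
    exact WithTop.add_right_cancel ENat.one_ne_top h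

/-- class by class: `2 (ρ - 1)⁺ + 3 a + 2 ρ ≤ 6 (ρ + a + l - 1)` when `ρ + a + l ≥ 2` -/
theorem weight_ineq (s : Setoid V) (W₁ W₂ : Set V) (h : W₂ ⊆ W₁) :
    2 * rk (del s W₁) + 3 * (supp s ∩ W₂).encard + 2 * (supp s \ W₁).encard ≤ 6 * rk s := by
  obtain ⟨rep, h1, h2, h3⟩ := exists_rep s (fun u => u ∉ W₁)
  set A : Set V := {v | rep v ≠ v} \ W₁ with hA
  set B : Set V := {v | rep v ≠ v ∧ v ∈ W₁ ∧ rep v ∉ W₁} with hB
  set C : Set V := {v | rep v ≠ v ∧ v ∈ W₁ ∧ rep v ∈ W₁} with hC
  have hrk : rk s = A.encard + B.encard + C.encard := by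
    rw [rk_eq_of_rep s rep h1 h2, ← encard_union_eq, ← encard_union_eq]
    · congr 1
      ext v
      simp only [hA, hB, hC, mem_union, mem_sdiff, mem_ofPred_eq]
      tauto
    · rw [Set.disjoint_left]
      intro v
      simp only [hA, hB, hC, mem_union, mem_sdiff, mem_ofPred_eq]
      tauto
    · rw [Set.disjoint_left]
      intro v
      simp only [hA, hB, mem_sdiff, mem_ofPred_eq]
      tauto
  have hdel : rk (del s W₁) = A.encard := rk_del_eq s W₁ rep h1 h2 h3
  have hW₂ : (supp s ∩ W₂).encard ≤ B.encard + C.encard + C.encard := by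
    have hsub : supp s ∩ W₂ ⊆ (B ∪ C) ∪ rep '' C := by
      rintro v ⟨⟨u, hu, huv⟩, hv⟩
      have hv1 := h hv
      by_cases e : rep v = v
      · have e' : rep u = v := by rw [h2 _ _ huv, e]
        refine Or.inr ⟨u, ⟨by rw [e']; exact hu.symm, ?_, by rw [e']; exact hv1⟩, e'⟩
        by_contra hu1
        exact h3 v u hu1 huv (e.symm ▸ hv1)
      · left
        by_cases k : rep v ∈ W₁
        · exact Or.inr ⟨e, hv1, k⟩
        · exact Or.inl ⟨e, hv1, k⟩
    exact (encard_le_encard hsub).trans ((encard_union_le _ _).trans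
      (add_le_add (encard_union_le _ _) (encard_image_le _ _)))
  have hW₁ : (supp s \ W₁).encard ≤ A.encard + (A.encard + B.encard) := by
    have hsub : supp s \ W₁ ⊆ A ∪ rep '' (A ∪ B) := by
      rintro v ⟨⟨u, hu, huv⟩, hv⟩
      by_cases e : rep v = v
      · have e' : rep u = v := by rw [h2 _ _ huv, e]
        have hne : rep u ≠ u := by rw [e']; exact hu.symm
        refine Or.inr ⟨u, ?_, e'⟩
        by_cases k : u ∈ W₁
        · exact Or.inr ⟨hne, k, by rw [e']; exact hv⟩
        · exact Or.inl ⟨hne, k⟩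
      · exact Or.inl ⟨e, hv⟩
    exact (encard_le_encard hsub).trans ((encard_union_le _ _).trans
      (add_le_add le_rfl ((encard_image_le _ _).trans (encard_union_le _ _))))
  rw [hrk, hdel]
  generalize A.encard = a at *
  generalize B.encard = b at *
  generalize C.encard = c at *
  calc 2 * a + 3 * (supp s ∩ W₂).encard + 2 * (supp s \ W₁).encard
      ≤ 2 * a + 3 * (b + c + c) + 2 * (a + (a + b)) := by gcongr
    _ ≤ 2 * a + 3 * (b + c + c) + 2 * (a + (a + b)) + b := le_self_add
    _ = 6 * (a + b + c) := by ring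

end

end Crest.Agent.R191
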