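import Crest.Agent.R191.Group
import Crest.Agent.R191.Rank

/-! Equivariance of the structures (no measure theory). -/

set_option autoImplicit false

open MeasureTheory Set Crest.Dynamics
open scoped ENNReal

namespace Crest.Agent.R191

theorem vtx_smul_bijective (g : Gam) : Function.Bijective fun v : Vtx => g • v :=
  MulAction.bijective g

theorem mem_supp_comap_of_bijective {V W : Type*} (s : Setoid W) (f : V → W)
    (hf : Function.Bijective f) (v : V) : v ∈ supp (s.comap f) ↔ f v ∈ supp s := by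
  constructor
  · rintro ⟨u, hu, h⟩
    exact ⟨f u, fun e => hu (hf.1 e), h⟩
  · rintro ⟨u, hu, h⟩
    obtain ⟨u, rfl⟩ := hf.2 u
    exact ⟨u, fun e => hu (congrArg f e), h⟩

/-- conjugating a relabelled relation by a bijection -/
theorem comap_map_of_bijective {V W : Type*} (s : Setoid W) (f : V → W)
    (hf : Function.Bijective f) (ρ : V → V) (ρ' : W → W) (h : ∀ v, ρ' (f v) = f (ρ v)) :
    (s.map ρ').comap f = (s.comap f).map ρ := by
  let e : V ≃ W := Equiv.ofBijective f hf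
  have he : ∀ v, e v = f v := fun _ => rfl
  apply le_antisymm
  · have h1 : s.map ρ' ≤ ((s.comap f).map ρ).comap e.symm := by
      rw [map_le_iff]
      intro u v huv
      obtain ⟨u, rfl⟩ := hf.2 u
      obtain ⟨v, rfl⟩ := hf.2 v
      change ((s.comap f).map ρ) (e.symm (ρ' (f u))) (e.symm (ρ' (f v)))
      rw [h, h, ← he (ρ u), ← he (ρ v), e.symm_apply_apply, e.symm_apply_apply]
      exact map_rel (s := s.comap f) huv ρ
    intro u v huv
    have h2 : ((s.comap f).map ρ) (e.symm (f u)) (e.symm (f v)) := h1 huv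
    rwa [← he u, ← he v, e.symm_apply_apply, e.symm_apply_apply] at h2
  · rw [map_le_iff]
    intro u v huv
    change (s.map ρ') (f (ρ u)) (f (ρ v))
    rw [← h, ← h]
    exact map_rel (s := s) huv ρ'

section
variable {X : Type} [MulAction Gam X]

theorem trS_apply (s : X → Setoid Vtx) (x : X) (γ : Gam) (u v : Vtx) :
    trS s x γ u v ↔ s (γ⁻¹ • x) (γ⁻¹ • u) (γ⁻¹ • v) := Iff.rfl

theorem trS_one (s : X → Setoid Vtx) (x : X) : trS s x 1 = s x := by
  ext u v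
  rw [trS_apply, inv_one, one_smul, one_smul, one_smul]

theorem trS_smul (s : X → Setoid Vtx) (x : X) (g γ : Gam) (u v : Vtx) :
    trS s (g • x) (g * γ) (g • u) (g • v) ↔ trS s x γ u v := by
  rw [trS_apply, trS_apply, mul_inv_rev, mul_smul, mul_smul, mul_smul, inv_smul_smul,
    inv_smul_smul, inv_smul_smul]

theorem trS_inv_smul (s : X → Setoid Vtx) (x : X) (g γ : Gam) :
    trS s x (g * γ) = (trS s (g⁻¹ • x) γ).comap fun v => g⁻¹ • v := by
  ext u v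
  change s ((g * γ)⁻¹ • x) ((g * γ)⁻¹ • u) ((g * γ)⁻¹ • v) ↔
    s (γ⁻¹ • g⁻¹ • x) (γ⁻¹ • g⁻¹ • u) (γ⁻¹ • g⁻¹ • v)
  rw [mul_inv_rev, mul_smul, mul_smul, mul_smul]

theorem rk_trS (s : X → Setoid Vtx) (x : X) (γ : Gam) : rk (trS s x γ) = rk (s (γ⁻¹ • x)) :=
  rk_comap_of_bijective _ (vtx_smul_bijective γ⁻¹) _

theorem mem_supp_trS (s : X → Setoid Vtx) (x : X) (γ : Gam) (v : Vtx) :
    v ∈ supp (trS s x γ) ↔ γ⁻¹ • v ∈ supp (s (γ⁻¹ • x)) :=
  mem_supp_comap_of_bijective _ _ (vtx_smul_bijective γ⁻¹) v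

theorem trJ_eq (s : X → Setoid Vtx) (x : X) (c : Gam) :
    trJ s x c = (trJ s (c⁻¹ • x) 1).comap fun v => c⁻¹ • v := by
  unfold trJ
  rw [comap_iSup_of_bijective _ _ (vtx_smul_bijective c⁻¹)]
  refine iSup_congr fun i => ?_
  rw [trS_inv_smul, one_mul]

theorem trJ_one (s : X → Setoid Vtx) (x : X) : trJ s x 1 = ⨆ i, trS s x (sig i) := by
  unfold trJ
  simp only [one_mul]

theorem iSup_trS_smul (s : X → Setoid Vtx) (x : X) (g : Gam) (u v : Vtx) :
    (⨆ γ, trS s (g • x) γ) (g • u) (g • v) ↔ (⨆ γ, trS s x γ) u v := by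
  have h1 : (⨆ γ, trS s (g • x) γ) = ⨆ γ, trS s (g • x) (g * γ) :=
    ((Equiv.mulLeft g).iSup_comp (g := fun γ => trS s (g • x) γ)).symm
  have h2 : ((⨆ γ, trS s (g • x) (g * γ)).comap fun v : Vtx => g • v) = ⨆ γ, trS s x γ := by
    rw [comap_iSup_of_bijective _ _ (vtx_smul_bijective g)]
    refine iSup_congr fun γ => ?_
    ext u v
    rw [Setoid.comap_rel, trS_smul]
  rw [h1, ← h2]
  rfl

theorem ex_mem_glob (A : X → Set ℕ) (x : X) (γ : Gam) (k : ℕ) :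
    Vtx.ex γ k ∈ glob A x ↔ k ∈ A (γ⁻¹ • x) := by
  constructor
  · rintro ⟨γ', k', h, hk⟩
    obtain ⟨rfl, rfl⟩ := Vtx.ex.inj h
    exact hk
  · intro h
    exact ⟨γ, k, rfl, h⟩

theorem sp_notMem_glob (A : X → Set ℕ) (x : X) (q : K) : Vtx.sp q ∉ glob A x := by
  rintro ⟨γ', k', h, -⟩
  cases h

theorem smul_mem_glob (A : X → Set ℕ) (x : X) (g : Gam) (v : Vtx) :
    g • v ∈ glob A (g • x) ↔ v ∈ glob A x := by
  cases v with
  | sp q =>
    rw [Vtx.smul_sp]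
    exact iff_of_false (sp_notMem_glob _ _ _) (sp_notMem_glob _ _ _)
  | ex γ k =>
    rw [Vtx.smul_ex, ex_mem_glob, ex_mem_glob, mul_inv_rev, mul_smul, inv_smul_smul]

theorem relab_smul (τ : X → ℕ → Vtx) (x : X) (g : Gam) (v : Vtx) :
    relab τ (g • x) (g • v) = g • relab τ x v := by
  cases v with
  | sp q => rfl
  | ex γ k =>
    change (g * γ) • τ ((g * γ)⁻¹ • g • x) k = g • γ • τ (γ⁻¹ • x) k
    rw [mul_inv_rev, mul_smul γ⁻¹, inv_smul_smul, mul_smul]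

theorem relab_ex_one (τ : X → ℕ → Vtx) (x : X) (k : ℕ) : relab τ x (Vtx.ex 1 k) = τ x k := by
  change (1 : Gam) • τ ((1 : Gam)⁻¹ • x) k = τ x k
  simp

/-- translating a relabelled family -/
theorem trS_map (s : X → Setoid Vtx) (ρ : X → Vtx → Vtx)
    (hρ : ∀ x (g : Gam) v, ρ (g • x) (g • v) = g • ρ x v) (x : X) (γ : Gam) :
    trS (fun y => (s y).map (ρ y)) x γ = (trS s x γ).map (ρ x) :=
  comap_map_of_bijective (s (γ⁻¹ • x)) (fun v => γ⁻¹ • v) (vtx_smul_bijective γ⁻¹) (ρ x)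
    (ρ (γ⁻¹ • x)) fun v => hρ x γ⁻¹ v

/-- translating a family with deleted points -/
theorem trS_del (s : X → Setoid Vtx) (P : X → Set Vtx)
    (hP : ∀ x (g : Gam) v, g • v ∈ P (g • x) ↔ v ∈ P x) (x : X) (γ : Gam) :
    trS (fun y => del (s y) (P y)) x γ = del (trS s x γ) (P x) := by
  ext u v
  change (γ⁻¹ • u = γ⁻¹ • v ∨ (s (γ⁻¹ • x) (γ⁻¹ • u) (γ⁻¹ • v) ∧ γ⁻¹ • u ∉ P (γ⁻¹ • x) ∧
      γ⁻¹ • v ∉ P (γ⁻¹ • x))) ↔
    (u = v ∨ (s (γ⁻¹ • x) (γ⁻¹ • u) (γ⁻¹ • v) ∧ u ∉ P x ∧ v ∉ P x))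
  rw [hP, hP, smul_left_cancel_iff]

theorem trS_sup (s t : X → Setoid Vtx) (x : X) (γ : Gam) :
    trS (fun y => s y ⊔ t y) x γ = trS s x γ ⊔ trS t x γ := by
  change (s (γ⁻¹ • x) ⊔ t (γ⁻¹ • x)).comap (fun v => γ⁻¹ • v) = _
  rw [sup_eq_iSup, comap_iSup_of_bijective _ _ (vtx_smul_bijective γ⁻¹), sup_eq_iSup]
  refine iSup_congr fun b => ?_
  cases b <;> rfl

end

section
variable {X : Type} [MeasurableSpace X] [MulAction Gam X]

theorem Str.smul_mem_Vert (Y : Str X) (x : X) (g : Gam) (v : Vtx) :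
    g • v ∈ Y.Vert (g • x) ↔ v ∈ Y.Vert x := by
  unfold Str.Vert
  rw [mem_union, mem_union, smul_mem_glob]
  cases v with
  | sp q => simp
  | ex γ k => simp

theorem Str.sp_mem_Vert (Y : Str X) (x : X) (q : K) : Vtx.sp q ∈ Y.Vert x :=
  Or.inl ⟨q, rfl⟩

theorem Str.ex_mem_Vert (Y : Str X) (x : X) (γ : Gam) (k : ℕ) :
    Vtx.ex γ k ∈ Y.Vert x ↔ k ∈ Y.vert (γ⁻¹ • x) := by
  unfold Str.Vert
  rw [mem_union, ex_mem_glob]
  simp

/-- the degree of `ex γ k` seen from `x` -/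
theorem Str.deg_eq (Y : Str X) (x : X) (γ : Gam) (k : ℕ) :
    Y.deg (γ⁻¹ • x) k = {z : Gam | Vtx.ex γ k ∈ supp (Y.S x z)}.encard := by
  unfold Str.deg
  rw [← (Equiv.mulLeft γ).injective.encard_image]
  congr 1
  ext z
  simp only [Equiv.coe_mulLeft, image_mul_left, mem_preimage, mem_ofPred_eq, mem_supp_trS,
    mul_inv_rev, inv_inv, mul_smul, smul_inv_smul, Vtx.smul_ex, mul_one]

variable [StandardBorelSpace X]

/-- An equivariant ordering key for extra vertices (injective on them when `x` is a free point). -/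
noncomputable def key (x : X) : Vtx → ℝ ×ₗ ℕ
  | Vtx.sp _ => toLex (0, 0)
  | Vtx.ex γ k => toLex (embeddingReal X (γ⁻¹ • x), k)

theorem key_smul (x : X) (g : Gam) (v : Vtx) : key (g • x) (g • v) = key x v := by
  cases v with
  | sp q => rfl
  | ex γ k =>
    change toLex (embeddingReal X ((g * γ)⁻¹ • g • x), k) = toLex (embeddingReal X (γ⁻¹ • x), k)
    rw [mul_inv_rev, mul_smul γ⁻¹, inv_smul_smul]

theorem key_injOn (x : X) (hx : ∀ g : Gam, g • x = x → g = 1) :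
    InjOn (key x) {v | ∃ γ k, v = Vtx.ex γ k} := by
  rintro _ ⟨γ, k, rfl⟩ _ ⟨γ', k', rfl⟩ h
  have h' : (embeddingReal X (γ⁻¹ • x), k) = (embeddingReal X (γ'⁻¹ • x), k') :=
    toLex.injective h
  obtain ⟨h1, rfl⟩ := Prod.mk.inj h'
  have h2 : γ⁻¹ • x = γ'⁻¹ • x := (measurableEmbedding_embeddingReal X).injective h1
  have h3 : γ' * γ⁻¹ = 1 := hx _ (by rw [mul_smul, h2, smul_inv_smul])
  rw [mul_inv_eq_one] at h3
  rw [h3]

end

end Crest.Agent.R191
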