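import Crest.Agent.R191.Group

/-! The bipartite forest of checks and variables. -/

set_option autoImplicit false

open MeasureTheory Set
open scoped ENNReal

namespace Crest.Agent.R191

section Head

variable {α : Type*} [DecidableEq α]

theorem tree_toWord_cons (a : α) (s : Bool) (x : FreeGroup α) :
    (FreeGroup.mk [(a, s)] * x).toWord =
      if x.toWord.head? = some (a, !s) then x.toWord.tail else (a, s) :: x.toWord := by
  have h1 : (FreeGroup.mk [(a, s)] * x) = FreeGroup.mk ((a, s) :: x.toWord) := by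
    conv_lhs => rw [← FreeGroup.mk_toWord (x := x)]
    rw [FreeGroup.mul_mk]; rfl
  rw [h1, FreeGroup.toWord_mk, FreeGroup.reduce.cons, FreeGroup.reduce_toWord]
  rcases x.toWord with _ | ⟨⟨b, t⟩, tl⟩
  · simp
  · simp only [List.head?_cons, Option.some.injEq, Prod.mk.injEq, List.tail_cons]
    by_cases h : b = a ∧ t = !s
    · obtain ⟨rfl, rfl⟩ := h
      simp
    · rw [if_neg h, if_neg]
      rintro ⟨h2, h3⟩
      apply h
      refine ⟨h2.symm, ?_⟩
      rw [h3]; simp

theorem tree_norm_cancel (a : α) (s : Bool) (x : FreeGroup α)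
    (h : x.toWord.head? = some (a, !s)) :
    FreeGroup.norm (FreeGroup.mk [(a, s)] * x) + 1 = FreeGroup.norm x := by
  unfold FreeGroup.norm
  rw [tree_toWord_cons, if_pos h]
  revert h
  rcases x.toWord with _ | ⟨p, tl⟩
  · simp
  · simp

theorem tree_head_of_not (a : α) (s : Bool) (x : FreeGroup α)
    (h : x.toWord.head? ≠ some (a, !s)) :
    (FreeGroup.mk [(a, s)] * x).toWord.head? = some (a, s) := by
  rw [tree_toWord_cons, if_neg h]; rfl

end Head

/-- the index of the parent variable of a check -/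
def treeB (c : F) : Fin 100 :=
  match (c⁻¹).toWord.head? with
  | some (i, true) => i.succ
  | _ => 0

theorem treeB_eq_succ {c : F} {i : Fin 99} :
    treeB c = i.succ ↔ (c⁻¹).toWord.head? = some (i, true) := by
  unfold treeB
  rcases (c⁻¹).toWord.head? with _ | ⟨j, _ | _⟩
  · simp [(Fin.succ_ne_zero i).symm]
  · simp [(Fin.succ_ne_zero i).symm]
  · simp

theorem treeB_ne_succ {z : F} {i : Fin 99} (h : treeB (z * (sigF i.succ)⁻¹) ≠ i.succ) :
    (z⁻¹).toWord.head? = some (i, false) := by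
  by_contra hc
  apply h
  rw [treeB_eq_succ, sigF_succ, mul_inv_rev, inv_inv]
  exact tree_head_of_not i true z⁻¹ hc

theorem treeB_norm_false {z : F} {i : Fin 99} (h : (z⁻¹).toWord.head? = some (i, false)) :
    FreeGroup.norm (z * (sigF i.succ)⁻¹) + 1 = FreeGroup.norm z := by
  rw [← FreeGroup.norm_inv_eq (x := z), ← FreeGroup.norm_inv_eq (x := z * _), sigF_succ,
    mul_inv_rev, inv_inv]
  exact tree_norm_cancel i true z⁻¹ h

theorem treeB_norm_true {z : F} {i : Fin 99} (h : (z⁻¹).toWord.head? = some (i, true)) :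
    FreeGroup.norm (z * sigF i.succ) + 1 = FreeGroup.norm z := by
  rw [← FreeGroup.norm_inv_eq (x := z), ← FreeGroup.norm_inv_eq (x := z * _), sigF_succ,
    mul_inv_rev]
  exact tree_norm_cancel i false z⁻¹ h

theorem treeB_ne_zero {z : F} (h : treeB z ≠ 0) : ∃ i, (z⁻¹).toWord.head? = some (i, true) := by
  obtain ⟨i, hi⟩ := Fin.exists_succ_eq_of_ne_zero h
  exact ⟨i, treeB_eq_succ.1 hi.symm⟩

/-- The rooted structure on `F` itself (right multiplication: the check `c` has the variables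
`c * sigF i`; the root is the variable `1`). -/
theorem exists_rootingF : ∃ (b : F → Fin 100) (ρ : F → ℕ),
    (∀ z i j, b (z * (sigF i)⁻¹) ≠ i → b (z * (sigF j)⁻¹) ≠ j → i = j) ∧
    (∀ c i, b (c * sigF (b c) * (sigF i)⁻¹) ≠ i → ρ (c * sigF (b c) * (sigF i)⁻¹) < ρ c) ∧
    (∀ i, b (sigF i)⁻¹ = i) ∧
    (∀ z, z ≠ 1 → ∃ i, b (z * (sigF i)⁻¹) ≠ i) := by
  refine ⟨treeB, fun c => 2 * FreeGroup.norm c + (if treeB c = 0 then 1 else 0), ?_, ?_, ?_, ?_⟩
  · intro z i j hi hj
    rcases Fin.eq_zero_or_eq_succ i with rfl | ⟨i, rfl⟩ <;>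
      rcases Fin.eq_zero_or_eq_succ j with rfl | ⟨j, rfl⟩
    · rfl
    · rw [sigF_zero, inv_one, mul_one] at hi
      obtain ⟨k, hk⟩ := treeB_ne_zero hi
      rw [treeB_ne_succ hj] at hk
      simp at hk
    · rw [sigF_zero, inv_one, mul_one] at hj
      obtain ⟨k, hk⟩ := treeB_ne_zero hj
      rw [treeB_ne_succ hi] at hk
      simp at hk
    · have h1 := treeB_ne_succ hi
      rw [treeB_ne_succ hj] at h1
      simp only [Option.some.injEq, Prod.mk.injEq, and_true] at h1
      rw [h1]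
  · intro c i hi
    rcases Fin.eq_zero_or_eq_succ (treeB c) with hb | ⟨k, hb⟩
    · rw [hb, sigF_zero, mul_one] at hi ⊢
      rcases Fin.eq_zero_or_eq_succ i with rfl | ⟨i, rfl⟩
      · rw [sigF_zero, inv_one, mul_one] at hi
        exact absurd hb hi
      · have h1 := treeB_norm_false (treeB_ne_succ hi)
        simp only [hb, if_true]
        split_ifs <;> omega
    · have h0 := treeB_norm_true (treeB_eq_succ.1 hb)
      rw [hb] at hi ⊢
      have hne : treeB c ≠ 0 := by rw [hb]; exact Fin.succ_ne_zero k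
      rcases Fin.eq_zero_or_eq_succ i with rfl | ⟨i, rfl⟩
      · rw [sigF_zero, inv_one, mul_one] at hi ⊢
        simp only [if_neg hi, if_neg hne]
        omega
      · have h1 := treeB_norm_false (treeB_ne_succ hi)
        simp only [if_neg hne]
        split_ifs <;> omega
  · intro i
    rcases Fin.eq_zero_or_eq_succ i with rfl | ⟨i, rfl⟩
    · rw [sigF_zero]; simp [treeB]
    · rw [treeB_eq_succ, inv_inv, sigF_succ, FreeGroup.toWord_of]; rfl
  · intro z hz
    have hne : (z⁻¹).toWord ≠ [] := by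
      rw [Ne, FreeGroup.toWord_eq_nil_iff, inv_eq_one]; exact hz
    obtain ⟨⟨j, s⟩, hj⟩ : ∃ p, (z⁻¹).toWord.head? = some p := by
      revert hne
      rcases (z⁻¹).toWord with _ | ⟨p, tl⟩
      · simp
      · simp
    cases s
    · refine ⟨j.succ, fun h => ?_⟩
      have h1 := treeB_norm_true (treeB_eq_succ.1 h)
      have h2 := treeB_norm_false hj
      rw [inv_mul_cancel_right] at h1
      omega
    · refine ⟨0, ?_⟩
      rw [sigF_zero, inv_one, mul_one, treeB_eq_succ.2 hj]
      exact Fin.succ_ne_zero j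

theorem exists_rooting (Z : Type*) [MulAction F Z]
    (hfree : ∀ (g : F) (z : Z), g • z = z → g = 1) : Nonempty (Rooting Z) := by
  obtain ⟨b, ρ, hpar, hrank, -, -⟩ := exists_rootingF
  have hex : ∀ z : Z, ∃ g : F,
      g • z = (Quotient.mk (MulAction.orbitRel F Z) z).out := by
    intro z
    have h := Quotient.mk_out (s := MulAction.orbitRel F Z) z
    exact h
  choose φ hφ using hex
  have hmul : ∀ (g : F) (z : Z), φ (g • z) = φ z * g⁻¹ := by
    intro g z
    have hq : Quotient.mk (MulAction.orbitRel F Z) (g • z) =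
        Quotient.mk (MulAction.orbitRel F Z) z := Quotient.sound ⟨g, rfl⟩
    have h1 := hφ (g • z)
    rw [hq, ← hφ z, ← mul_smul] at h1
    have h2 : ((φ z)⁻¹ * (φ (g • z) * g)) • z = z := by
      rw [mul_smul, h1, inv_smul_smul]
    have h3 := hfree _ _ h2
    rw [inv_mul_eq_one] at h3
    rw [h3, mul_inv_cancel_right]
  refine ⟨⟨fun z => b (φ z), fun z => ρ (φ z), ?_, ?_⟩⟩
  · intro z i j hi hj
    rw [hmul] at hi hj
    exact hpar _ _ _ hi hj
  · intro c i hi
    rw [hmul, hmul, inv_inv] at hi ⊢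
    exact hrank _ _ hi

/-- The hyperforest inequality `∑_c (|H ∩ c| - 1)⁺ + 1 ≤ |H|`. -/
theorem hyperforest (H : Set Gam) (hH : H.Nonempty) :
    {p : Gam × Fin 100 | p.1 * sig p.2 ∈ H ∧ ∃ j < p.2, p.1 * sig j ∈ H}.encard + 1 ≤
      H.encard := by
  classical
  obtain ⟨b0, ρ0, hpar0, hrank0, -, -⟩ := exists_rootingF
  set b : Gam → Fin 100 := fun c => b0 c.right with hb
  set ρ : Gam → ℕ := fun c => ρ0 c.right with hρ
  have hr : ∀ (c : Gam) (i : Fin 100), (c * sig i).right = c.right * sigF i := by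
    intro c i; simp [sig]
  -- a variable has at most one parent check
  have hpar : ∀ (c c' : Gam) (i j : Fin 100), c * sig i = c' * sig j → b c ≠ i → b c' ≠ j →
      c = c' ∧ i = j := by
    intro c c' i j h hi hj
    have h1 : c.right * sigF i = c'.right * sigF j := by rw [← hr, ← hr, h]
    have hij : i = j := by
      refine hpar0 (c.right * sigF i) i j ?_ ?_
      · rwa [mul_inv_cancel_right]
      · rwa [h1, mul_inv_cancel_right]
    subst hij
    exact ⟨mul_right_cancel h, rfl⟩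
  have hrank : ∀ (c c' : Gam) (j : Fin 100), c * sig (b c) = c' * sig j → b c' ≠ j →
      ρ c' < ρ c := by
    intro c c' j h hj
    have h1 : c.right * sigF (b0 c.right) = c'.right * sigF j := by rw [← hr, ← hr, h]
    have h2 := hrank0 c.right j (by rwa [h1, mul_inv_cancel_right])
    rwa [h1, mul_inv_cancel_right] at h2
  -- the first side of a check lying in `H`
  have hm : ∀ c : Gam, ∃ m : Fin 100, (∃ i, c * sig i ∈ H) →
      c * sig m ∈ H ∧ ∀ j < m, c * sig j ∉ H := by
    intro c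
    by_cases h : ∃ i, c * sig i ∈ H
    · obtain ⟨m, hm1, hm2⟩ := (wellFounded_lt (α := Fin 100)).has_min {i | c * sig i ∈ H} h
      exact ⟨m, fun _ => ⟨hm1, fun j hj hjH => hm2 j hjH hj⟩⟩
    · exact ⟨0, fun h' => absurd h' h⟩
  choose m hm using hm
  set P := {p : Gam × Fin 100 | p.1 * sig p.2 ∈ H ∧ ∃ j < p.2, p.1 * sig j ∈ H} with hP
  set k : Gam × Fin 100 → Fin 100 := fun p => if p.2 = b p.1 then m p.1 else p.2 with hk
  have hmP : ∀ p ∈ P, m p.1 ≠ p.2 := by
    rintro ⟨c, i⟩ ⟨h1, j, hj, h2⟩ h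
    exact (hm c ⟨i, h1⟩).2 j (by simpa [show m c = i from h] using hj) h2
  have hkb : ∀ p ∈ P, b p.1 ≠ k p := by
    intro p hp
    simp only [hk]
    split_ifs with h
    · rw [← h]; exact (hmP p hp).symm
    · exact fun h' => h h'.symm
  have hkH : ∀ p ∈ P, p.1 * sig (k p) ∈ H := by
    intro p hp
    simp only [hk]
    split_ifs with h
    · exact (hm p.1 ⟨_, hp.1⟩).1
    · exact hp.1
  have hinj : InjOn (fun p : Gam × Fin 100 => p.1 * sig (k p)) P := by
    intro p hp p' hp' h
    obtain ⟨h1, h2⟩ := hpar _ _ _ _ h (hkb p hp) (hkb p' hp')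
    refine Prod.ext h1 ?_
    simp only [hk] at h2
    split_ifs at h2 with h3 h4 h4
    · rw [h3, h4, h1]
    · exact absurd (h1 ▸ h2) (hmP p' hp')
    · exact absurd (h1 ▸ h2.symm) (hmP p hp)
    · exact h2
  -- an element of `H` that is missed
  have hmiss : ∃ z ∈ H, ∀ p ∈ P, p.1 * sig (k p) ≠ z := by
    by_cases h : ∃ z ∈ H, ∀ c i, c * sig i = z → b c = i
    · obtain ⟨z, hz, h⟩ := h
      exact ⟨z, hz, fun p hp h' => hkb p hp (h _ _ h')⟩
    · push Not at h
      have hne : {c : Gam | ∃ i, c * sig i ∈ H ∧ b c ≠ i}.Nonempty := by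
        obtain ⟨z, hz⟩ := hH
        obtain ⟨c, i, h1, h2⟩ := h z hz
        exact ⟨c, i, h1 ▸ hz, h2⟩
      obtain ⟨c, ⟨i, hi, hbi⟩, hmin⟩ := (InvImage.wf ρ (wellFounded_lt (α := ℕ))).has_min _ hne
      have hnot : c * sig (b c) ∉ H := by
        intro hc
        obtain ⟨c', j, h1, h2⟩ := h _ hc
        exact hmin c' ⟨j, h1 ▸ hc, h2⟩ (hrank c c' j h1.symm h2)
      have hmc := (hm c ⟨i, hi⟩).1
      refine ⟨c * sig (m c), hmc, fun p hp h' => ?_⟩
      have hbm : b c ≠ m c := fun e => hnot (e ▸ hmc)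
      obtain ⟨h1, h2⟩ := hpar _ _ _ _ h' (hkb p hp) hbm
      simp only [hk] at h2
      split_ifs at h2 with h3
      · apply hnot
        rw [← h1, ← h3]; exact hp.1
      · exact hmP p hp (h1 ▸ h2.symm)
  obtain ⟨z, hz, hz'⟩ := hmiss
  rw [← Set.encard_sdiff_singleton_add_one hz]
  gcongr
  rw [← hinj.encard_image]
  refine Set.encard_le_encard ?_
  rintro _ ⟨p, hp, rfl⟩
  exact ⟨hkH p hp, hz' p hp⟩

end Crest.Agent.R191
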