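import Crest.Agent.R191.Defs

/-! Walsh functions on `I → Bool` and an elementary operator bound (helper72). -/

set_option autoImplicit false

open MeasureTheory Set
open scoped ENNReal symmDiff

namespace Crest.Agent.R191

section OpBound
variable {Z ι : Type*}

theorem wsum_comp_le (e : Z ≃ Z) (g : Z → ℝ) (hg : ∀ z, 0 ≤ g z) (s t : Finset Z)
    (hs : ∀ z, z ∉ s → g z = 0) : ∑ z ∈ t, g (e z) ≤ ∑ c ∈ s, g c := by
  classical
  have h1 : ∑ z ∈ t, g (e z) = ∑ c ∈ t.map e.toEmbedding, g c := by
    rw [Finset.sum_map]; rfl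
  rw [h1]
  have h2 : ∑ c ∈ t.map e.toEmbedding, g c = ∑ c ∈ (t.map e.toEmbedding) ∩ s, g c := by
    symm
    apply Finset.sum_subset Finset.inter_subset_left
    intro x hx hx'
    apply hs
    intro hxs
    exact hx' (Finset.mem_inter.2 ⟨hx, hxs⟩)
  rw [h2]
  exact Finset.sum_le_sum_of_subset_of_nonneg Finset.inter_subset_right fun z _ _ => hg z

theorem wop_bound [Fintype ι] (e : ι → Z ≃ Z) (b : Z → ι) (a : Z → ℝ) (s t : Finset Z)
    (hs : ∀ z, z ∉ s → a z = 0)
    (hu : ∀ z ∈ t, ∀ i j, b (e i z) ≠ i → b (e j z) ≠ j → i = j) :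
    ∑ z ∈ t, (∑ i, a (e i z)) ^ 2 ≤ 4 * (Fintype.card ι : ℝ) * ∑ z ∈ s, a z ^ 2 := by
  classical
  have hpt : ∀ z ∈ t, (∑ i, a (e i z)) ^ 2 ≤
      2 * (Fintype.card ι : ℝ) * ∑ i, (if b (e i z) = i then a (e i z) ^ 2 else 0) +
        2 * ∑ i, a (e i z) ^ 2 := by
    intro z hz
    have hsplit : ∑ i, a (e i z) = ∑ i, (if b (e i z) = i then a (e i z) else 0) +
        ∑ i ∈ Finset.univ.filter (fun i => b (e i z) ≠ i), a (e i z) := by
      rw [Finset.sum_filter, ← Finset.sum_add_distrib]
      refine Finset.sum_congr rfl fun i _ => ?_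
      by_cases h : b (e i z) = i <;> simp [h]
    have h1 : (∑ i, (if b (e i z) = i then a (e i z) else 0)) ^ 2 ≤
        (Fintype.card ι : ℝ) * ∑ i, (if b (e i z) = i then a (e i z) ^ 2 else 0) := by
      have := sq_sum_le_card_mul_sum_sq (s := (Finset.univ : Finset ι))
        (f := fun i => if b (e i z) = i then a (e i z) else 0)
      simpa [Finset.card_univ, ite_pow] using this
    have h2 : (∑ i ∈ Finset.univ.filter (fun i => b (e i z) ≠ i), a (e i z)) ^ 2 ≤
        ∑ i, a (e i z) ^ 2 := by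
      have hc : (Finset.univ.filter (fun i => b (e i z) ≠ i)).card ≤ 1 := by
        rw [Finset.card_le_one]
        intro i hi j hj
        exact hu z hz i j (Finset.mem_filter.1 hi).2 (Finset.mem_filter.1 hj).2
      have h3 := sq_sum_le_card_mul_sum_sq (s := Finset.univ.filter (fun i => b (e i z) ≠ i))
        (f := fun i => a (e i z))
      have h4 : ∑ i ∈ Finset.univ.filter (fun i => b (e i z) ≠ i), a (e i z) ^ 2 ≤
          ∑ i, a (e i z) ^ 2 :=
        Finset.sum_le_sum_of_subset_of_nonneg (Finset.filter_subset _ _) fun i _ _ => sq_nonneg _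
      have h5 : (0 : ℝ) ≤ ∑ i ∈ Finset.univ.filter (fun i => b (e i z) ≠ i), a (e i z) ^ 2 :=
        Finset.sum_nonneg fun i _ => sq_nonneg _
      have h6 : ((Finset.univ.filter (fun i => b (e i z) ≠ i)).card : ℝ) ≤ 1 := by
        exact_mod_cast hc
      nlinarith
    rw [hsplit]
    nlinarith [sq_nonneg (∑ i, (if b (e i z) = i then a (e i z) else 0) -
      ∑ i ∈ Finset.univ.filter (fun i => b (e i z) ≠ i), a (e i z))]
  have hA : ∑ z ∈ t, ∑ i, (if b (e i z) = i then a (e i z) ^ 2 else 0) ≤ ∑ z ∈ s, a z ^ 2 := by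
    rw [Finset.sum_comm]
    calc ∑ i, ∑ z ∈ t, (if b (e i z) = i then a (e i z) ^ 2 else 0)
        ≤ ∑ i, ∑ c ∈ s, (if b c = i then a c ^ 2 else 0) := by
          refine Finset.sum_le_sum fun i _ => ?_
          refine wsum_comp_le (e i) (fun c => if b c = i then a c ^ 2 else 0) ?_ s t ?_
          · intro c; split_ifs <;> positivity
          · intro c hc; simp [hs c hc]
      _ = ∑ c ∈ s, a c ^ 2 := by
          rw [Finset.sum_comm]
          refine Finset.sum_congr rfl fun c _ => ?_
          simp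
  have hB : ∑ z ∈ t, ∑ i, a (e i z) ^ 2 ≤ (Fintype.card ι : ℝ) * ∑ z ∈ s, a z ^ 2 := by
    rw [Finset.sum_comm]
    calc ∑ i, ∑ z ∈ t, a (e i z) ^ 2 ≤ ∑ _i : ι, ∑ c ∈ s, a c ^ 2 := by
          refine Finset.sum_le_sum fun i _ => ?_
          refine wsum_comp_le (e i) (fun c => a c ^ 2) (fun c => sq_nonneg _) s t ?_
          intro c hc; simp [hs c hc]
      _ = _ := by simp
  calc ∑ z ∈ t, (∑ i, a (e i z)) ^ 2
      ≤ ∑ z ∈ t, (2 * (Fintype.card ι : ℝ) * ∑ i, (if b (e i z) = i then a (e i z) ^ 2 else 0) +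
        2 * ∑ i, a (e i z) ^ 2) := Finset.sum_le_sum hpt
    _ = 2 * (Fintype.card ι : ℝ) *
          ∑ z ∈ t, ∑ i, (if b (e i z) = i then a (e i z) ^ 2 else 0) +
        2 * ∑ z ∈ t, ∑ i, a (e i z) ^ 2 := by
          rw [Finset.sum_add_distrib, ← Finset.mul_sum, ← Finset.mul_sum]
    _ ≤ _ := by
          have hn : (0 : ℝ) ≤ (Fintype.card ι : ℝ) := Nat.cast_nonneg _
          nlinarith [mul_le_mul_of_nonneg_left hA hn]

end OpBound

section Walsh
variable {I : Type*}

/-- the sign of a bit -/
def wsg (b : Bool) : ℝ := if b then 1 else -1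

/-- the Walsh function of a finite set of coordinates -/
def wchi (S : Finset I) (y : I → Bool) : ℝ := ∏ p ∈ S, wsg (y p)

theorem wsg_mul_self (b : Bool) : wsg b * wsg b = 1 := by cases b <;> simp [wsg]

theorem abs_wsg (b : Bool) : |wsg b| = 1 := by cases b <;> simp [wsg]

theorem wchi_empty (y : I → Bool) : wchi ∅ y = 1 := by simp [wchi]

theorem abs_wchi (S : Finset I) (y : I → Bool) : |wchi S y| = 1 := by
  simp [wchi, Finset.abs_prod, abs_wsg]

theorem wchi_mul [DecidableEq I] (S T : Finset I) (y : I → Bool) :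
    wchi S y * wchi T y = wchi (S ∆ T) y := by
  unfold wchi
  have h1 : ∏ p ∈ S, wsg (y p) = (∏ p ∈ S \ T, wsg (y p)) * ∏ p ∈ S ∩ T, wsg (y p) := by
    rw [← Finset.prod_union (Finset.disjoint_sdiff_inter S T), Finset.sdiff_union_inter]
  have h2 : ∏ p ∈ T, wsg (y p) = (∏ p ∈ T \ S, wsg (y p)) * ∏ p ∈ S ∩ T, wsg (y p) := by
    rw [Finset.inter_comm, ← Finset.prod_union (Finset.disjoint_sdiff_inter T S),
      Finset.sdiff_union_inter]
  have h3 : (∏ p ∈ S ∩ T, wsg (y p)) * ∏ p ∈ S ∩ T, wsg (y p) = 1 := by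
    rw [← Finset.prod_mul_distrib]; simp [wsg_mul_self]
  have h4 : ∏ p ∈ S ∆ T, wsg (y p) = (∏ p ∈ S \ T, wsg (y p)) * ∏ p ∈ T \ S, wsg (y p) := by
    rw [symmDiff_def, Finset.sup_eq_union, Finset.prod_union disjoint_sdiff_sdiff]
  rw [h1, h2, h4]
  linear_combination ((∏ p ∈ S \ T, wsg (y p)) * ∏ p ∈ T \ S, wsg (y p)) * h3

theorem measurable_wchi (S : Finset I) : Measurable (wchi S) := by
  unfold wchi
  refine Finset.measurable_prod _ fun p _ => ?_
  exact (measurable_of_finite wsg).comp (measurable_pi_apply p)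

theorem integrable_wchi (μ : Measure (I → Bool)) [IsFiniteMeasure μ] (S : Finset I) :
    Integrable (wchi S) μ :=
  Integrable.of_bound (measurable_wchi S).aestronglyMeasurable 1
    (ae_of_all _ fun y => by rw [Real.norm_eq_abs, abs_wchi])

theorem integral_wsg : ∫ b, wsg b ∂coin = 0 := by
  have h : ∀ b : Bool, coin {b} = 1 / 2 := by
    intro b
    rw [coin, ProbabilityTheory.uniformOn_univ]
    simp
  rw [integral_fintype (Integrable.of_finite)]
  simp [wsg, Measure.real, h]

/-- the product of fair coins -/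
noncomputable abbrev coins (I : Type*) : Measure (I → Bool) := Measure.infinitePi fun _ : I => coin

theorem integral_wchi (S : Finset I) (hS : S.Nonempty) : ∫ y, wchi S y ∂coins I = 0 := by
  classical
  have h := integral_restrict_infinitePi (fun _ : I => coin) (s := S)
    (f := fun x : (i : S) → Bool => ∏ i : S, wsg (x i)) (measurable_of_finite _).aestronglyMeasurable
  have h2 : ∀ y : I → Bool, wchi S y = ∏ i : S, wsg (S.restrict y i) := by
    intro y
    unfold wchi
    rw [← Finset.prod_coe_sort]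
    rfl
  simp_rw [h2]
  rw [h, integral_fintype_prod_eq_prod (fun _ : S => wsg)]
  obtain ⟨p, hp⟩ := hS
  exact Finset.prod_eq_zero (Finset.mem_univ ⟨p, hp⟩) integral_wsg

theorem integral_wchi_mul [DecidableEq I] (S T : Finset I) :
    ∫ y, wchi S y * wchi T y ∂coins I = if S = T then 1 else 0 := by
  simp_rw [wchi_mul]
  split_ifs with h
  · subst h; simp [wchi_empty]
  · apply integral_wchi
    rw [Finset.nonempty_iff_ne_empty]
    intro h'
    exact h (symmDiff_eq_bot.1 h')

theorem integrable_wsum (μ : Measure (I → Bool)) [IsFiniteMeasure μ] (s : Finset (Finset I))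
    (a : Finset I → ℝ) : Integrable (fun y => ∑ S ∈ s, a S * wchi S y) μ :=
  integrable_finsetSum _ fun S _ => (integrable_wchi μ S).const_mul _

theorem integrable_wsum_sq (μ : Measure (I → Bool)) [IsFiniteMeasure μ] (s : Finset (Finset I))
    (a : Finset I → ℝ) : Integrable (fun y => (∑ S ∈ s, a S * wchi S y) ^ 2) μ := by
  classical
  have : ∀ y, (∑ S ∈ s, a S * wchi S y) ^ 2 = ∑ S ∈ s, ∑ T ∈ s, a S * a T * wchi (S ∆ T) y := by
    intro y
    rw [sq, Finset.sum_mul_sum]
    refine Finset.sum_congr rfl fun S _ => Finset.sum_congr rfl fun T _ => ?_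
    rw [← wchi_mul]; ring
  simp_rw [this]
  exact integrable_finsetSum _ fun S _ => integrable_finsetSum _ fun T _ =>
    (integrable_wchi μ _).const_mul _

/-- Parseval's identity for finite Walsh sums -/
theorem integral_wsum_sq (s : Finset (Finset I)) (a : Finset I → ℝ) :
    ∫ y, (∑ S ∈ s, a S * wchi S y) ^ 2 ∂coins I = ∑ S ∈ s, a S ^ 2 := by
  classical
  have : ∀ y, (∑ S ∈ s, a S * wchi S y) ^ 2 =
      ∑ S ∈ s, ∑ T ∈ s, a S * a T * (wchi S y * wchi T y) := by
    intro y
    rw [sq, Finset.sum_mul_sum]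
    refine Finset.sum_congr rfl fun S _ => Finset.sum_congr rfl fun T _ => ?_
    ring
  simp_rw [this]
  have hint : ∀ S T : Finset I, Integrable (fun y => a S * a T * (wchi S y * wchi T y))
      (coins I) := by
    intro S T
    simp_rw [wchi_mul]
    exact (integrable_wchi _ _).const_mul _
  rw [integral_finsetSum _ fun S _ => integrable_finsetSum _ fun T _ => hint S T]
  refine Finset.sum_congr rfl fun S hS => ?_
  rw [integral_finsetSum _ fun T _ => hint S T]
  simp_rw [integral_const_mul, integral_wchi_mul]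
  simp [hS, sq]

theorem integral_wsum (s : Finset (Finset I)) (a : Finset I → ℝ) (hs : ∀ S, S ∉ s → a S = 0) :
    ∫ y, (∑ S ∈ s, a S * wchi S y) ∂coins I = a ∅ := by
  classical
  rw [integral_finsetSum _ fun S _ => (integrable_wchi _ S).const_mul _]
  simp_rw [integral_const_mul]
  rw [Finset.sum_eq_single ∅]
  · simp [wchi_empty]
  · intro S _ hS
    rw [integral_wchi S (Finset.nonempty_iff_ne_empty.2 hS), mul_zero]
  · intro h; simp [hs _ h]

/-- the span of the Walsh functions -/
def wspan (I : Type*) : Submodule ℝ ((I → Bool) → ℝ) := Submodule.span ℝ (range wchi)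

theorem wspan_mul {f g : (I → Bool) → ℝ} (hf : f ∈ wspan I) (hg : g ∈ wspan I) :
    f * g ∈ wspan I := by
  classical
  unfold wspan at *
  induction hf using Submodule.span_induction with
  | mem x hx =>
    induction hg using Submodule.span_induction with
    | mem y hy =>
      obtain ⟨S, rfl⟩ := hx
      obtain ⟨T, rfl⟩ := hy
      apply Submodule.subset_span
      exact ⟨S ∆ T, by funext y; simp [wchi_mul]⟩
    | zero => simp
    | add y z _ _ hy hz => rw [mul_add]; exact Submodule.add_mem _ hy hz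
    | smul c y _ hy => rw [mul_smul_comm]; exact Submodule.smul_mem _ c hy
  | zero => simp
  | add y z _ _ hy hz => rw [add_mul]; exact Submodule.add_mem _ hy hz
  | smul c y _ hy => rw [smul_mul_assoc]; exact Submodule.smul_mem _ c hy

theorem one_mem_wspan : (1 : (I → Bool) → ℝ) ∈ wspan I :=
  Submodule.subset_span ⟨∅, by funext y; simp [wchi_empty]⟩

theorem measurable_of_mem_wspan {f : (I → Bool) → ℝ} (hf : f ∈ wspan I) : Measurable f := by
  unfold wspan at hf
  induction hf using Submodule.span_induction with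
  | mem x hx => obtain ⟨S, rfl⟩ := hx; exact measurable_wchi S
  | zero => exact measurable_zero
  | add y z _ _ hy hz => exact hy.add hz
  | smul c y _ hy => exact hy.const_smul c

/-- sets whose indicator is a finite Walsh sum -/
def wsets (I : Type*) : Set (Set (I → Bool)) := {B | B.indicator (1 : (I → Bool) → ℝ) ∈ wspan I}

theorem isSetRing_wsets : IsSetRing (wsets I) where
  empty_mem := by
    change _ ∈ wspan I
    rw [indicator_empty]
    exact Submodule.zero_mem _
  union_mem := by
    intro s t hs ht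
    have : (s ∪ t).indicator (1 : (I → Bool) → ℝ) =
        s.indicator 1 + t.indicator 1 - s.indicator 1 * t.indicator 1 := by
      funext y
      by_cases h1 : y ∈ s <;> by_cases h2 : y ∈ t <;> simp [h1, h2]
    change _ ∈ wspan I
    rw [this]
    exact Submodule.sub_mem _ (Submodule.add_mem _ hs ht) (wspan_mul hs ht)
  sdiff_mem := by
    intro s t hs ht
    have : (s \ t).indicator (1 : (I → Bool) → ℝ) =
        s.indicator 1 - s.indicator 1 * t.indicator 1 := by
      funext y
      by_cases h1 : y ∈ s <;> by_cases h2 : y ∈ t <;> simp [h1, h2]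
    change _ ∈ wspan I
    rw [this]
    exact Submodule.sub_mem _ hs (wspan_mul hs ht)

theorem measurableSet_of_mem_wsets {B : Set (I → Bool)} (hB : B ∈ wsets I) : MeasurableSet B := by
  have h := measurable_of_mem_wspan hB
  have : B = (B.indicator (1 : (I → Bool) → ℝ)) ⁻¹' {1} := by
    ext y; by_cases h : y ∈ B <;> simp [h]
  rw [this]
  exact h (measurableSet_singleton 1)

theorem univ_mem_wsets : (univ : Set (I → Bool)) ∈ wsets I := by
  simpa [wsets] using one_mem_wspan

theorem coord_mem_wsets (p : I) (T : Set Bool) : (fun y : I → Bool => y p) ⁻¹' T ∈ wsets I := by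
  classical
  have hw : wchi {p} ∈ wspan I := Submodule.subset_span ⟨{p}, rfl⟩
  have : ((fun y : I → Bool => y p) ⁻¹' T).indicator (1 : (I → Bool) → ℝ) =
      (((if true ∈ T then 1 else 0) + (if false ∈ T then 1 else 0)) / 2 : ℝ) • (1 : (I → Bool) → ℝ)
      + (((if true ∈ T then 1 else 0) - (if false ∈ T then 1 else 0)) / 2 : ℝ) • wchi {p} := by
    funext y
    simp only [wchi, Finset.prod_singleton, indicator, mem_preimage, Pi.one_apply, Pi.add_apply,
      Pi.smul_apply, smul_eq_mul]
    cases hy : y p <;> simp only [wsg] <;> split_ifs <;> simp_all <;> norm_num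
  change _ ∈ wspan I
  rw [this]
  exact Submodule.add_mem _ (Submodule.smul_mem _ _ one_mem_wspan) (Submodule.smul_mem _ _ hw)

theorem generateFrom_wsets :
    (MeasurableSpace.pi : MeasurableSpace (I → Bool)) = MeasurableSpace.generateFrom (wsets I) := by
  apply le_antisymm
  · refine iSup_le fun p => ?_
    rintro _ ⟨T, -, rfl⟩
    exact MeasurableSpace.measurableSet_generateFrom (coord_mem_wsets p T)
  · exact MeasurableSpace.generateFrom_le fun B hB => measurableSet_of_mem_wsets hB

theorem exists_wsets_approx (μ : Measure (I → Bool)) [IsFiniteMeasure μ] {A : Set (I → Bool)}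
    (hA : MeasurableSet A) {ε : ℝ≥0∞} (hε : 0 < ε) : ∃ B ∈ wsets I, μ (B ∆ A) < ε :=
  exists_measure_symmDiff_lt_of_generateFrom_isSetRing isSetRing_wsets
    ⟨{univ}, countable_singleton _, by simpa using univ_mem_wsets, by simp⟩
    generateFrom_wsets hA hε

theorem exists_wsum_of_mem_wspan {f : (I → Bool) → ℝ} (hf : f ∈ wspan I) :
    ∃ (s : Finset (Finset I)) (a : Finset I → ℝ), (∀ S, S ∉ s → a S = 0) ∧
      ∀ y, f y = ∑ S ∈ s, a S * wchi S y := by
  obtain ⟨c, hc⟩ := Finsupp.mem_span_range_iff_exists_finsupp.1 hf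
  refine ⟨c.support, c, fun S hS => Finsupp.notMem_support_iff.1 hS, fun y => ?_⟩
  rw [← hc, Finsupp.sum, Finset.sum_apply]
  rfl

end Walsh

end Crest.Agent.R191
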