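import Crest.Agent.R191.BernBasic
import Crest.Agent.R191.Tree
import Crest.Agent.R191.Walsh

/-! Small sets of the Bernoulli shift expand. -/

set_option autoImplicit false

open MeasureTheory Set Crest.Dynamics
open scoped ENNReal

namespace Crest.Agent.R191

/-- left translation of the coordinates -/
def xshE (g : F) : (Gam × ℕ) ≃ (Gam × ℕ) :=
  Equiv.prodCongr (Equiv.mulLeft (SemidirectProduct.inr g : Gam)) (Equiv.refl ℕ)

theorem xshE_apply (g : F) (p : Gam × ℕ) :
    xshE g p = ((SemidirectProduct.inr g : Gam) * p.1, p.2) := rfl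

/-- left translation of finite sets of coordinates -/
def xshS (g : F) : Finset (Gam × ℕ) ≃ Finset (Gam × ℕ) := (xshE g).finsetCongr

theorem xshS_apply (g : F) (S : Finset (Gam × ℕ)) : xshS g S = S.map (xshE g).toEmbedding := rfl

theorem xshS_one (S : Finset (Gam × ℕ)) : xshS 1 S = S := by
  have : (xshE 1).toEmbedding = Function.Embedding.refl _ := by
    ext p <;> simp [xshE_apply]
  rw [xshS_apply, this, Finset.map_refl]

theorem xshS_mul (g h : F) (S : Finset (Gam × ℕ)) : xshS (g * h) S = xshS g (xshS h S) := by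
  rw [xshS_apply, xshS_apply, xshS_apply, Finset.map_map]
  congr 1
  ext p <;> simp [xshE_apply, mul_assoc]

theorem xshS_empty (g : F) : xshS g ∅ = ∅ := by simp [xshS_apply]

/-- non-empty finite sets of coordinates -/
def XNe : Type := {S : Finset (Gam × ℕ) // S.Nonempty}

instance : MulAction F XNe where
  smul g S := ⟨xshS g S.1, by rw [xshS_apply]; exact S.2.map⟩
  one_smul S := Subtype.ext (xshS_one S.1)
  mul_smul g h S := Subtype.ext (xshS_mul g h S.1)

theorem XNe.smul_val (g : F) (S : XNe) : (g • S).1 = xshS g S.1 := rfl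

theorem XNe.free (g : F) (S : XNe) (h : g • S = S) : g = 1 := by
  have h' : xshS g S.1 = S.1 := congrArg Subtype.val h
  refine eq_one_of_mapsTo_finite g (Prod.fst '' (S.1 : Set (Gam × ℕ)))
    (S.1.finite_toSet.image _) (Set.Nonempty.image _ (by exact_mod_cast S.2)) ?_
  rintro _ ⟨p, hp, rfl⟩
  refine ⟨xshE g p, ?_, rfl⟩
  have : xshE g p ∈ xshS g S.1 := by
    rw [xshS_apply]; exact Finset.mem_map_of_mem _ hp
  rw [h'] at this
  exact this

theorem exists_xlabel : ∃ b : Finset (Gam × ℕ) → Fin 100, ∀ z : Finset (Gam × ℕ), z.Nonempty →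
    ∀ i j, b (xshS (sigF i) z) ≠ i → b (xshS (sigF j) z) ≠ j → i = j := by
  classical
  obtain ⟨R⟩ := exists_rooting XNe XNe.free
  refine ⟨fun S => if h : S.Nonempty then R.b ⟨S, h⟩ else 0, fun z hz i j hi hj => ?_⟩
  have hne : ∀ k, (xshS (sigF k) z).Nonempty := fun k => by rw [xshS_apply]; exact hz.map
  simp only [dif_pos (hne i)] at hi
  simp only [dif_pos (hne j)] at hj
  exact R.par_unique ⟨z, hz⟩ i j hi hj

theorem wchi_xshS (g : F) (T : Finset (Gam × ℕ)) (y : Bern) :
    wchi (xshS g T) ((SemidirectProduct.inr g : Gam) • y : Bern) = wchi T y := by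
  unfold wchi
  rw [xshS_apply, Finset.prod_map]
  refine Finset.prod_congr rfl fun p _ => ?_
  congr 1
  change ((SemidirectProduct.inr g : Gam) • y : Bern) (xshE g p) = y p
  rw [Bern.smul_apply, xshE_apply]
  simp

/-- The second moment bound. -/
theorem xsecond_moment (s : Finset (Finset (Gam × ℕ))) (a : Finset (Gam × ℕ) → ℝ)
    (hs : ∀ S, S ∉ s → a S = 0) : ∃ (t : Finset (Finset (Gam × ℕ))) (c : Finset (Gam × ℕ) → ℝ),
      (∀ y : Bern, ∑ i, ∑ S ∈ s, a S * wchi S (sig i • y : Bern) = ∑ T ∈ t, c T * wchi T y) ∧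
      (∀ T, T ∉ t → c T = 0) ∧ c ∅ = 100 * a ∅ ∧
      ∑ T ∈ t, c T ^ 2 ≤ (100 * a ∅) ^ 2 + 400 * ∑ S ∈ s, a S ^ 2 := by
  classical
  obtain ⟨b, hb⟩ := exists_xlabel
  let t : Finset (Finset (Gam × ℕ)) :=
    Finset.univ.biUnion fun i : Fin 100 => s.map (xshS (sigF i)).symm.toEmbedding
  have ht : ∀ i T, xshS (sigF i) T ∈ s → T ∈ t := by
    intro i T h
    refine Finset.mem_biUnion.2 ⟨i, Finset.mem_univ _, Finset.mem_map.2 ⟨_, h, ?_⟩⟩
    simp
  have hc0 : ∑ i : Fin 100, a (xshS (sigF i) ∅) = 100 * a ∅ := by simp [xshS_empty]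
  refine ⟨t, fun T => ∑ i, a (xshS (sigF i) T), fun y => ?_, fun T hT => ?_, hc0, ?_⟩
  · simp_rw [Finset.sum_mul]
    rw [Finset.sum_comm (s := t)]
    refine Finset.sum_congr rfl fun i _ => ?_
    have h1 : ∑ T ∈ t, a (xshS (sigF i) T) * wchi T y =
        ∑ S ∈ t.map (xshS (sigF i)).toEmbedding, a S * wchi S (sig i • y : Bern) := by
      rw [Finset.sum_map]
      refine Finset.sum_congr rfl fun T _ => ?_
      change _ = a (xshS (sigF i) T) * wchi (xshS (sigF i) T) (sig i • y : Bern)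
      rw [sig, wchi_xshS]
    rw [h1]
    apply Finset.sum_subset
    · intro S hS
      refine Finset.mem_map.2 ⟨(xshS (sigF i)).symm S, ht i _ (by simpa using hS), by simp⟩
    · intro S _ hS
      rw [hs S hS, zero_mul]
  · refine Finset.sum_eq_zero fun i _ => hs _ fun h => hT (ht i T h)
  · have h1 := wop_bound (fun i => xshS (sigF i)) b a s (t.erase ∅) hs (fun z hz =>
      hb z (Finset.nonempty_iff_ne_empty.2 (Finset.ne_of_mem_erase hz)))
    have h2 : ∑ T ∈ t, (∑ i, a (xshS (sigF i) T)) ^ 2 ≤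
        (100 * a ∅) ^ 2 + ∑ T ∈ t.erase ∅, (∑ i, a (xshS (sigF i) T)) ^ 2 := by
      by_cases h : ∅ ∈ t
      · rw [← Finset.add_sum_erase _ _ h, hc0]
      · rw [Finset.erase_eq_of_notMem h]
        exact le_add_of_nonneg_left (sq_nonneg _)
    simp only [Fintype.card_fin, Nat.cast_ofNat] at h1
    linarith

theorem measurableSet_xnb {A : Set Bern} (hA : MeasurableSet A) :
    MeasurableSet {y : Bern | ∃ i, sig i • y ∈ A} := by
  have : {y : Bern | ∃ i, sig i • y ∈ A} = ⋃ i, (fun y : Bern => sig i • y) ⁻¹' A := by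
    ext y; simp
  rw [this]
  exact MeasurableSet.iUnion fun i => (bern_free.1 (sig i)).measurable hA

/-- expansion for finite Walsh sets -/
theorem xexpand_wsets {B : Set Bern} (hBm : MeasurableSet B) (s : Finset (Finset (Gam × ℕ)))
    (a : Finset (Gam × ℕ) → ℝ) (hs : ∀ S, S ∉ s → a S = 0)
    (hf : ∀ y : Bern, B.indicator (1 : Bern → ℝ) y = ∑ S ∈ s, a S * wchi S y)
    (hq : bernM.real B ≤ 1 / 50) : 14 * bernM.real B ≤ bernM.real {y | ∃ i, sig i • y ∈ B} := by
  classical
  obtain ⟨t, c, hsum, ht, hc0, hc⟩ := xsecond_moment s a hs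
  have hNm := measurableSet_xnb hBm
  have g0 : ∫ y : Bern, ∑ S ∈ s, a S * wchi S y ∂bernM = a ∅ := integral_wsum s a hs
  have g1 : ∫ y : Bern, (∑ S ∈ s, a S * wchi S y) ^ 2 ∂bernM = ∑ S ∈ s, a S ^ 2 :=
    integral_wsum_sq s a
  have h2 : ∫ y : Bern, ∑ S ∈ t, c S * wchi S y ∂bernM = c ∅ := integral_wsum t c ht
  have h3 : ∫ y : Bern, (∑ S ∈ t, c S * wchi S y) ^ 2 ∂bernM = ∑ S ∈ t, c S ^ 2 :=
    integral_wsum_sq t c
  have i2 : Integrable (fun y : Bern => ∑ S ∈ t, c S * wchi S y) bernM :=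
    integrable_wsum (coins (Gam × ℕ)) t c
  have i3 : Integrable (fun y : Bern => (∑ S ∈ t, c S * wchi S y) ^ 2) bernM :=
    integrable_wsum_sq (coins (Gam × ℕ)) t c
  have h0 : a ∅ = bernM.real B := by
    rw [← g0, ← integral_indicator_one hBm]
    exact integral_congr_ae (ae_of_all _ fun y => (hf y).symm)
  have h1 : ∑ S ∈ s, a S ^ 2 = bernM.real B := by
    rw [← g1, ← integral_indicator_one hBm]
    refine integral_congr_ae (ae_of_all _ fun y => ?_)
    dsimp only
    rw [← hf y]
    by_cases h : y ∈ B <;> simp [h]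
  have hpt : ∀ y : Bern, 12 * ∑ T ∈ t, c T * wchi T y ≤
      36 * {y : Bern | ∃ i, sig i • y ∈ B}.indicator 1 y + (∑ T ∈ t, c T * wchi T y) ^ 2 := by
    intro y
    by_cases h : y ∈ {y : Bern | ∃ i, sig i • y ∈ B}
    · rw [indicator_of_mem h, Pi.one_apply]
      nlinarith [sq_nonneg (∑ T ∈ t, c T * wchi T y - 6)]
    · have : ∑ T ∈ t, c T * wchi T y = 0 := by
        rw [← hsum y]
        refine Finset.sum_eq_zero fun i _ => ?_
        rw [← hf]
        exact indicator_of_notMem (fun h' => h ⟨i, h'⟩) _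
      rw [this, indicator_of_notMem h]
      norm_num
  have hI : Integrable (fun y : Bern =>
      {y : Bern | ∃ i, sig i • y ∈ B}.indicator (1 : Bern → ℝ) y) bernM :=
    (integrable_const (1 : ℝ)).indicator hNm
  have h4 := integral_mono (i2.const_mul 12) ((hI.const_mul 36).add i3) hpt
  simp only [Pi.add_apply] at h4
  rw [integral_add (hI.const_mul 36) i3,
    integral_const_mul, integral_const_mul, h2, h3, integral_indicator_one hNm, hc0] at h4
  rw [h1, h0] at hc
  rw [h0] at h4
  have hq0 : 0 ≤ bernM.real B := measureReal_nonneg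
  nlinarith

theorem xapprox {A : Set Bern} (hA : MeasurableSet A) {ε : ℝ} (hε : 0 < ε) :
    ∃ B : Set Bern, MeasurableSet B ∧ bernM.real (symmDiff B A) ≤ ε ∧
      (bernM.real B ≤ 1 / 50 → 14 * bernM.real B ≤ bernM.real {y | ∃ i, sig i • y ∈ B}) := by
  obtain ⟨B, hB, hBA⟩ := exists_wsets_approx (I := Gam × ℕ) (coins (Gam × ℕ)) (A := A) hA
    (ENNReal.ofReal_pos.2 hε)
  obtain ⟨s, a, hs, hf⟩ := exists_wsum_of_mem_wspan hB
  exact ⟨B, measurableSet_of_mem_wsets hB, ENNReal.toReal_le_of_le_ofReal hε.le hBA.le,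
    xexpand_wsets (B := B) (measurableSet_of_mem_wsets hB) s a hs hf⟩

theorem bern_expands : Expands bernM := by
  intro A hA hp
  have hp' : bernM.real A ≤ 1 / 100 := by
    have := ENNReal.toReal_mono (by norm_num) hp
    simpa [Measure.real] using this
  have key : 14 * bernM.real A ≤ bernM.real {y | ∃ i, sig i • y ∈ A} := by
    refine le_of_forall_pos_le_add fun δ hδ => ?_
    obtain ⟨ε, hε, hε1, hε2⟩ : ∃ ε : ℝ, 0 < ε ∧ ε ≤ 1 / 100 ∧ 114 * ε ≤ δ :=
      ⟨min (1 / 100) (δ / 114), by positivity, min_le_left _ _, by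
        have := min_le_right (1 / 100 : ℝ) (δ / 114); linarith⟩
    obtain ⟨B, hBm, hBA', hB⟩ := xapprox hA hε
    have hD : MeasurableSet (symmDiff B A) := hBm.symmDiff hA
    have h1 : bernM.real B ≤ bernM.real A + ε := by
      have : B ⊆ A ∪ symmDiff B A := by
        intro y hy
        by_cases h : y ∈ A
        · exact Or.inl h
        · exact Or.inr (Or.inl ⟨hy, h⟩)
      have h' := (measureReal_mono (μ := bernM) this).trans (measureReal_union_le _ _)
      linarith
    have h2 : bernM.real A ≤ bernM.real B + ε := by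
      have : A ⊆ B ∪ symmDiff B A := by
        intro y hy
        by_cases h : y ∈ B
        · exact Or.inl h
        · exact Or.inr (Or.inr ⟨hy, h⟩)
      have h' := (measureReal_mono (μ := bernM) this).trans (measureReal_union_le _ _)
      linarith
    have h3 : 14 * bernM.real B ≤ bernM.real {y | ∃ i, sig i • y ∈ B} :=
      hB (h1.trans (by linarith))
    have h4 : bernM.real {y | ∃ i, sig i • y ∈ B} ≤
        bernM.real {y | ∃ i, sig i • y ∈ A} + 100 * ε := by
      have : {y | ∃ i, sig i • y ∈ B} ⊆ {y | ∃ i, sig i • y ∈ A} ∪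
          ⋃ i, (fun y : Bern => sig i • y) ⁻¹' (symmDiff B A) := by
        rintro y ⟨i, hy⟩
        by_cases h : sig i • y ∈ A
        · exact Or.inl ⟨i, h⟩
        · exact Or.inr (mem_iUnion.2 ⟨i, Or.inl ⟨hy, h⟩⟩)
      have h' := (measureReal_mono (μ := bernM) this).trans (measureReal_union_le _ _)
      have h'' : bernM.real (⋃ i, (fun y : Bern => sig i • y) ⁻¹' (symmDiff B A)) ≤
          100 * ε := by
        refine (measureReal_iUnion_fintype_le _).trans ?_
        have : ∀ i : Fin 100,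
            bernM.real ((fun y : Bern => sig i • y) ⁻¹' (symmDiff B A)) ≤ ε := by
          intro i
          rw [Measure.real, (bern_free.1 (sig i)).measure_preimage hD.nullMeasurableSet]
          exact hBA'
        calc _ ≤ ∑ _i : Fin 100, ε := Finset.sum_le_sum fun i _ => this i
          _ = 100 * ε := by simp
      linarith
    linarith
  have := ENNReal.ofReal_le_ofReal key
  rwa [ENNReal.ofReal_mul (by norm_num), ofReal_measureReal, ofReal_measureReal,
    ENNReal.ofReal_ofNat] at this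

end Crest.Agent.R191
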