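import Crest.Agent.R191.Meas

/-! A measurable set separating a fifth of a family of pairs of distinct points. -/

set_option autoImplicit false
set_option linter.unusedSectionVars false

open MeasureTheory Set Crest.Dynamics
open scoped ENNReal

namespace Crest.Agent.R191

/-- A quarter of all colourings colour `s` black and `t` white. -/
theorem sep_card_le {T : Type*} [Fintype T] [DecidableEq T] {s t : T} (hst : s ≠ t) :
    Fintype.card (T → Bool) ≤
      4 * (Finset.univ.filter fun R : T → Bool => R s = true ∧ R t = false).card := by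
  have h := Finset.card_le_card_of_injOn (s := (Finset.univ : Finset (T → Bool)))
    (t := (Finset.univ : Finset (Bool × Bool)) ×ˢ
      (Finset.univ.filter fun R : T → Bool => R s = true ∧ R t = false))
    (fun R => ((R s, R t), Function.update (Function.update R s true) t false))
    (fun R _ => by simp [Function.update_of_ne hst])
    (fun R _ R' _ h => by
      simp only [Prod.mk.injEq] at h
      obtain ⟨⟨h1, h2⟩, h3⟩ := h
      funext y
      by_cases hy : y = t
      · rw [hy, h2]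
      by_cases hy' : y = s
      · rw [hy', h1]
      simpa [Function.update_of_ne hy, Function.update_of_ne hy'] using congrFun h3 y)
  simpa using h

theorem separate_fin {Ω : Type*} [MeasurableSpace Ω] (ν : Measure Ω) {T : Type*} [Fintype T]
    [MeasurableSpace T] [MeasurableSingletonClass T] (a b : Ω → T) (ha : Measurable a)
    (hb : Measurable b) :
    ∃ R : T → Bool, ν {ω | a ω ≠ b ω} ≤ 4 * ν {ω | R (a ω) = true ∧ R (b ω) = false} := by
  classical
  obtain ⟨A, hA⟩ : ∃ A : (T → Bool) → Set Ω, ∀ R, A R = {ω | R (a ω) = true ∧ R (b ω) = false} :=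
    ⟨_, fun _ => rfl⟩
  have hAm : ∀ R, MeasurableSet (A R) := fun R => by
    rw [hA]
    exact (ha (MeasurableSet.of_discrete (s := {y | R y = true}))).inter
      (hb (MeasurableSet.of_discrete (s := {y | R y = false})))
  have hne : MeasurableSet {ω | a ω ≠ b ω} :=
    (ha.prodMk hb) (MeasurableSet.of_discrete (s := {p : T × T | p.1 ≠ p.2}))
  obtain ⟨R, -, hR⟩ := Finset.exists_max_image (Finset.univ : Finset (T → Bool))
    (fun R => ν (A R)) Finset.univ_nonempty
  refine ⟨R, ?_⟩
  rw [← hA]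
  have h1 : (Fintype.card (T → Bool) : ℝ≥0∞) * ν {ω | a ω ≠ b ω} ≤ 4 * ∑ R, ν (A R) := by
    simp only [← lintegral_indicator_one (hAm _)]
    rw [← lintegral_finsetSum _ fun R _ => measurable_one.indicator (hAm R),
      ← lintegral_indicator_one hne, ← lintegral_const_mul _ (measurable_one.indicator hne),
      ← lintegral_const_mul _ (Finset.measurable_sum _ fun R _ => measurable_one.indicator (hAm R))]
    refine lintegral_mono fun ω => ?_
    by_cases hω : a ω ≠ b ω
    · have e : ∑ R, (A R).indicator (1 : Ω → ℝ≥0∞) ω =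
          ((Finset.univ.filter fun R : T → Bool => R (a ω) = true ∧ R (b ω) = false).card :
            ℝ≥0∞) := by
        rw [Finset.card_filter]
        push_cast
        refine Finset.sum_congr rfl fun R _ => ?_
        simp [hA, Set.indicator_apply]
      rw [e, Set.indicator_of_mem (show ω ∈ {ω | a ω ≠ b ω} from hω), Pi.one_apply, mul_one]
      have h4 := (Nat.cast_le (α := ℝ≥0∞)).mpr (sep_card_le hω)
      rwa [Nat.cast_mul, Nat.cast_ofNat] at h4
    · rw [Set.indicator_of_notMem (show ω ∉ {ω | a ω ≠ b ω} from hω), mul_zero]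
      exact zero_le
  have h2 : ∑ R, ν (A R) ≤ (Fintype.card (T → Bool) : ℝ≥0∞) * ν (A R) := by
    have := Finset.sum_le_card_nsmul Finset.univ (fun R => ν (A R)) (ν (A R)) hR
    rwa [nsmul_eq_mul, Finset.card_univ] at this
  have h3 : (Fintype.card (T → Bool) : ℝ≥0∞) * ν {ω | a ω ≠ b ω} ≤
      (Fintype.card (T → Bool) : ℝ≥0∞) * (4 * ν (A R)) := by
    refine h1.trans ?_
    rw [mul_left_comm]
    gcongr
  exact (ENNReal.mul_le_mul_iff_right (by simp) (by simp)).mp h3

theorem separate {Ω : Type*} [MeasurableSpace Ω] (ν : Measure Ω) [IsFiniteMeasure ν]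
    {Z : Type*} [MeasurableSpace Z] [StandardBorelSpace Z] (a b : Ω → Z) (ha : Measurable a)
    (hb : Measurable b) (hab : ∀ᵐ ω ∂ν, a ω ≠ b ω) :
    ∃ P : Set Z, MeasurableSet P ∧ ν univ ≤ 5 * ν {ω | a ω ∈ P ∧ b ω ∉ P} := by
  classical
  by_cases h0 : ν univ = 0
  · exact ⟨∅, MeasurableSet.empty, by rw [h0]; exact zero_le⟩
  obtain ⟨S, hSm, hS⟩ := exists_seq_separating Z (p := MeasurableSet) MeasurableSet.empty
    univ
  obtain ⟨f, hf⟩ : ∃ f : (N : ℕ) → Z → Fin N → Bool, ∀ N z n, f N z n = decide (z ∈ S n) :=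
    ⟨_, fun _ _ _ => rfl⟩
  have hfm : ∀ N, Measurable (f N) := fun N => by
    refine measurable_pi_lambda _ fun n => ?_
    refine measurable_to_bool ?_
    have : (fun z => f N z n) ⁻¹' {true} = S n := by ext z; simp [hf]
    rw [this]
    exact hSm n
  have hmono : Monotone fun N => {ω | f N (a ω) ≠ f N (b ω)} := by
    intro N N' hN ω hω h
    apply hω
    funext n
    have := congrFun h (n.castLE hN)
    rw [hf, hf] at this ⊢
    exact this
  have hU : ν (⋃ N, {ω | f N (a ω) ≠ f N (b ω)}) = ν univ := by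
    refine measure_congr ?_
    rw [Filter.eventuallyEq_univ]
    filter_upwards [hab] with ω hω
    by_contra hc
    apply hω
    refine hS _ (mem_univ _) _ (mem_univ _) fun n => ?_
    have h1 : f (n + 1) (a ω) = f (n + 1) (b ω) := by
      by_contra h
      exact hc (mem_iUnion.mpr ⟨n + 1, h⟩)
    have h2 := congrFun h1 (Fin.last n)
    rw [hf, hf] at h2
    simpa using h2
  have hlim := tendsto_measure_iUnion_atTop (μ := ν) hmono
  rw [hU] at hlim
  have hlt : 4 / 5 * ν univ < ν univ := by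
    nth_rewrite 2 [← one_mul (ν univ)]
    refine ENNReal.mul_lt_mul_left h0 (measure_ne_top _ _) ?_
    rw [ENNReal.div_lt_iff (by simp) (by simp)]
    norm_num
  obtain ⟨N, hN⟩ := (hlim.eventually (lt_mem_nhds hlt)).exists
  obtain ⟨R, hR⟩ := separate_fin ν (fun ω => f N (a ω)) (fun ω => f N (b ω)) ((hfm N).comp ha)
    ((hfm N).comp hb)
  refine ⟨{z | R (f N z) = true}, hfm N (MeasurableSet.of_discrete (s := {y | R y = true})), ?_⟩
  have e : {ω | a ω ∈ {z | R (f N z) = true} ∧ b ω ∉ {z | R (f N z) = true}} =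
      {ω | R (f N (a ω)) = true ∧ R (f N (b ω)) = false} := by ext ω; simp
  rw [e]
  have h4 := hN.le.trans hR
  have h5 : (4 : ℝ≥0∞) * ν univ = 5 * (4 / 5 * ν univ) := by
    rw [← mul_assoc, ENNReal.mul_div_cancel (by simp) (by simp)]
  refine (ENNReal.mul_le_mul_iff_right (a := 4) (by simp) (by simp)).mp ?_
  rw [h5, mul_left_comm 4]
  exact mul_le_mul_right h4 _

variable {X : Type} [MeasurableSpace X] [StandardBorelSpace X] [MulAction Gam X]
  {μ : Measure X} [IsProbabilityMeasure μ]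

/-- vertex form of `separate` -/
theorem separate_vtx (hX : IsFreePMPAction Gam X μ) (W : X → Set ℕ) (hW : MeasL W)
    (hfin : ∫⁻ x, ((W x).encard : ℝ≥0∞) ∂μ ≠ ∞) (τ : X → ℕ → Vtx)
    (hτm : ∀ k v, MeasurableSet {x | τ x k = v}) (hne : ∀ x, ∀ k ∈ W x, τ x k ≠ Vtx.ex 1 k) :
    ∃ P : X → Set ℕ, MeasL P ∧ ∫⁻ x, ((W x).encard : ℝ≥0∞) ∂μ ≤
      5 * ∫⁻ x, ({k ∈ W x | k ∈ P x ∧ τ x k ∉ glob P x}.encard : ℝ≥0∞) ∂μ := by
  have hslice : ∀ A : Set (X × ℕ), (∀ k, MeasurableSet {x | (x, k) ∈ A}) → MeasurableSet A :=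
    fun A hA => measurableSet_setOfPred.mpr (measurable_from_prod_countable_left
      (f := fun p : X × ℕ => p ∈ A) fun k => measurableSet_setOfPred.mp (hA k))
  have hprod : ∀ A : Set (X × ℕ), MeasurableSet A →
      μ.prod Measure.count A = ∫⁻ x, ({k | (x, k) ∈ A}.encard : ℝ≥0∞) ∂μ := fun A hA => by
    rw [Measure.prod_apply hA]
    refine lintegral_congr fun x => ?_
    rw [Measure.count_apply MeasurableSet.of_discrete]
    rfl
  have hWm : MeasurableSet {p : X × ℕ | p.2 ∈ W p.1} := hslice _ hW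
  obtain ⟨ν, hν⟩ : ∃ ν : Measure (X × ℕ),
      ν = (μ.prod Measure.count).restrict {p : X × ℕ | p.2 ∈ W p.1} := ⟨_, rfl⟩
  have hνu : ν univ = ∫⁻ x, ((W x).encard : ℝ≥0∞) ∂μ := by
    rw [hν, Measure.restrict_apply_univ, hprod _ hWm]
    rfl
  have : IsFiniteMeasure ν := ⟨by rw [hνu]; exact hfin.lt_top⟩
  let g : Vtx → X → X × ℕ := fun v x => match v with
    | Vtx.sp _ => (x, 0)
    | Vtx.ex γ j => (γ⁻¹ • x, j + 1)
  have hg : ∀ v, Measurable (g v) := by
    rintro (q | ⟨γ, j⟩)
    · exact measurable_id.prodMk measurable_const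
    · exact (measurable_smul_of hX γ⁻¹).prodMk measurable_const
  have ha : Measurable fun p : X × ℕ => (p.1, p.2 + 1) :=
    measurable_fst.prodMk (measurable_snd.add_const 1)
  have hb : Measurable fun p : X × ℕ => g (τ p.1 p.2) p.1 := by
    refine measurable_from_prod_countable_left fun k => ?_
    intro s hs
    exact measurableSet_subst (fun x v => g v x ∈ s) (fun v => hg v hs) (fun x => τ x k) (hτm k)
  have hab : ∀ᵐ p ∂ν, (p.1, p.2 + 1) ≠ g (τ p.1 p.2) p.1 := by
    have h1 : ∀ᵐ p ∂(μ.prod Measure.count : Measure (X × ℕ)),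
        ∀ γ : Gam, γ • p.1 = p.1 → γ = 1 :=
      Measure.quasiMeasurePreserving_fst.ae (ae_free hX)
    rw [hν]
    filter_upwards [ae_restrict_of_ae h1, ae_restrict_mem hWm] with p hp hpW h
    have h2 := hne p.1 p.2 hpW
    rcases hτ : τ p.1 p.2 with q | ⟨γ, j⟩
    · rw [hτ] at h
      simp [g] at h
    · rw [hτ] at h h2
      simp only [g, Prod.mk.injEq, add_left_inj] at h
      apply h2
      rw [inv_eq_one.mp (hp _ h.1.symm), h.2]
  obtain ⟨P, hPm, hP⟩ := separate ν _ _ ha hb hab
  refine ⟨fun x => {k | (x, k + 1) ∈ P},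
    fun k => (measurable_id.prodMk measurable_const) hPm, ?_⟩
  rw [← hνu]
  refine hP.trans ?_
  have hm : MeasurableSet {p : X × ℕ | (p.1, p.2 + 1) ∈ P ∧ g (τ p.1 p.2) p.1 ∉ P} :=
    (ha hPm).inter (hb hPm).compl
  rw [hν, Measure.restrict_apply hm, hprod _ (hm.inter hWm)]
  refine mul_le_mul_right (lintegral_mono fun x => ?_) _
  refine ENat.toENNReal_le.mpr (encard_le_encard ?_)
  rintro k ⟨⟨h1, h2⟩, h3⟩
  refine ⟨h3, h1, ?_⟩
  rintro ⟨γ, j, h4, h5⟩
  apply h2
  simp only at h4 ⊢
  rw [h4]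
  exact h5

end Crest.Agent.R191
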