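import Crest.Agent.R191.Star
import Crest.Agent.R191.Separate

/-! Folding almost everything at an arbitrarily small cost in deficiency. -/

set_option autoImplicit false
set_option linter.unusedSectionVars false

open MeasureTheory Set Crest.Dynamics
open scoped ENNReal

namespace Crest.Agent.R191

variable {X : Type} [MeasurableSpace X] [StandardBorelSpace X] [MulAction Gam X]
  {μ : Measure X} [IsProbabilityMeasure μ]

/-- the number of slots taken by extra vertices -/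
noncomputable def foldSl (Y : Str X) (μ : Measure X) : ℝ≥0∞ :=
  ∫⁻ x, ((supp (Y.s x) ∩ glob Y.vert x).encard : ℝ≥0∞) ∂μ

/-- extra vertices related on some variable to another vertex with the same base -/
def foldW (Y : Str X) (x : X) : Set ℕ :=
  {k | k ∈ Y.vert x ∧ ∃ v : Vtx, v ≠ Vtx.ex 1 k ∧ v.base = ((1 : Gam) : K) ∧
    ∃ z, Y.S x z (Vtx.ex 1 k) v}

theorem foldSl_ne_top {Y : Str X} (hY : Valid μ Y) : foldSl Y μ ≠ ∞ := by
  have h : foldSl Y μ ≤ 2 * Y.E μ := by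
    unfold foldSl Str.E
    rw [← lintegral_const_mul _ Y.meas_s.rk]
    refine lintegral_mono fun x => ?_
    have h1 := (encard_le_encard (inter_subset_left (t := glob Y.vert x))).trans
      (encard_supp_le (Y.s x))
    have h2 := ENat.toENNReal_le.mpr h1
    rwa [ENat.toENNReal_mul, ENat.toENNReal_ofNat] at h2
  exact ne_top_of_le_ne_top (ENNReal.mul_ne_top (by simp) hY.E_lt.ne) h

theorem fold_phi {Y Y' : Str X} (hY : Valid μ Y) (hY' : Valid μ Y') {b : ℝ≥0∞}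
    (h : Y'.E μ + Y.M μ + b ≤ Y.E μ + Y'.M μ) : Y'.Phi μ + b.toReal ≤ Y.Phi μ := by
  have hM : Y.M μ ≠ ∞ := ne_top_of_le_ne_top (by simp) hY.M_le
  have hM' : Y'.M μ ≠ ∞ := ne_top_of_le_ne_top (by simp) hY'.M_le
  have hr : Y.E μ + Y'.M μ ≠ ∞ := ENNReal.add_ne_top.mpr ⟨hY.E_lt.ne, hM'⟩
  have hb : b ≠ ∞ := ne_top_of_le_ne_top hr (le_trans le_add_self h)
  have h2 := ENNReal.toReal_mono hr h
  rw [ENNReal.toReal_add (ENNReal.add_ne_top.mpr ⟨hY'.E_lt.ne, hM⟩) hb,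
    ENNReal.toReal_add hY'.E_lt.ne hM, ENNReal.toReal_add hY.E_lt.ne hM'] at h2
  unfold Str.Phi
  linarith

theorem fold_V {Y Y' : Str X} (hY : Valid μ Y) {a : ℝ≥0∞} (h : Y'.V μ + a = Y.V μ) :
    a ≠ ∞ ∧ (Y'.V μ).toReal + a.toReal = (Y.V μ).toReal := by
  have h1 := ENNReal.add_ne_top.mp (h ▸ hY.V_lt.ne)
  exact ⟨h1.2, by rw [← h, ENNReal.toReal_add h1.1 h1.2]⟩

theorem measL_foldW (hX : IsFreePMPAction Gam X μ) (Y : Str X) : MeasL (foldW Y) := by
  intro k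
  refine (Y.meas_vert k).inter ?_
  change MeasurableSet {x | ∃ v : Vtx, v ≠ Vtx.ex 1 k ∧ v.base = ((1 : Gam) : K) ∧
    ∃ z, Y.S x z (Vtx.ex 1 k) v}
  simp only [ofPred_exists]
  refine MeasurableSet.iUnion fun v => ?_
  refine (MeasurableSet.const _).inter ((MeasurableSet.const _).inter ?_)
  change MeasurableSet {x | ∃ z, Y.S x z (Vtx.ex 1 k) v}
  simp only [ofPred_exists]
  exact MeasurableSet.iUnion fun z => Y.meas_s.trS hX z _ _

theorem fold_tsum_le (A : Set ℕ) (f : ℕ → ℝ≥0∞) (n : ℝ≥0∞) (h : ∀ k ∈ A, f k ≤ n) :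
    ∑' k, A.indicator f k ≤ n * (A.encard : ℝ≥0∞) := by
  rw [encard_eq_tsum, ← ENNReal.tsum_mul_left]
  refine ENNReal.tsum_le_tsum fun k => ?_
  by_cases hk : k ∈ A
  · simpa [hk] using h k hk
  · simp [hk]

theorem fold_le_tsum (A : Set ℕ) (f : ℕ → ℝ≥0∞) (n : ℝ≥0∞) (h : ∀ k ∈ A, n ≤ f k) :
    n * (A.encard : ℝ≥0∞) ≤ ∑' k, A.indicator f k := by
  rw [encard_eq_tsum, ← ENNReal.tsum_mul_left]
  refine ENNReal.tsum_le_tsum fun k => ?_
  by_cases hk : k ∈ A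
  · simpa [hk] using h k hk
  · simp [hk]

/-- unfolded variables meet a vertex of `foldW` -/
theorem fold_bad_le (hX : IsFreePMPAction Gam X μ) {Y : Str X} (hY : Valid μ Y) (n : ℕ)
    (hdeg : ∀ x, ∀ k ∈ Y.vert x, Y.deg x k ≤ n) :
    μ {x | Y.Bad x} ≤ n * ∫⁻ x, ((foldW Y x).encard : ℝ≥0∞) ∂μ := by
  rw [← lintegral_const_mul _ (measurable_encard_of _ (measL_foldW hX Y)),
    ← lintegral_indicator_one Y.measurableSet_bad]
  refine le_trans ?_ ((lintegral_slots hX Y (measL_foldW hX Y)).le.trans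
    (lintegral_mono fun x => fold_tsum_le _ _ _ fun k hk => ?_))
  · refine lintegral_mono_ae ?_
    filter_upwards [hY.supp] with x hx
    by_cases hb : x ∈ {x | Y.Bad x}
    swap
    · rw [indicator_of_notMem hb]
      exact zero_le
    rw [indicator_of_mem hb, Pi.one_apply]
    have key : ∀ γ k v, Vtx.ex γ k ≠ v → (Vtx.ex γ k).base = v.base → Y.s x (Vtx.ex γ k) v →
        (supp (Y.s x) ∩ glob (foldW Y) x).Nonempty := by
      intro γ k v hne hbase hrel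
      have hs := (mem_supp_of_rel hrel hne).1
      refine ⟨Vtx.ex γ k, hs, (ex_mem_glob _ _ _ _).mpr
        ⟨(Y.ex_mem_Vert x γ k).mp (hx _ hs).1, γ⁻¹ • v, ?_, ?_, γ⁻¹, ?_⟩⟩
      · intro e
        apply hne
        rw [inv_smul_eq_iff] at e
        rw [e, Vtx.smul_ex, mul_one]
      · rw [Vtx.base_smul, ← hbase, Vtx.base_ex]
        change ((γ⁻¹ • γ : Gam) : K) = _
        simp
      · have e1 : γ⁻¹⁻¹ • γ⁻¹ • x = x := inv_smul_smul _ _
        have e2 : γ⁻¹⁻¹ • γ⁻¹ • v = v := inv_smul_smul _ _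
        have e3 : γ⁻¹⁻¹ • Vtx.ex 1 k = Vtx.ex γ k := by simp
        rw [trS_apply, e1, e2, e3]
        exact hrel
    have hne : (supp (Y.s x) ∩ glob (foldW Y) x).Nonempty := by
      obtain ⟨a, b, hab, hbase, hrel⟩ := hb
      rcases a with q | ⟨γ, k⟩
      · rcases b with q' | ⟨γ, k⟩
        · exact absurd (congrArg Vtx.sp hbase) hab
        · exact key γ k _ hab.symm hbase.symm ((Y.s x).symm' hrel)
      · exact key γ k _ hab hbase hrel
    have := ENat.toENNReal_le.mpr (one_le_encard_iff_nonempty.mpr hne)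
    rwa [ENat.toENNReal_one] at this
  · have := ENat.toENNReal_le.mpr (hdeg x k hk.1)
    rwa [ENat.toENNReal_coe] at this

/-- sending the vertices of large degree to the special vertex -/
theorem fold_high (hX : IsFreePMPAction Gam X μ) {Y : Str X} (hY : Valid μ Y) (n : ℕ) :
    ∃ (Y' : Str X) (ρ : X → Vtx → Vtx), Valid μ Y' ∧ Succ μ Y Y' ρ ∧ (∀ x, Y'.m x ≤ Y.m x) ∧
      Y'.Phi μ ≤ Y.Phi μ ∧ (Y'.V μ).toReal ≤ (Y.V μ).toReal ∧
      n * Y'.df μ + (foldSl Y' μ).toReal ≤ n * Y.df μ + (foldSl Y μ).toReal ∧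
      ∀ x, ∀ k ∈ Y'.vert x, Y'.deg x k ≤ n := by
  classical
  obtain ⟨A, hA⟩ : ∃ A : X → Set ℕ, ∀ x, A x = {k | k ∈ Y.vert x ∧ ¬ Y.deg x k ≤ n} :=
    ⟨_, fun _ => rfl⟩
  have hAm : MeasL A := fun k => by
    simp only [hA]
    exact (Y.meas_vert k).inter (Y.measurableSet_deg_le hX k n).compl
  obtain ⟨τ, hτ⟩ : ∃ τ : X → ℕ → Vtx, ∀ x k, τ x k =
      if k ∈ A x then Vtx.sp ((1 : Gam) : K) else Vtx.ex 1 k := ⟨_, fun _ _ => rfl⟩
  have hτA : ∀ x k, τ x k ≠ Vtx.ex 1 k ↔ k ∈ A x := fun x k => by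
    by_cases h : k ∈ A x <;> simp [hτ, h]
  have hτm : ∀ k v, MeasurableSet {x | τ x k = v} := fun k v => by
    have : {x | τ x k = v} = ({x | k ∈ A x} ∩ {_x | Vtx.sp ((1 : Gam) : K) = v}) ∪
        ({x | k ∈ A x}ᶜ ∩ {_x | Vtx.ex 1 k = v}) := by
      ext x
      by_cases h : k ∈ A x <;> simp [hτ, h]
    rw [this]
    exact ((hAm k).inter (MeasurableSet.const _)).union
      ((hAm k).compl.inter (MeasurableSet.const _))
  obtain ⟨Y', hY', hsucc, hs, hvert, hm, hV, hE⟩ := star hX Y hY τ hτm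
    (fun x k => by by_cases h : k ∈ A x <;> simp [hτ, h])
    (Filter.Eventually.of_forall fun x k hk => by
      have h := (hτA x k).mp hk
      rw [hτ, if_pos h]
      rw [hA] at h
      exact ⟨h.1, Y.sp_mem_Vert x _, rfl⟩)
  simp only [hτA, ofPred_mem_eq] at hV
  have hdeg : ∀ x k, Y'.deg x k ≤ Y.deg x k := fun x k => by
    refine encard_le_encard fun z hz => ?_
    have e : Y'.S x z = (Y.S x z).map (relab τ x) := by
      have : Y'.s = fun y => (Y.s y).map (relab τ y) := funext hs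
      change trS Y'.s x z = _
      rw [this]
      exact trS_map Y.s (relab τ) (relab_smul τ) x z
    rw [mem_ofPred_eq, e] at hz
    obtain ⟨v, hv, hv'⟩ := supp_map_subset _ _ hz
    rcases v with q | ⟨γ, j⟩
    · exact absurd hv' (by simp [relab])
    · by_cases h : j ∈ A (γ⁻¹ • x)
      · simp [relab, hτ, h] at hv'
      · simp only [relab, hτ, h, if_false, Vtx.smul_ex, mul_one] at hv'
        rwa [hv'] at hv
  have hvert' : ∀ x k, k ∈ Y'.vert x ↔ k ∈ Y.vert x ∧ k ∉ A x := fun x k => by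
    rw [hvert, ← hτA, not_not]
    rfl
  have hSl : foldSl Y' μ + n * ∫⁻ x, ((A x).encard : ℝ≥0∞) ∂μ ≤ foldSl Y μ := by
    unfold foldSl
    rw [lintegral_slots hX Y' Y'.meas_vert, lintegral_slots hX Y Y.meas_vert,
      ← lintegral_const_mul _ (measurable_encard_of _ hAm),
      ← lintegral_add_right _ ((measurable_encard_of _ hAm).const_mul _)]
    refine lintegral_mono fun x => ?_
    have h1 := fold_le_tsum (A x) (fun k => (Y.deg x k : ℝ≥0∞)) n fun k hk => by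
      rw [hA] at hk
      have := ENat.toENNReal_le.mpr (not_le.mp hk.2).le
      rwa [ENat.toENNReal_coe] at this
    refine (add_le_add_right h1 _).trans ?_
    rw [← ENNReal.tsum_add]
    refine ENNReal.tsum_le_tsum fun k => ?_
    by_cases h : k ∈ A x
    · have h2 : k ∉ Y'.vert x := fun h' => ((hvert' x k).mp h').2 h
      have h3 : k ∈ Y.vert x := by rw [hA] at h; exact h.1
      simp [h, h2, h3]
    · by_cases h2 : k ∈ Y'.vert x
      · have h3 := ((hvert' x k).mp h2).1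
        simpa [h, h2, h3] using hdeg x k
      · simp [h, h2]
  have hPhi := fold_phi hY hY' hE
  obtain ⟨ha, hV'⟩ := fold_V hY hV
  have hSl' := ENNReal.toReal_mono (foldSl_ne_top hY) hSl
  rw [ENNReal.toReal_add (foldSl_ne_top hY') (ENNReal.mul_ne_top (by simp) ha),
    ENNReal.toReal_mul, ENNReal.toReal_natCast] at hSl'
  have hPhi' : Y'.Phi μ ≤ Y.Phi μ := le_trans (le_add_of_nonneg_right ENNReal.toReal_nonneg) hPhi
  refine ⟨Y', relab τ, hY', hsucc, hm, hPhi', ?_, ?_, fun x k hk => ?_⟩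
  · rw [← hV']
    exact le_add_of_nonneg_right ENNReal.toReal_nonneg
  · unfold Str.df
    have := mul_le_mul_of_nonneg_left hPhi' (Nat.cast_nonneg (α := ℝ) n)
    rw [← hV']
    linarith
  · refine (hdeg x k).trans ?_
    have h := (hvert' x k).mp hk
    by_contra hc
    exact h.2 (by rw [hA]; exact ⟨h.1, hc⟩)

/-- merging a fifth of the vertices of `foldW` into their witnesses -/
theorem fold_merge (hX : IsFreePMPAction Gam X μ) {Y : Str X} (hY : Valid μ Y) :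
    ∃ (Y' : Str X) (ρ : X → Vtx → Vtx), Valid μ Y' ∧ Succ μ Y Y' ρ ∧ (∀ x, Y'.m x ≤ Y.m x) ∧
      Y'.Phi μ ≤ Y.Phi μ ∧ Y'.df μ ≤ Y.df μ ∧ foldSl Y' μ ≤ foldSl Y μ ∧
      (∫⁻ x, ((foldW Y x).encard : ℝ≥0∞) ∂μ).toReal + 5 * (Y'.V μ).toReal ≤
        5 * (Y.V μ).toReal := by
  classical
  have hW := measL_foldW hX Y
  have hch : ∀ k, ∃ f : X → Vtx, (∀ v, MeasurableSet {x | f x = v}) ∧
      ∀ x, f x ≠ Vtx.ex 1 k ∧ (f x).base = ((1 : Gam) : K) ∧
        (k ∈ foldW Y x → ∃ z, Y.S x z (Vtx.ex 1 k) (f x)) := fun k => by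
    refine exists_measurable_choice (fun x v => v ≠ Vtx.ex 1 k ∧ v.base = ((1 : Gam) : K) ∧
      (k ∈ foldW Y x → ∃ z, Y.S x z (Vtx.ex 1 k) v)) (fun v => ?_) fun x => ?_
    · refine (MeasurableSet.const _).inter ((MeasurableSet.const _).inter ?_)
      refine (hW k).imp ?_
      simp only [ofPred_exists]
      exact MeasurableSet.iUnion fun z => Y.meas_s.trS hX z _ _
    · by_cases h : k ∈ foldW Y x
      · obtain ⟨v, h1, h2, h3⟩ := h.2
        exact ⟨v, h1, h2, fun _ => h3⟩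
      · exact ⟨Vtx.sp ((1 : Gam) : K), by simp, rfl, fun h' => absurd h' h⟩
  choose t htm ht using hch
  have hWV : ∫⁻ x, ((foldW Y x).encard : ℝ≥0∞) ∂μ ≤ Y.V μ :=
    lintegral_mono fun x => ENat.toENNReal_le.mpr (encard_le_encard fun k hk => hk.1)
  obtain ⟨P, hPm, hP⟩ := separate_vtx hX (foldW Y) hW (ne_top_of_le_ne_top hY.V_lt.ne hWV)
    (fun x k => t k x) htm fun x k _ => (ht k x).1
  obtain ⟨A, hA⟩ : ∃ A : X → Set ℕ, ∀ x, A x = {k ∈ foldW Y x | k ∈ P x ∧ t k x ∉ glob P x} :=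
    ⟨_, fun _ => rfl⟩
  simp only [← hA] at hP
  have hAm : MeasL A := fun k => by
    simp only [hA]
    exact (hW k).inter ((hPm k).inter (measurableSet_subst (fun x v => v ∈ glob P x)
      (hPm.glob hX) (t k) (htm k)).compl)
  obtain ⟨τ, hτ⟩ : ∃ τ : X → ℕ → Vtx, ∀ x k, τ x k = if k ∈ A x then t k x else Vtx.ex 1 k :=
    ⟨_, fun _ _ => rfl⟩
  have hτA : ∀ x k, τ x k ≠ Vtx.ex 1 k ↔ k ∈ A x := fun x k => by
    by_cases h : k ∈ A x <;> simp [hτ, h, (ht k x).1]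
  have hτm : ∀ k v, MeasurableSet {x | τ x k = v} := fun k v => by
    have : {x | τ x k = v} = ({x | k ∈ A x} ∩ {x | t k x = v}) ∪
        ({x | k ∈ A x}ᶜ ∩ {_x | Vtx.ex 1 k = v}) := by
      ext x
      by_cases h : k ∈ A x <;> simp [hτ, h]
    rw [this]
    exact ((hAm k).inter (htm k v)).union ((hAm k).compl.inter (MeasurableSet.const _))
  obtain ⟨Y', hY', hsucc, hs, hvert, hm, hV, hE⟩ := star hX Y hY τ hτm
    (fun x k => by by_cases h : k ∈ A x <;> simp [hτ, h, (ht k x).2.1])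
    (by
      filter_upwards [hY.supp_all hX] with x hx k hk
      have h := (hτA x k).mp hk
      rw [hτ, if_pos h]
      rw [hA] at h
      obtain ⟨z, hz⟩ := (ht k x).2.2 h.1
      refine ⟨h.1.1, (hx z _ (mem_supp_of_rel hz (ht k x).1.symm).2).1, ?_⟩
      have h2 := h.2.2
      rcases hv : t k x with q | ⟨γ, j⟩
      · rfl
      · rw [hv, ex_mem_glob] at h2
        have h3 : j ∉ A (γ⁻¹ • x) := by rw [hA]; exact fun h => h2 h.2.1
        simp [relab, hτ, h3])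
  have hE' : ∀ x, {k | τ x k ≠ Vtx.ex 1 k ∧ ∃ z, Y.S x z (Vtx.ex 1 k) (τ x k)} = A x := by
    intro x
    ext k
    rw [mem_ofPred_eq, hτA]
    refine ⟨fun h => h.1, fun h => ⟨h, ?_⟩⟩
    rw [hτ, if_pos h]
    rw [hA] at h
    exact (ht k x).2.2 h.1
  simp only [hE'] at hE
  simp only [hτA, ofPred_mem_eq] at hV
  have hPhi := fold_phi hY hY' hE
  obtain ⟨ha, hV'⟩ := fold_V hY hV
  have hP' := ENNReal.toReal_mono (ENNReal.mul_ne_top (by simp) ha) hP
  rw [ENNReal.toReal_mul, ENNReal.toReal_ofNat] at hP'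
  refine ⟨Y', relab τ, hY', hsucc, hm,
    le_trans (le_add_of_nonneg_right ENNReal.toReal_nonneg) hPhi, ?_, ?_, by linarith⟩
  · unfold Str.df
    linarith
  · refine lintegral_mono_ae ?_
    filter_upwards [hY.supp] with x hx
    refine ENat.toENNReal_le.mpr (le_trans (encard_le_encard ?_)
      (encard_image_le (relab τ x) (supp (Y.s x) ∩ glob Y.vert x)))
    rintro w ⟨hw, γ, k, rfl, -⟩
    rw [hs] at hw
    obtain ⟨v, hv, hv'⟩ := supp_map_subset _ _ hw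
    refine ⟨v, ⟨hv, ?_⟩, hv'⟩
    rcases (hx v hv).1 with ⟨q, rfl⟩ | h
    · exact absurd hv' (by simp [relab])
    · exact h

theorem fold (hX : IsFreePMPAction Gam X μ) (Y : Str X) (hY : Valid μ Y) {η σ : ℝ}
    (hη : 0 < η) (hσ : 0 < σ) :
    ∃ (Y' : Str X) (ρ : X → Vtx → Vtx), Valid μ Y' ∧ Succ μ Y Y' ρ ∧ (∀ x, Y'.m x ≤ Y.m x) ∧
      Y'.Phi μ ≤ Y.Phi μ ∧ Y'.df μ ≤ Y.df μ + σ ∧
      μ {x | Y'.Bad x} ≤ ENNReal.ofReal η := by
  obtain ⟨n, hn⟩ := exists_nat_gt ((foldSl Y μ).toReal / σ)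
  have hn0 : (0 : ℝ) < n := lt_of_le_of_lt (div_nonneg ENNReal.toReal_nonneg hσ.le) hn
  rw [div_lt_iff₀ hσ] at hn
  let C : Str X → Prop := fun Z => Valid μ Z ∧ (∃ ρ, Succ μ Y Z ρ) ∧ (∀ x, Z.m x ≤ Y.m x) ∧
    Z.Phi μ ≤ Y.Phi μ ∧ n * Z.df μ + (foldSl Z μ).toReal ≤ n * Y.df μ + (foldSl Y μ).toReal
  let T : Set ℝ := {r | ∃ Z, C Z ∧ r = (Z.V μ).toReal}
  have hTne : T.Nonempty := ⟨_, Y, ⟨hY, ⟨_, Succ.refl Y⟩, fun _ => le_rfl, le_rfl, le_rfl⟩, rfl⟩
  have hTb : BddBelow T := ⟨0, by rintro _ ⟨Z, -, rfl⟩; exact ENNReal.toReal_nonneg⟩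
  obtain ⟨_, ⟨Y1, ⟨hY1, ⟨ρ1, hs1⟩, hm1, hP1, hd1⟩, rfl⟩, hlt⟩ :=
    Real.lt_sInf_add_pos hTne (show 0 < η / (5 * n) by positivity)
  obtain ⟨Y2, ρ2, hY2, hs2, hm2, hP2, hV2, hd2, hdeg⟩ := fold_high hX hY1 n
  obtain ⟨Y3, ρ3, hY3, hs3, hm3, hP3, hd3, hSl3, hW⟩ := fold_merge hX hY2
  have hC3 : C Y3 := by
    refine ⟨hY3, ⟨_, (hs1.trans hs2).trans hs3⟩, fun x => (hm3 x).trans ((hm2 x).trans (hm1 x)),
      hP3.trans (hP2.trans hP1), ?_⟩
    have h1 := ENNReal.toReal_mono (foldSl_ne_top hY2) hSl3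
    have h2 := mul_le_mul_of_nonneg_left hd3 hn0.le
    linarith
  have hinf : sInf T ≤ (Y3.V μ).toReal := csInf_le hTb ⟨Y3, hC3, rfl⟩
  refine ⟨Y2, _, hY2, hs1.trans hs2, fun x => (hm2 x).trans (hm1 x), hP2.trans hP1, ?_, ?_⟩
  · refine le_of_mul_le_mul_left ?_ hn0
    have : 0 ≤ (foldSl Y2 μ).toReal := ENNReal.toReal_nonneg
    linarith
  · refine (fold_bad_le hX hY2 n hdeg).trans ?_
    have hWV : ∫⁻ x, ((foldW Y2 x).encard : ℝ≥0∞) ∂μ ≤ Y2.V μ :=
      lintegral_mono fun x => ENat.toENNReal_le.mpr (encard_le_encard fun k hk => hk.1)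
    have hfin := ne_top_of_le_ne_top hY2.V_lt.ne hWV
    rw [ENNReal.le_ofReal_iff_toReal_le (ENNReal.mul_ne_top (by simp) hfin) hη.le,
      ENNReal.toReal_mul, ENNReal.toReal_natCast]
    have h1 : (∫⁻ x, ((foldW Y2 x).encard : ℝ≥0∞) ∂μ).toReal ≤ 5 * (η / (5 * n)) := by linarith
    calc _ ≤ n * (5 * (η / (5 * n))) := mul_le_mul_of_nonneg_left h1 hn0.le
      _ = η := by field_simp

end Crest.Agent.R191
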