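import Mathlib

/-! Abstract forcing: sets on which a monotone family of events can be made to hold. -/

set_option autoImplicit false

open MeasureTheory Set Filter
open scoped ENNReal Topology

namespace Crest.Agent.R191

variable {X : Type*} [MeasurableSpace X] {μ : Measure X} {St : Type*} {le : St → St → Prop}

/-- `B` forces the family `H`: above every state, `H` can be made to hold on most of `B`. -/
def Forces (μ : Measure X) (le : St → St → Prop) (H : St → Set X) (B : Set X) : Prop :=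
  ∀ s, ∀ η : ℝ≥0∞, 0 < η → ∃ t, le s t ∧ μ (B \ H t) ≤ η

/-- the family `H` grows along the order (almost everywhere) -/
def MonoAE (μ : Measure X) (le : St → St → Prop) (H : St → Set X) : Prop :=
  ∀ s t, le s t → ∀ᵐ x ∂μ, x ∈ H s → x ∈ H t

theorem measure_diff_le_of_ae {B H H' : Set X} (h : ∀ᵐ x ∂μ, x ∈ H → x ∈ H') :
    μ (B \ H') ≤ μ (B \ H) := by
  refine measure_mono_ae ?_
  filter_upwards [h] with x hx hx'
  exact ⟨hx'.1, fun hH => hx'.2 (hx hH)⟩

theorem Forces.mono_set {H : St → Set X} {B B' : Set X} (h : Forces μ le H B) (hB : B' ⊆ B) :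
    Forces μ le H B' := by
  intro s η hη
  obtain ⟨t, ht, h⟩ := h s η hη
  exact ⟨t, ht, (measure_mono (sdiff_subset_sdiff_left hB)).trans h⟩

theorem forces_of_ae (hrefl : ∀ s, le s s) {H : St → Set X} {B : Set X}
    (h : ∀ s, ∀ᵐ x ∂μ, x ∈ B → x ∈ H s) : Forces μ le H B := by
  intro s η _
  refine ⟨s, hrefl s, ?_⟩
  have : μ (B \ H s) ≤ μ (B \ B) := measure_diff_le_of_ae (h s)
  simp only [Set.sdiff_self, measure_empty] at this
  exact this.trans (zero_le)

theorem Forces.union (htrans : ∀ s t u, le s t → le t u → le s u) {H : St → Set X}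
    (hH : MonoAE μ le H) {B B' : Set X} (h : Forces μ le H B) (h' : Forces μ le H B') :
    Forces μ le H (B ∪ B') := by
  intro s η hη
  have hη2 : 0 < η / 2 := ENNReal.half_pos hη.ne'
  obtain ⟨t, ht, h1⟩ := h s _ hη2
  obtain ⟨u, hu, h2⟩ := h' t _ hη2
  refine ⟨u, htrans _ _ _ ht hu, ?_⟩
  rw [union_sdiff_distrib]
  calc μ (B \ H u ∪ B' \ H u) ≤ μ (B \ H u) + μ (B' \ H u) := measure_union_le _ _
    _ ≤ η / 2 + η / 2 := add_le_add ((measure_diff_le_of_ae (hH _ _ hu)).trans h1) h2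
    _ = η := ENNReal.add_halves η

theorem forces_biUnion_finset (hrefl : ∀ s, le s s) (htrans : ∀ s t u, le s t → le t u → le s u)
    {H : St → Set X} (hH : MonoAE μ le H) {ι : Type*} (I : Finset ι) (B : ι → Set X)
    (h : ∀ i ∈ I, Forces μ le H (B i)) : Forces μ le H (⋃ i ∈ I, B i) := by
  classical
  induction I using Finset.induction_on with
  | empty => exact forces_of_ae hrefl fun s => Eventually.of_forall (by simp)
  | insert i I hi ih =>
    rw [Finset.set_biUnion_insert]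
    exact (h i (Finset.mem_insert_self _ _)).union htrans hH
      (ih fun j hj => h j (Finset.mem_insert_of_mem hj))

theorem forces_iUnion [IsFiniteMeasure μ] (hrefl : ∀ s, le s s)
    (htrans : ∀ s t u, le s t → le t u → le s u) {H : St → Set X} (hH : MonoAE μ le H)
    (B : ℕ → Set X) (hB : ∀ n, MeasurableSet (B n)) (h : ∀ n, Forces μ le H (B n)) :
    Forces μ le H (⋃ n, B n) := by
  intro s η hη
  have hη2 : 0 < η / 2 := ENNReal.half_pos hη.ne'
  set C : ℕ → Set X := fun n => (⋃ n, B n) \ ⋃ i ∈ Finset.range n, B i with hC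
  have hCm : ∀ n, MeasurableSet (C n) := fun n =>
    (MeasurableSet.iUnion hB).diff (Finset.measurableSet_biUnion _ fun i _ => hB i)
  have hanti : Antitone C := by
    intro m n hmn
    refine sdiff_subset_sdiff_right ?_
    exact biUnion_subset_biUnion_left (Finset.coe_subset.2 (Finset.range_mono hmn))
  have hlim : Tendsto (fun n => μ (C n)) atTop (𝓝 (μ (⋂ n, C n))) :=
    tendsto_measure_iInter_atTop (fun n => (hCm n).nullMeasurableSet) hanti
      ⟨0, measure_ne_top _ _⟩
  have hempty : (⋂ n, C n) = ∅ := by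
    rw [eq_empty_iff_forall_notMem]
    intro x hx
    rw [mem_iInter] at hx
    obtain ⟨n, hn⟩ := mem_iUnion.1 (hx 0).1
    exact (hx (n + 1)).2 (mem_biUnion (Finset.mem_coe.2 (Finset.self_mem_range_succ n)) hn)
  rw [hempty, measure_empty] at hlim
  obtain ⟨n, hn⟩ := (hlim.eventually (ge_mem_nhds hη2)).exists
  obtain ⟨t, ht, h1⟩ := forces_biUnion_finset hrefl htrans hH (Finset.range n) B
    (fun i _ => h i) s _ hη2
  refine ⟨t, ht, ?_⟩
  calc μ ((⋃ n, B n) \ H t) ≤ μ (C n ∪ (⋃ i ∈ Finset.range n, B i) \ H t) := by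
        refine measure_mono fun x hx => ?_
        by_cases hx' : x ∈ ⋃ i ∈ Finset.range n, B i
        · exact Or.inr ⟨hx', hx.2⟩
        · exact Or.inl ⟨hx.1, hx'⟩
    _ ≤ η / 2 + η / 2 := (measure_union_le _ _).trans (add_le_add hn h1)
    _ = η := ENNReal.add_halves η

/-- an almost everywhere largest forcing set -/
theorem exists_max_forces [IsFiniteMeasure μ] (hrefl : ∀ s, le s s)
    (htrans : ∀ s t u, le s t → le t u → le s u) {H : St → Set X} (hH : MonoAE μ le H) :
    ∃ B, MeasurableSet B ∧ Forces μ le H B ∧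
      ∀ B', MeasurableSet B' → Forces μ le H B' → ∀ᵐ x ∂μ, x ∈ B' → x ∈ B := by
  set 𝒜 : Set (Set X) := {B | MeasurableSet B ∧ Forces μ le H B} with h𝒜
  have hne : (μ '' 𝒜).Nonempty :=
    ⟨μ ∅, ∅, ⟨MeasurableSet.empty, forces_of_ae hrefl fun s => Eventually.of_forall (by simp)⟩, rfl⟩
  obtain ⟨u, -, hu, hmem⟩ := exists_seq_tendsto_sSup hne (OrderTop.bddAbove _)
  choose B hB hBu using hmem
  refine ⟨⋃ n, B n, MeasurableSet.iUnion fun n => (hB n).1,
    forces_iUnion hrefl htrans hH B (fun n => (hB n).1) fun n => (hB n).2, ?_⟩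
  intro B' hB' hF
  have hU : Forces μ le H (⋃ n, B n) :=
    forces_iUnion hrefl htrans hH B (fun n => (hB n).1) fun n => (hB n).2
  have hUm : MeasurableSet (⋃ n, B n) := MeasurableSet.iUnion fun n => (hB n).1
  have h1 : μ ((⋃ n, B n) ∪ B') ≤ sSup (μ '' 𝒜) :=
    le_sSup ⟨_, ⟨hUm.union hB', hU.union htrans hH hF⟩, rfl⟩
  have h2 : sSup (μ '' 𝒜) ≤ μ (⋃ n, B n) := by
    refine le_of_tendsto' hu fun n => ?_
    rw [← hBu n]
    exact measure_mono (subset_iUnion B n)
  have h3 : μ ((⋃ n, B n) ∪ B') = μ (⋃ n, B n) + μ (B' \ ⋃ n, B n) := by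
    rw [← union_sdiff_self, measure_union disjoint_sdiff_right (hB'.diff hUm)]
  have h4 : μ (B' \ ⋃ n, B n) = 0 := by
    have : μ (⋃ n, B n) + μ (B' \ ⋃ n, B n) ≤ μ (⋃ n, B n) + 0 := by
      rw [← h3, add_zero]; exact h1.trans h2
    exact le_antisymm ((ENNReal.add_le_add_iff_left (measure_ne_top _ _)).1 this) (zero_le)
  have := measure_eq_zero_iff_ae_notMem.1 h4
  filter_upwards [this] with x hx hx'
  by_contra hc
  exact hx ⟨hx', hc⟩

/-- one premise and a move -/
theorem Forces.move (htrans : ∀ s t u, le s t → le t u → le s u) {H H' : St → Set X}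
    {B P : Set X} (h : Forces μ le H B)
    (hmove : ∀ s, ∀ η : ℝ≥0∞, 0 < η → ∃ t, le s t ∧ μ ((H s ∩ P) \ H' t) ≤ η) :
    Forces μ le H' (B ∩ P) := by
  intro s η hη
  have hη2 : 0 < η / 2 := ENNReal.half_pos hη.ne'
  obtain ⟨t, ht, h1⟩ := h s _ hη2
  obtain ⟨u, hu, h2⟩ := hmove t _ hη2
  refine ⟨u, htrans _ _ _ ht hu, ?_⟩
  calc μ ((B ∩ P) \ H' u) ≤ μ (B \ H t ∪ (H t ∩ P) \ H' u) := by
        refine measure_mono fun x hx => ?_
        by_cases hx' : x ∈ H t
        · exact Or.inr ⟨⟨hx', hx.1.2⟩, hx.2⟩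
        · exact Or.inl ⟨hx.1.1, hx'⟩
    _ ≤ η / 2 + η / 2 := (measure_union_le _ _).trans (add_le_add h1 h2)
    _ = η := ENNReal.add_halves η

theorem Forces.imp {H H' : St → Set X} {B : Set X} (h : Forces μ le H B)
    (himp : ∀ s, H s ⊆ H' s) : Forces μ le H' B := by
  intro s η hη
  obtain ⟨t, ht, h1⟩ := h s η hη
  exact ⟨t, ht, (measure_mono (sdiff_subset_sdiff_right (himp t))).trans h1⟩

/-- two premises -/
theorem Forces.inter (htrans : ∀ s t u, le s t → le t u → le s u) {H H' : St → Set X}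
    (hH : MonoAE μ le H) {B B' : Set X} (h : Forces μ le H B) (h' : Forces μ le H' B') :
    Forces μ le (fun s => H s ∩ H' s) (B ∩ B') := by
  intro s η hη
  have hη2 : 0 < η / 2 := ENNReal.half_pos hη.ne'
  obtain ⟨t, ht, h1⟩ := h s _ hη2
  obtain ⟨u, hu, h2⟩ := h' t _ hη2
  refine ⟨u, htrans _ _ _ ht hu, ?_⟩
  calc μ ((B ∩ B') \ (H u ∩ H' u)) ≤ μ (B \ H u ∪ B' \ H' u) := by
        refine measure_mono fun x hx => ?_
        by_cases hx' : x ∈ H u
        · exact Or.inr ⟨hx.1.2, fun h => hx.2 ⟨hx', h⟩⟩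
        · exact Or.inl ⟨hx.1.1, hx'⟩
    _ ≤ η / 2 + η / 2 := (measure_union_le _ _).trans
        (add_le_add ((measure_diff_le_of_ae (hH _ _ hu)).trans h1) h2)
    _ = η := ENNReal.add_halves η

end Crest.Agent.R191
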