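import Crest.Agent.R191.Fold
import Crest.Agent.R191.Attach
import Crest.Agent.R191.Count
import Crest.Agent.R191.Dehn
import Crest.Agent.R191.ForceAbs

/-! Forcing the special ends of most variables to be related. -/

set_option autoImplicit false

open MeasureTheory Set Crest.Dynamics Filter
open scoped ENNReal

namespace Crest.Agent.R191

variable {X : Type} [MeasurableSpace X] [StandardBorelSpace X] [MulAction Gam X]
  {μ : Measure X} [IsProbabilityMeasure μ]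

/-- good successors of `Y₀` -/
structure State (μ : Measure X) (Y₀ : Str X) (ε : ℝ) where
  Y : Str X
  ρ : X → Vtx → Vtx
  valid : Valid μ Y
  df : Y.df μ < ε
  phi : Y.Phi μ ≤ Y₀.Phi μ
  succ : Succ μ Y₀ Y ρ

variable {Y₀ : Str X} {ε : ℝ}

def State.le (s t : State μ Y₀ ε) : Prop :=
  ∃ ρ' : X → Vtx → Vtx, Succ μ s.Y t.Y ρ' ∧ ∀ x v, t.ρ x v = ρ' x (s.ρ x v)

omit [StandardBorelSpace X] [IsProbabilityMeasure μ] in
theorem State.le_refl' (s : State μ Y₀ ε) : s.le s := ⟨fun _ v => v, Succ.refl _, fun _ _ => rfl⟩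

omit [StandardBorelSpace X] [IsProbabilityMeasure μ] in
theorem State.le_trans' (s t u : State μ Y₀ ε) (h : s.le t) (h' : t.le u) : s.le u := by
  obtain ⟨ρ, h, e⟩ := h
  obtain ⟨ρ', h', e'⟩ := h'
  exact ⟨fun x v => ρ' x (ρ x v), h.trans h', fun x v => by rw [e', e]⟩

/-- the next state along a successor -/
def State.next (s : State μ Y₀ ε) (Y' : Str X) (ρ' : X → Vtx → Vtx) (hv : Valid μ Y')
    (hs : Succ μ s.Y Y' ρ') (hdf : Y'.df μ < ε) (hphi : Y'.Phi μ ≤ s.Y.Phi μ) :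
    State μ Y₀ ε where
  Y := Y'
  ρ := fun x v => ρ' x (s.ρ x v)
  valid := hv
  df := hdf
  phi := hphi.trans s.phi
  succ := s.succ.trans hs

omit [StandardBorelSpace X] [IsProbabilityMeasure μ] in
theorem State.le_next (s : State μ Y₀ ε) (Y' : Str X) (ρ' : X → Vtx → Vtx) (hv : Valid μ Y')
    (hs : Succ μ s.Y Y' ρ') (hdf : Y'.df μ < ε) (hphi : Y'.Phi μ ≤ s.Y.Phi μ) :
    s.le (s.next Y' ρ' hv hs hdf hphi) := ⟨ρ', hs, fun _ _ => rfl⟩

/-- relations on variables (left) and polygons (right) -/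
def relOf (Y : Str X) (x : X) : Gam ⊕ Gam → Setoid Vtx
  | Sum.inl z => Y.S x z
  | Sum.inr c => Y.J x c

/-- the points where a fact holds -/
def State.H (f : Gam ⊕ Gam) (u v : Vtx) (s : State μ Y₀ ε) : Set X :=
  {x | relOf s.Y x f (s.ρ x u) (s.ρ x v)}

omit [StandardBorelSpace X] [IsProbabilityMeasure μ] in
theorem Succ.relOf {Y Y' : Str X} {ρ : X → Vtx → Vtx} (h : Succ μ Y Y' ρ) :
    ∀ᵐ x ∂μ, ∀ f u v, relOf Y x f u v → relOf Y' x f (ρ x u) (ρ x v) := by
  filter_upwards [h.rel] with x hx f u v huv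
  cases f with
  | inl z => exact hx z u v huv
  | inr c =>
    have : Y.J x c ≤ (Y'.J x c).comap (ρ x) := by
      refine iSup_le fun i => ?_
      intro a b hab
      exact (le_iSup (fun i => trS Y'.s x (c * sig i)) i) (hx _ _ _ hab)
    exact this huv

omit [StandardBorelSpace X] [IsProbabilityMeasure μ] in
theorem State.monoAE (f : Gam ⊕ Gam) (u v : Vtx) :
    MonoAE μ State.le (State.H (μ := μ) (Y₀ := Y₀) (ε := ε) f u v) := by
  rintro s t ⟨ρ', h, e⟩
  filter_upwards [h.relOf] with x hx hH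
  change relOf t.Y x f (t.ρ x u) (t.ρ x v)
  rw [e, e]
  exact hx _ _ _ hH

omit [StandardBorelSpace X] [IsProbabilityMeasure μ] in
theorem State.measurableSet_H (hX : IsFreePMPAction Gam X μ) (f : Gam ⊕ Gam) (u v : Vtx)
    (s : State μ Y₀ ε) : MeasurableSet (State.H f u v s) := by
  cases f with
  | inl z => exact (s.Y.meas_s.trS hX z).apply _ _ (s.succ.meas u) (s.succ.meas v)
  | inr c => exact (s.Y.meas_s.trJ hX c).apply _ _ (s.succ.meas u) (s.succ.meas v)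

omit [StandardBorelSpace X] [IsProbabilityMeasure μ] in
theorem State.nearMin
    (hmin : ∀ Y' : Str X, Valid μ Y' → Y'.df μ ≤ ε → Y₀.Phi μ - 1 / 2000 ≤ Y'.Phi μ)
    (s : State μ Y₀ ε) : NearMin μ (1 / 2000) s.Y := by
  intro Y' hY' hdf
  have := hmin Y' hY' (hdf.trans s.df.le)
  linarith [s.phi]

/-- folding, as a move between states -/
theorem State.exists_fold (hX : IsFreePMPAction Gam X μ) (s : State μ Y₀ ε) {η : ℝ≥0∞}
    (hη : 0 < η) : ∃ t : State μ Y₀ ε, s.le t ∧ (∀ x, t.Y.m x ≤ s.Y.m x) ∧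
      μ {x | t.Y.Bad x} ≤ η := by
  obtain ⟨η', hη', hle⟩ : ∃ η' : ℝ, 0 < η' ∧ ENNReal.ofReal η' ≤ η := by
    by_cases h : η = ∞
    · exact ⟨1, one_pos, by simp [h]⟩
    · exact ⟨η.toReal, ENNReal.toReal_pos hη.ne' h, by rw [ENNReal.ofReal_toReal h]⟩
  have hσ : 0 < (ε - s.Y.df μ) / 2 := by linarith [s.df]
  obtain ⟨Y', ρ', hv, hs, hm, hphi, hdf, hbad⟩ := fold hX s.Y s.valid hη' hσ
  exact ⟨s.next Y' ρ' hv hs (by linarith [s.df]) hphi, s.le_next _ _ _ _ _ _, hm, hbad.trans hle⟩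

theorem State.move_transfer (hX : IsFreePMPAction Gam X μ) (z z' : Gam) (u v : Vtx)
    (huv : u.base = v.base) (s : State μ Y₀ ε) (η : ℝ≥0∞) (hη : 0 < η) :
    ∃ t : State μ Y₀ ε, s.le t ∧
      μ ((State.H (Sum.inl z) u v s ∩ univ) \ State.H (Sum.inl z') u v t) ≤ η := by
  obtain ⟨t, hst, -, hbad⟩ := s.exists_fold hX hη
  refine ⟨t, hst, ?_⟩
  have h1 : μ {x | t.Y.Bad (z⁻¹ • x)} ≤ η := by
    rw [measure_smul_of hX z⁻¹ t.Y.measurableSet_bad]; exact hbad
  refine le_trans (measure_mono_ae ?_) h1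
  filter_upwards [State.monoAE (Sum.inl z) u v s t hst] with x hx hx'
  have h2 : t.Y.S x z (t.ρ x u) (t.ρ x v) := hx hx'.1.1
  refine ⟨z⁻¹ • t.ρ x u, z⁻¹ • t.ρ x v, ?_, ?_, h2⟩
  · intro h
    have h3 : t.ρ x u = t.ρ x v := smul_left_cancel _ h
    refine hx'.2 ?_
    change relOf t.Y x (Sum.inl z') (t.ρ x u) (t.ρ x v)
    rw [h3]
  · rw [Vtx.base_smul, Vtx.base_smul, t.succ.base, t.succ.base, huv]

/-- after folding, the credits are small -/
theorem State.exists_small (hX : IsFreePMPAction Gam X μ) (hexp : Expands μ) (hε' : ε ≤ 1 / 250)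
    (hmin : ∀ Y' : Str X, Valid μ Y' → Y'.df μ ≤ ε → Y₀.Phi μ - 1 / 2000 ≤ Y'.Phi μ)
    (s : State μ Y₀ ε) : ∃ t : State μ Y₀ ε, s.le t ∧ t.Y.M μ ≤ 1 / 200 := by
  have hMs : s.Y.M μ ≠ ∞ := ne_top_of_le_ne_top (by simp) s.valid.M_le
  obtain ⟨θ, hθ, hθ'⟩ := exists_pos_setLIntegral_lt_of_measure_lt (μ := μ)
    (f := fun x => (s.Y.m x : ℝ≥0∞)) hMs (ε := ENNReal.ofReal (1 / 2000)) (by simp)
  have hη : 0 < min θ 1 / 200 := ENNReal.div_pos (by simp [hθ.ne']) (by simp)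
  obtain ⟨t, hst, hm, hbad⟩ := s.exists_fold hX hη
  refine ⟨t, hst, ?_⟩
  have hbp : μ {x | t.Y.BadPoly x} < θ := by
    have h1 : {x | t.Y.BadPoly x} = ⋃ i, {x | t.Y.Bad ((sig i)⁻¹ • x)} := by
      ext x; simp [Str.BadPoly]
    calc μ {x | t.Y.BadPoly x} ≤ ∑ i : Fin 100, μ {x | t.Y.Bad ((sig i)⁻¹ • x)} := by
          rw [h1]; exact measure_iUnion_fintype_le _ _
      _ ≤ ∑ _i : Fin 100, min θ 1 / 200 := by
          refine Finset.sum_le_sum fun i _ => ?_
          rw [measure_smul_of hX _ t.Y.measurableSet_bad]; exact hbad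
      _ = min θ 1 / 2 := by
          rw [Finset.sum_const, Finset.card_univ, Fintype.card_fin, nsmul_eq_mul,
            ENNReal.div_eq_inv_mul, ENNReal.div_eq_inv_mul, ← mul_assoc]
          congr 1
          have : (200 : ℝ≥0∞) = 100 * 2 := by norm_num
          rw [this, ENNReal.mul_inv (by simp) (by simp), ← mul_assoc, Nat.cast_ofNat,
            ENNReal.mul_inv_cancel (by simp) (by simp), one_mul]
      _ < min θ 1 := ENNReal.half_lt_self (by simp [hθ.ne']) (by simp)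
      _ ≤ θ := min_le_left _ _
  have hint : (∫⁻ x in {x | t.Y.BadPoly x}, (t.Y.m x : ℝ≥0∞) ∂μ).toReal ≤ 1 / 2000 := by
    refine ENNReal.toReal_le_of_le_ofReal (by norm_num) ?_
    refine le_trans (lintegral_mono fun x => ?_) (hθ' _ hbp).le
    exact Nat.cast_le.2 (hm x)
  have hnm := t.nearMin hmin
  have h1 := M_bound hX hexp t.Y t.valid (by norm_num) hnm
  have h2 := (rrob_real hX t.Y t.valid (by norm_num) hnm).2
  have h3 : (t.Y.M μ).toReal ≤ 1 / 200 := by linarith [t.df]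
  have hMt : t.Y.M μ ≠ ∞ := ne_top_of_le_ne_top (by simp) t.valid.M_le
  calc t.Y.M μ = ENNReal.ofReal (t.Y.M μ).toReal := (ENNReal.ofReal_toReal hMt).symm
    _ ≤ ENNReal.ofReal (1 / 200) := ENNReal.ofReal_le_ofReal h3
    _ = 1 / 200 := by rw [ENNReal.ofReal_div_of_pos (by norm_num)]; simp

theorem State.move_attach (hX : IsFreePMPAction Gam X μ) (hexp : Expands μ) (hε' : ε ≤ 1 / 250)
    (hmin : ∀ Y' : Str X, Valid μ Y' → Y'.df μ ≤ ε → Y₀.Phi μ - 1 / 2000 ≤ Y'.Phi μ)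
    (c : Gam) (i : Fin 100) (u v : Vtx) (hu : IsEnd (c * sig i) u.base)
    (hv : IsEnd (c * sig i) v.base) (P : Set X) (hP : MeasurableSet P) (hPs : μ P ≤ 1 / 200)
    (s : State μ Y₀ ε) (η : ℝ≥0∞) (_hη : 0 < η) :
    ∃ t : State μ Y₀ ε, s.le t ∧
      μ ((State.H (Sum.inr c) u v s ∩ P) \ State.H (Sum.inl (c * sig i)) u v t) ≤ η := by
  obtain ⟨t, hst, hM⟩ := s.exists_small hX hexp hε' hmin
  set D : Set X := {y | c • y ∈ State.H (Sum.inr c) u v t ∩ P} with hD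
  have hDm : MeasurableSet D :=
    measurableSet_smul_of hX c (P := fun x => x ∈ State.H (Sum.inr c) u v t ∩ P)
      ((t.measurableSet_H hX _ _ _).inter hP)
  have hDs : μ D ≤ 1 / 200 := by
    rw [hD, measure_smul_of hX c (P := fun x => x ∈ State.H (Sum.inr c) u v t ∩ P)
      ((t.measurableSet_H hX _ _ _).inter hP)]
    exact (measure_mono inter_subset_right).trans hPs
  have hsum : t.Y.M μ + μ D ≤ 1 / 100 := by
    refine (add_le_add hM hDs).trans (le_of_eq ?_)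
    rw [← ENNReal.add_div, ENNReal.div_eq_div_iff (by simp) (by simp) (by simp) (by simp)]
    norm_num
  have hmeas : ∀ a : Vtx, ∀ w, MeasurableSet {y | c⁻¹ • t.ρ (c • y) a = w} := by
    intro a w
    have := measurableSet_smul_of hX c (P := fun x => t.ρ x a = c • w) (t.succ.meas a _)
    convert this using 3 with y
    rw [inv_smul_eq_iff]
  have hend : ∀ a : Vtx, IsEnd (c * sig i) a.base → ∀ y,
      IsEnd (sig i) (c⁻¹ • t.ρ (c • y) a).base := by
    intro a ha y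
    rw [Vtx.base_smul, t.succ.base, ← isEnd_smul c, smul_inv_smul]
    exact ha
  obtain ⟨Y', hv', hs', hphi, hdf, hrel⟩ := attach hX t.Y t.valid D hDm hsum i
    (fun y => c⁻¹ • t.ρ (c • y) u) (fun y => c⁻¹ • t.ρ (c • y) v) (hmeas u) (hmeas v)
    (Eventually.of_forall fun y hy => ⟨by
      have h1 : t.Y.J (c • y) c (t.ρ (c • y) u) (t.ρ (c • y) v) := hy.1
      change trJ _ _ _ _ _ at h1
      rw [trJ_eq, inv_smul_smul] at h1
      exact h1, hend u hu y, hend v hv y⟩)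
  refine ⟨t.next Y' _ hv' hs' (hdf.trans_lt t.df) hphi,
    State.le_trans' _ _ _ hst (t.le_next _ _ _ _ _ _), ?_⟩
  refine le_trans (le_of_eq ?_) (zero_le (a := η))
  rw [measure_eq_zero_iff_ae_notMem]
  filter_upwards [State.monoAE (Sum.inr c) u v s t hst, ae_forall_smul hX hrel] with x hx hx' hmem
  refine hmem.2 ?_
  have h1 := hx' c⁻¹ (by
    change c • c⁻¹ • x ∈ State.H (Sum.inr c) u v t ∩ P
    rw [smul_inv_smul]
    exact ⟨hx hmem.1.1, hmem.1.2⟩)
  simp only [smul_inv_smul] at h1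
  change trS Y'.s x (c * sig i) (t.ρ x u) (t.ρ x v)
  rw [trS_inv_smul]
  exact h1

theorem force (hX : IsFreePMPAction Gam X μ) (hexp : Expands μ) (hcov : SmallCover μ)
    (Y₀ : Str X) (hY₀ : Valid μ Y₀) {ε : ℝ} (hε : Y₀.df μ < ε) (hε' : ε ≤ 1 / 250)
    (hmin : ∀ Y' : Str X, Valid μ Y' → Y'.df μ ≤ ε → Y₀.Phi μ - 1 / 2000 ≤ Y'.Phi μ) :
    ∃ Y : Str X, Valid μ Y ∧ Y.df μ < ε ∧ Y.Phi μ ≤ Y₀.Phi μ ∧
      1 / 2 ≤ μ {x | Y.s x (Vtx.sp ((1 : Gam) : K)) (Vtx.sp (aa : K))} := by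
  have hr := State.le_refl' (μ := μ) (Y₀ := Y₀) (ε := ε)
  have ht := State.le_trans' (μ := μ) (Y₀ := Y₀) (ε := ε)
  choose B hBm hBf hBmax using fun (f : Gam ⊕ Gam) (u v : Vtx) =>
    exists_max_forces hr ht (State.monoAE (μ := μ) (Y₀ := Y₀) (ε := ε) f u v)
  have h_base : ∀ᵐ x ∂μ, ∀ z u v, Y₀.S x z u v → x ∈ B (Sum.inl z) u v := by
    simp only [ae_all_iff]
    intro z u v
    refine hBmax _ _ _ {x | Y₀.S x z u v} (Y₀.meas_s.trS hX z u v) (forces_of_ae hr fun s => ?_)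
    filter_upwards [s.succ.rel] with x hx h
    exact hx z u v h
  have h_refl : ∀ᵐ x ∂μ, ∀ f u, x ∈ B f u u := by
    simp only [ae_all_iff]
    intro f u
    filter_upwards [hBmax f u u univ MeasurableSet.univ (forces_of_ae hr fun s =>
      Eventually.of_forall fun x _ => Setoid.refl' _ _)] with x hx
    exact hx (mem_univ x)
  have h_symm : ∀ᵐ x ∂μ, ∀ f u v, x ∈ B f u v → x ∈ B f v u := by
    simp only [ae_all_iff]
    intro f u v
    exact hBmax _ _ _ _ (hBm f u v) ((hBf f u v).imp fun s x hx => Setoid.symm' _ hx)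
  have h_trans : ∀ᵐ x ∂μ, ∀ f u w v, x ∈ B f u w ∩ B f w v → x ∈ B f u v := by
    simp only [ae_all_iff]
    intro f u w v
    exact hBmax _ _ _ _ ((hBm f u w).inter (hBm f w v))
      (((hBf f u w).inter ht (State.monoAE f u w) (hBf f w v)).imp
        fun s x hx => Setoid.trans' _ hx.1 hx.2)
  have h_incl : ∀ᵐ x ∂μ, ∀ c j u v, x ∈ B (Sum.inl (c * sig j)) u v → x ∈ B (Sum.inr c) u v := by
    simp only [ae_all_iff]
    intro c j u v
    exact hBmax _ _ _ _ (hBm _ u v) ((hBf _ u v).imp fun s x hx =>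
      (le_iSup (fun i => trS s.Y.s x (c * sig i)) j) hx)
  have h_transfer : ∀ᵐ x ∂μ, ∀ z z' u v, u.base = v.base → x ∈ B (Sum.inl z) u v →
      x ∈ B (Sum.inl z') u v := by
    simp only [ae_all_iff]
    intro z z' u v huv
    have := (hBf (Sum.inl z) u v).move ht (State.move_transfer hX z z' u v huv)
    rw [inter_univ] at this
    exact hBmax _ _ _ _ (hBm _ u v) this
  have h_attach : ∀ᵐ x ∂μ, ∀ c i u v, IsEnd (c * sig i) u.base → IsEnd (c * sig i) v.base →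
      x ∈ B (Sum.inr c) u v → x ∈ B (Sum.inl (c * sig i)) u v := by
    simp only [ae_all_iff]
    intro c i u v hu hv
    obtain ⟨n, D, hDm, hDs, hD⟩ := hcov
    have h1 := forces_biUnion_finset hr ht (State.monoAE (Sum.inl (c * sig i)) u v) Finset.univ
      (fun j => B (Sum.inr c) u v ∩ D j) fun j _ =>
        (hBf (Sum.inr c) u v).move ht
          (State.move_attach hX hexp hε' hmin c i u v hu hv (D j) (hDm j) (hDs j))
    refine hBmax _ _ _ _ (hBm _ u v) (h1.mono_set fun x hx => ?_)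
    obtain ⟨j, hj⟩ := hD x
    exact mem_biUnion (Finset.mem_coe.2 (Finset.mem_univ j)) ⟨hx, hj⟩
  have h_goal : ∀ᵐ x ∂μ, x ∈ B (Sum.inl 1) (Vtx.sp ((1 : Gam) : K)) (Vtx.sp (aa : K)) := by
    filter_upwards [h_base, h_refl, h_symm, h_trans, h_incl, h_transfer, h_attach,
      hY₀.supp_all hX, hY₀.conn] with x b1 b2 b3 b4 b5 b6 b7 b8 b9
    let D : Gam → Setoid Vtx := fun z =>
      { r := fun u v => (u.base = v.base ∨ (IsEnd z u.base ∧ IsEnd z v.base)) ∧
          x ∈ B (Sum.inl z) u v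
        iseqv :=
          { refl := fun u => ⟨Or.inl rfl, b2 _ _⟩
            symm := fun h => ⟨h.1.imp Eq.symm And.symm, b3 _ _ _ h.2⟩
            trans := fun {u w v} h h' => ⟨by
              rcases h.1 with e | e <;> rcases h'.1 with e' | e'
              · exact Or.inl (e.trans e')
              · exact Or.inr ⟨e ▸ e'.1, e'.2⟩
              · exact Or.inr ⟨e.1, e' ▸ e.2⟩
              · exact Or.inr ⟨e.1, e'.2⟩, b4 _ _ _ _ ⟨h.2, h'.2⟩⟩ } }
    have hD : Closed Vtx.base D :=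
      { transfer := fun z z' u v h e => ⟨Or.inl e, b6 z z' u v e h.2⟩
        attach := fun c i u v h hu hv => by
          let R : Setoid Vtx :=
            { r := fun u v => x ∈ B (Sum.inr c) u v
              iseqv :=
                { refl := fun u => b2 _ _
                  symm := fun h => b3 _ _ _ h
                  trans := fun h h' => b4 _ _ _ _ ⟨h, h'⟩ } }
          have hle : (⨆ j, D (c * sig j)) ≤ R := iSup_le fun j a b hab => b5 c j a b hab.2
          exact ⟨Or.inr ⟨hu, hv⟩, b7 c i u v hu hv (hle h)⟩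
        proper := fun z u v h => h.1 }
    have hle : (⨆ γ, Y₀.S x γ) ≤ ⨆ γ, D γ := by
      refine iSup_mono fun γ a b hab => ⟨?_, b1 γ a b hab⟩
      by_cases e : a = b
      · exact Or.inl (by rw [e])
      · exact Or.inr ⟨(b8 γ a (mem_supp_of_rel hab e).1).2, (b8 γ b (mem_supp_of_rel hab e).2).2⟩
    exact (dehn Vtx.base D hD _ _ (hle (b9 _ (Y₀.sp_mem_Vert x _) _ (Y₀.sp_mem_Vert x _)))
      (Or.inl rfl) (Or.inr (by simp))).2
  let s₀ : State μ Y₀ ε := ⟨Y₀, fun _ v => v, hY₀, hε, le_rfl, Succ.refl _⟩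
  obtain ⟨t, -, hts⟩ := hBf (Sum.inl 1) (Vtx.sp ((1 : Gam) : K)) (Vtx.sp (aa : K)) s₀ (1 / 2)
    (by simp)
  refine ⟨t.Y, t.valid, t.df, t.phi, ?_⟩
  have hH : State.H (Sum.inl 1) (Vtx.sp ((1 : Gam) : K)) (Vtx.sp (aa : K)) t =
      {x | t.Y.s x (Vtx.sp ((1 : Gam) : K)) (Vtx.sp (aa : K))} := by
    ext x
    change trS t.Y.s x 1 _ _ ↔ _
    rw [trS_one, t.succ.sp, t.succ.sp]
    rfl
  rw [hH] at hts
  set A := {x | t.Y.s x (Vtx.sp ((1 : Gam) : K)) (Vtx.sp (aa : K))}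
  have h1 : μ univ ≤ μ (A ∪ B (Sum.inl 1) (Vtx.sp ((1 : Gam) : K)) (Vtx.sp (aa : K)) \ A) := by
    refine measure_mono_ae ?_
    filter_upwards [h_goal] with x hx _
    by_cases h : x ∈ A
    · exact Or.inl h
    · exact Or.inr ⟨hx, h⟩
  have h2 : (1 : ℝ≥0∞) / 2 + 1 / 2 ≤ μ A + 1 / 2 := by
    rw [ENNReal.add_halves]
    calc (1 : ℝ≥0∞) = μ univ := measure_univ.symm
      _ ≤ _ := h1
      _ ≤ _ := (measure_union_le _ _).trans (add_le_add le_rfl hts)
  exact (ENNReal.add_le_add_iff_right (by simp)).1 h2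

end Crest.Agent.R191
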