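import Crest.Agent.R191.Defs

/-! Basic facts about the group `Gam`. -/

set_option autoImplicit false

open MeasureTheory Set
open scoped ENNReal

namespace Crest.Agent.R191

theorem sigF_zero : sigF 0 = 1 := rfl

theorem sigF_succ (i : Fin 99) : sigF i.succ = FreeGroup.of i := by simp [sigF]

theorem sig_zero : sig 0 = 1 := by simp [sig, sigF_zero]

theorem tt_mem : tt ∈ Gsub := ⟨U.one_mem, Subgroup.mem_zpowers tN⟩

theorem inr_mem_Gsub {u : F} (hu : u ∈ U) : (SemidirectProduct.inr u : Gam) ∈ Gsub :=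
  ⟨hu, (Subgroup.zpowers tN).one_mem⟩

theorem tt_commute {g : Gam} (hg : g ∈ Gsub) : Commute tt g := by
  obtain ⟨hu, k, hk⟩ := hg
  have hk' : tN ^ k = g.left := hk
  change tt * g = g * tt
  ext1
  · simp only [tt, SemidirectProduct.mul_left, SemidirectProduct.left_inl,
      SemidirectProduct.right_inl, map_one, MulAut.one_apply]
    rw [actN_tN_of_mem hu, ← hk']
    exact (Commute.self_zpow tN k).eq
  · simp [tt]

theorem tt_zpow_injective : Function.Injective fun k : ℤ => tt ^ k := by
  intro a b h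
  have h1 : (SemidirectProduct.inl (tN ^ a) : Gam) = SemidirectProduct.inl (tN ^ b) := by
    simpa [tt] using h
  have h2 := SemidirectProduct.inl_injective h1
  have h3 := congrArg (FreeGroup.lift fun _ : Q => Multiplicative.ofAdd (1 : ℤ)) h2
  simp only [tN, map_zpow, FreeGroup.lift_apply_of] at h3
  have h4 := congrArg Multiplicative.toAdd h3
  simpa using h4

instance : Infinite Gam := Infinite.of_injective _ tt_zpow_injective

theorem yF_mem_U (j : Fin 100) : (yF 0)⁻¹ * yF j ∈ U := Subgroup.subset_closure ⟨j, rfl⟩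

/-- the head of side `j` is the tail of side `j + 1` -/
theorem mul_sig_mul_aa (c : Gam) (j : Fin 100) :
    ((c * sig j * aa : Gam) : K) = ((c * sig (j + 1) : Gam) : K) := by
  rw [QuotientGroup.eq]
  have : (c * sig j * aa)⁻¹ * (c * sig (j + 1)) =
      (SemidirectProduct.inr ((yF 0)⁻¹ * yF j) : Gam) := by
    rw [map_mul, map_inv, yF.eq_1 j, map_mul, map_inv]
    change _ = aa⁻¹ * ((sig j)⁻¹ * sig (j + 1))
    group
  rw [this]
  exact inr_mem_Gsub (yF_mem_U j)

theorem isEnd_sig_iff (c : Gam) (j : Fin 100) (q : K) :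
    IsEnd (c * sig j) q ↔ q = ((c * sig j : Gam) : K) ∨ q = ((c * sig (j + 1) : Gam) : K) := by
  rw [IsEnd, mul_sig_mul_aa]

theorem coe_mul_eq_smul (g z : Gam) : ((g * z : Gam) : K) = g • (z : K) := rfl

theorem isEnd_smul (g z : Gam) (q : K) : IsEnd (g * z) (g • q) ↔ IsEnd z q := by
  rw [IsEnd, IsEnd, mul_assoc, coe_mul_eq_smul, coe_mul_eq_smul g (z * aa), smul_left_cancel_iff,
    smul_left_cancel_iff]

/-- the height homomorphism: `sig i ↦ i`, `tt ↦ 0` -/
theorem exists_chi : ∃ chi : Gam →* Multiplicative ℤ,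
    (∀ i : Fin 100, chi (sig i) = Multiplicative.ofAdd ((i : ℕ) : ℤ)) ∧ chi tt = 1 := by
  refine ⟨(FreeGroup.lift fun i : Fin 99 => Multiplicative.ofAdd (((i : ℕ) : ℤ) + 1)).comp
    SemidirectProduct.rightHom, fun i => ?_, ?_⟩
  · refine Fin.cases ?_ (fun i => ?_) i
    · rw [sig_zero, map_one]; rfl
    · simp [sig, sigF_succ]
  · simp [tt]

theorem Gsub_eq_closure : Gsub = Subgroup.closure
    ({tt} ∪ Set.range fun j : Fin 100 => (SemidirectProduct.inr ((yF 0)⁻¹ * yF j) : Gam)) := by
  apply le_antisymm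
  · rintro g ⟨hu, k, hk⟩
    have hk' : tN ^ k = g.left := hk
    rw [← SemidirectProduct.inl_left_mul_inr_right g, ← hk', map_zpow]
    have htt : tt ∈ Subgroup.closure ({tt} ∪ Set.range fun j : Fin 100 =>
        (SemidirectProduct.inr ((yF 0)⁻¹ * yF j) : Gam)) :=
      Subgroup.subset_closure (Set.mem_union_left _ (Set.mem_singleton _))
    refine Subgroup.mul_mem _ (Subgroup.zpow_mem _ htt k) ?_
    generalize g.right = u at hu
    induction hu using Subgroup.closure_induction with
    | mem x hx =>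
      obtain ⟨j, rfl⟩ := hx
      exact Subgroup.subset_closure (Or.inr ⟨j, rfl⟩)
    | one => rw [map_one]; exact Subgroup.one_mem _
    | mul x y _ _ hx hy => rw [map_mul]; exact Subgroup.mul_mem _ hx hy
    | inv x _ hx => rw [map_inv]; exact Subgroup.inv_mem _ hx
  · rw [Subgroup.closure_le]
    rintro g (rfl | ⟨j, rfl⟩)
    · exact tt_mem
    · exact inr_mem_Gsub (yF_mem_U j)

theorem aa_eq_sig : aa = sig 1 := by
  simp [aa, yF, sig, sigF_zero]

theorem inr_yF (j : Fin 100) :
    (SemidirectProduct.inr (yF j) : Gam) = (sig j)⁻¹ * sig (j + 1) := by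
  rw [yF, map_mul, map_inv]; rfl

/-- the corners of a polygon are distinct (reduce the height modulo 100: it kills `Gsub`) -/
theorem corner_injective (c : Gam) :
    Function.Injective fun j : Fin 100 => ((c * sig j : Gam) : K) := by
  obtain ⟨chi, h1, h2⟩ := exists_chi
  let ψ : Gam →* Multiplicative (ZMod 100) :=
    (AddMonoidHom.toMultiplicative (Int.castAddHom (ZMod 100))).comp chi
  have hψ : ∀ i : Fin 100, ψ (sig i) = Multiplicative.ofAdd ((i : ℕ) : ZMod 100) := fun i => by
    simp [ψ, h1]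
  have hy : ∀ j : Fin 100,
      ψ (SemidirectProduct.inr (yF j)) = Multiplicative.ofAdd (1 : ZMod 100) := fun j => by
    rw [inr_yF, map_mul, map_inv, hψ, hψ, ← ofAdd_neg, ← ofAdd_add]
    congr 1
    rw [Fin.val_add, ZMod.natCast_mod]
    simp
  have hker : Gsub ≤ ψ.ker := by
    rw [Gsub_eq_closure, Subgroup.closure_le]
    rintro g (rfl | ⟨j, rfl⟩)
    · simp [ψ, h2]
    · change ψ (SemidirectProduct.inr ((yF 0)⁻¹ * yF j)) = 1
      rw [map_mul, map_inv, map_mul, map_inv, hy, hy, inv_mul_cancel]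
  intro i j h
  have h3 := hker (QuotientGroup.eq.1 h)
  rw [MonoidHom.mem_ker, mul_inv_rev, mul_assoc, inv_mul_cancel_left, map_mul, map_inv, hψ, hψ,
    inv_mul_eq_one] at h3
  have h4 : ((i : ℕ) : ZMod 100) = ((j : ℕ) : ZMod 100) := Multiplicative.ofAdd.injective h3
  rw [ZMod.natCast_eq_natCast_iff', Nat.mod_eq_of_lt i.2, Nat.mod_eq_of_lt j.2] at h4
  exact Fin.ext h4

theorem coe_aa_ne_one : ((aa : Gam) : K) ≠ ((1 : Gam) : K) := by
  intro h
  have : (1 : Fin 100) = 0 := corner_injective 1 (by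
    change ((1 * sig 1 : Gam) : K) = ((1 * sig 0 : Gam) : K)
    rw [one_mul, one_mul, sig_zero, ← aa_eq_sig, h])
  exact absurd this (by decide)

theorem closure_Gsub_aa : Subgroup.closure ((Gsub : Set Gam) ∪ {aa}) = ⊤ := by
  set H := Subgroup.closure ((Gsub : Set Gam) ∪ {aa}) with hH
  have hG : Gsub ≤ H := fun g hg => Subgroup.subset_closure (Or.inl hg)
  have ha : aa ∈ H := Subgroup.subset_closure (Or.inr rfl)
  have hy : ∀ j, (SemidirectProduct.inr (yF j) : Gam) ∈ H := fun j => by
    have := H.mul_mem ha (hG (inr_mem_Gsub (yF_mem_U j)))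
    rwa [aa, ← map_mul, mul_inv_cancel_left] at this
  have hs : ∀ i : Fin 100, sig i ∈ H := fun i => by
    induction i using Fin.induction with
    | zero => rw [sig_zero]; exact H.one_mem
    | succ i ih =>
      have := H.mul_mem ih (hy i.castSucc)
      rwa [inr_yF, mul_inv_cancel_left, Fin.coeSucc_eq_succ] at this
  have hF : ∀ f : F, (SemidirectProduct.inr f : Gam) ∈ H := fun f => by
    induction f using FreeGroup.induction_on with
    | C1 => rw [map_one]; exact H.one_mem
    | of i =>
      have := hs i.succ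
      rwa [sig, sigF_succ] at this
    | inv_of i h => rw [map_inv]; exact H.inv_mem h
    | mul x y hx hy => rw [map_mul]; exact H.mul_mem hx hy
  have hN : ∀ n : N, (SemidirectProduct.inl n : Gam) ∈ H := fun n => by
    induction n using FreeGroup.induction_on with
    | C1 => rw [map_one]; exact H.one_mem
    | of q =>
      obtain ⟨f, rfl⟩ := QuotientGroup.mk_surjective q
      have h1 : FreeGroup.of (f : Q) = actN f tN := by
        rw [tN, actN_of]
        congr 1
        change _ = ((f • (1 : F) : F) : Q)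
        simp
      rw [h1, SemidirectProduct.inl_aut]
      exact H.mul_mem (H.mul_mem (hF f) (hG tt_mem)) (hF _)
    | inv_of i h => rw [map_inv]; exact H.inv_mem h
    | mul x y hx hy => rw [map_mul]; exact H.mul_mem hx hy
  rw [eq_top_iff]
  intro g _
  rw [← SemidirectProduct.inl_left_mul_inr_right g]
  exact H.mul_mem (hN _) (hF _)

theorem gam_fg : Group.FG Gam := by
  rw [Group.fg_iff]
  refine ⟨({tt} ∪ Set.range fun j : Fin 100 =>
    (SemidirectProduct.inr ((yF 0)⁻¹ * yF j) : Gam)) ∪ {aa}, ?_, ?_⟩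
  · rw [Subgroup.closure_union, ← Gsub_eq_closure, ← closure_Gsub_aa, Subgroup.closure_union,
      Subgroup.closure_eq]
  · exact ((Set.finite_singleton _).union (Set.finite_range _)).union (Set.finite_singleton _)

/-- every group element is reached by a path of variables -/
theorem exists_path (g : Gam) : ∃ (l : ℕ) (p z : ℕ → Gam), 0 < l ∧ p 0 = 1 ∧ p l = g ∧
    ∀ j < l, IsEnd (z j) (p j : K) ∧ IsEnd (z j) (p (j + 1) : K) := by
  classical
  have step : ∀ g s w : Gam, IsEnd w ((1 : Gam) : K) → IsEnd w (s : K) →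
      (∃ (l : ℕ) (p z : ℕ → Gam), 0 < l ∧ p 0 = 1 ∧ p l = g ∧
        ∀ j < l, IsEnd (z j) (p j : K) ∧ IsEnd (z j) (p (j + 1) : K)) →
      ∃ (l : ℕ) (p z : ℕ → Gam), 0 < l ∧ p 0 = 1 ∧ p l = g * s ∧
        ∀ j < l, IsEnd (z j) (p j : K) ∧ IsEnd (z j) (p (j + 1) : K) := by
    rintro g s w h1 hs ⟨l, p, z, hl, h0, hg, h⟩
    refine ⟨l + 1, Function.update p (l + 1) (g * s), Function.update z l (g * w),
      Nat.succ_pos l, ?_, ?_, fun j hj => ?_⟩
    · rw [Function.update_of_ne (by omega), h0]
    · rw [Function.update_self]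
    · rcases Nat.lt_succ_iff_lt_or_eq.1 hj with hj' | rfl
      · rw [Function.update_of_ne (by omega), Function.update_of_ne (by omega),
          Function.update_of_ne (by omega)]
        exact h j hj'
      · rw [Function.update_self, Function.update_of_ne (by omega), Function.update_self, hg]
        refine ⟨?_, ?_⟩
        · have := (isEnd_smul g w _).2 h1
          rwa [← coe_mul_eq_smul, mul_one] at this
        · exact (isEnd_smul g w _).2 hs
  have hG : ∀ s ∈ Gsub, IsEnd 1 (s : K) := fun s hs =>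
    Or.inl (QuotientGroup.eq.2 (by simpa using hs))
  have hg : g ∈ Subgroup.closure ((Gsub : Set Gam) ∪ {aa}) := closure_Gsub_aa ▸ Subgroup.mem_top g
  induction hg using Subgroup.closure_induction_right with
  | one => exact ⟨1, fun _ => 1, fun _ => 1, one_pos, rfl, rfl, fun _ _ => ⟨Or.inl rfl, Or.inl rfl⟩⟩
  | mul_right x _ y hy ih =>
    rcases hy with hy | rfl
    · exact step x y 1 (Or.inl rfl) (hG y hy) ih
    · exact step x aa 1 (Or.inl rfl) (Or.inr (by rw [one_mul])) ih
  | mul_inv_cancel x _ y hy ih =>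
    rcases hy with hy | rfl
    · exact step x y⁻¹ 1 (Or.inl rfl) (hG _ (Gsub.inv_mem hy)) ih
    · exact step x aa⁻¹ aa⁻¹ (Or.inr (by rw [inv_mul_cancel])) (Or.inl rfl) ih

/-- `F` is torsion free, so it permutes no non-empty finite subset of `Gam` -/
theorem eq_one_of_mapsTo_finite (g : F) (S : Set Gam) (hS : S.Finite) (hne : S.Nonempty)
    (h : ∀ s ∈ S, (SemidirectProduct.inr g : Gam) * s ∈ S) : g = 1 := by
  obtain ⟨s, hs⟩ := hne
  have hm : ∀ n : ℕ, (SemidirectProduct.inr g : Gam) ^ n * s ∈ S := fun n => by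
    induction n with
    | zero => simpa using hs
    | succ n ih => rw [pow_succ', mul_assoc]; exact h _ ih
  obtain ⟨a, b, hab, he⟩ := hS.exists_lt_map_eq_of_forall_mem hm
  have h1 : (SemidirectProduct.inr (g ^ a) : Gam) = SemidirectProduct.inr (g ^ b) := by
    rw [map_pow, map_pow]; exact mul_right_cancel he
  have h2 : g ^ a = g ^ b := SemidirectProduct.inr_injective h1
  obtain ⟨k, rfl⟩ := Nat.exists_eq_add_of_lt hab
  rw [add_assoc, pow_add, left_eq_mul] at h2
  exact (pow_eq_one_iff_left (Nat.succ_ne_zero k)).1 h2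

end Crest.Agent.R191
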