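import Crest.Agent.R191.Meas

/-! A cheap graphing gives a valid structure of small deficiency. -/

set_option autoImplicit false
set_option linter.unusedSectionVars false

open MeasureTheory Set Crest.Dynamics
open scoped ENNReal

namespace Crest.Agent.R191

namespace Start

/-- the pair `{u, v}` when `P` holds, nothing otherwise -/
def cpair {V : Type*} (P : Prop) (u v : V) : Setoid V := ⨆ _ : P, pairS u v

theorem cpair_pos {V : Type*} {P : Prop} (h : P) (u v : V) : cpair P u v = pairS u v := by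
  simp [cpair, h]

theorem cpair_neg {V : Type*} {P : Prop} (h : ¬ P) (u v : V) : cpair P u v = ⊥ := by
  simp [cpair, h]

theorem cpair_rel {V : Type*} {P : Prop} (h : P) (u v : V) : cpair P u v u v := by
  rw [cpair_pos h, pairS_iff]; simp

theorem cpair_mono {V : Type*} {P P' : Prop} (h : P → P') (u v : V) :
    cpair P u v ≤ cpair P' u v := by
  by_cases hP : P
  · rw [cpair_pos hP, cpair_pos (h hP)]
  · rw [cpair_neg hP]; exact bot_le

theorem supp_cpair {V : Type*} {P : Prop} {u v w : V} (h : w ∈ supp (cpair P u v)) :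
    P ∧ (w = u ∨ w = v) := by
  obtain ⟨a, ha, h⟩ := h
  by_cases hP : P
  · rw [cpair_pos hP, pairS_iff] at h
    refine ⟨hP, ?_⟩
    rcases h with h | h | h
    · exact absurd h ha
    · exact Or.inr h.2
    · exact Or.inl h.2
  · rw [cpair_neg hP] at h
    exact absurd h ha

theorem rk_cpair_le {X V : Type*} (B : Set X) (x : X) (u v : V) :
    (rk (cpair (x ∈ B) u v) : ℝ≥0∞) ≤ B.indicator 1 x := by
  by_cases h : x ∈ B
  · rw [cpair_pos h, indicator_of_mem h, Pi.one_apply]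
    exact_mod_cast rk_pairS_le u v
  · rw [cpair_neg h, rk_bot]; simp

theorem measS_cpair {X : Type} [MeasurableSpace X] {P : X → Prop} (hP : MeasurableSet {x | P x})
    (u v : Vtx) : MeasS fun x => cpair (P x) u v := by
  intro a b
  have : {x | cpair (P x) u v a b} = {x | a = b} ∪ ({x | P x} ∩ {x | pairS u v a b}) := by
    ext x
    change cpair (P x) u v a b ↔ a = b ∨ (P x ∧ pairS u v a b)
    by_cases h : P x
    · rw [cpair_pos h]
      exact ⟨fun h' => Or.inr ⟨h, h'⟩, fun h' => h'.elim (fun e => e ▸ (pairS u v).refl' a) And.right⟩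
    · rw [cpair_neg h]
      exact ⟨fun h' => Or.inl h', fun h' => h'.elim id fun h'' => absurd h''.1 h⟩
  rw [this]
  exact (MeasurableSet.const _).union (hP.inter (MeasurableSet.const _))

/-- The data of the construction: the graphing, the paths and the marker set. -/
structure Dat (X : Type) where
  g : ℕ → Gam
  A : ℕ → Set X
  l : ℕ → ℕ
  p : ℕ → ℕ → Gam
  z : ℕ → ℕ → Gam
  D : Set X
  l_pos : ∀ i, 0 < l i
  p_zero : ∀ i, p i 0 = 1
  p_last : ∀ i, p i (l i) = (g i)⁻¹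
  isEnd : ∀ i, ∀ j < l i, IsEnd (z i j) (p i j : K) ∧ IsEnd (z i j) (p i (j + 1) : K)

namespace Dat

variable {X : Type} [MulAction Gam X] (d : Dat X)

/-- the label of the `j`-th vertex of the `i`-th arc -/
def lab (i j : ℕ) : ℕ := if 0 < j ∧ j < d.l i then Nat.pair i j + 1 else 0

/-- the `j`-th vertex of the `i`-th arc starting at `1` -/
def w (i j : ℕ) : Vtx := Vtx.ex (d.p i j) (d.lab i j)

/-- the index set of the pairs -/
def I (n : ℕ) : Finset (Σ _ : ℕ, ℕ) := (Finset.range n).sigma fun i => Finset.range (d.l i)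

/-- the index set of the new vertices -/
def J (n : ℕ) : Finset (Σ _ : ℕ, ℕ) := (Finset.range n).sigma fun i => Finset.Ioo 0 (d.l i)

theorem mem_I {n : ℕ} {a : Σ _ : ℕ, ℕ} : a ∈ d.I n ↔ a.1 < n ∧ a.2 < d.l a.1 := by
  simp [I]

theorem mem_J {n : ℕ} {a : Σ _ : ℕ, ℕ} : a ∈ d.J n ↔ a.1 < n ∧ 0 < a.2 ∧ a.2 < d.l a.1 := by
  simp [J]

/-- the pair number `j` of the arc number `i` put on the variable `1` -/
def arc (x : X) (i j : ℕ) : Setoid Vtx :=
  cpair (x ∈ {y : X | d.z i j • y ∈ d.A i}) ((d.z i j)⁻¹ • d.w i j) ((d.z i j)⁻¹ • d.w i (j + 1))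

/-- arcs and markers -/
def s0 (n : ℕ) (x : X) : Setoid Vtx :=
  (⨆ a : d.I n, d.arc x a.1.1 a.1.2) ⊔ cpair (x ∈ d.D) (Vtx.ex 1 0) (Vtx.sp ((1 : Gam) : K))

def T0 (n : ℕ) (x : X) : Setoid Vtx := ⨆ γ, trS (d.s0 n) x γ

def Bad (n : ℕ) : Set X :=
  {x | ¬ (d.T0 n x (Vtx.ex 1 0) (Vtx.sp ((1 : Gam) : K)) ∧
    d.T0 n x (Vtx.sp ((1 : Gam) : K)) (Vtx.sp (aa : K)))}

def s (n : ℕ) (x : X) : Setoid Vtx :=
  d.s0 n x ⊔ (cpair (x ∈ d.Bad n) (Vtx.ex 1 0) (Vtx.sp ((1 : Gam) : K)) ⊔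
    cpair (x ∈ d.Bad n) (Vtx.sp ((1 : Gam) : K)) (Vtx.sp (aa : K)))

def vert (n : ℕ) (x : X) : Set ℕ :=
  {k | k = 0 ∨ ∃ a ∈ d.J n, k = Nat.pair a.1 a.2 + 1 ∧ d.p a.1 a.2 • x ∈ d.A a.1}

theorem trS_mono {s t : X → Setoid Vtx} (h : ∀ x, s x ≤ t x) (x : X) (γ : Gam) :
    trS s x γ ≤ trS t x γ := fun _ _ huv => h _ huv

theorem s0_mono {n m : ℕ} (h : n ≤ m) (x : X) : d.s0 n x ≤ d.s0 m x := by
  refine sup_le_sup_right (iSup_le fun a => ?_) _
  have ha : a.1 ∈ d.I m := by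
    have := d.mem_I.1 a.2
    exact d.mem_I.2 ⟨this.1.trans_le h, this.2⟩
  exact le_iSup (fun b : d.I m => d.arc x b.1.1 b.1.2) ⟨a.1, ha⟩

theorem T0_mono {n m : ℕ} (h : n ≤ m) (x : X) : d.T0 n x ≤ d.T0 m x :=
  iSup_mono fun γ => trS_mono (d.s0_mono h) x γ

theorem Bad_anti : Antitone d.Bad := by
  intro n m h x hx hx'
  exact hx ⟨d.T0_mono h x hx'.1, d.T0_mono h x hx'.2⟩

theorem T0_of {n : ℕ} {x : X} (γ : Gam) {u v : Vtx} (h : d.s0 n (γ⁻¹ • x) (γ⁻¹ • u) (γ⁻¹ • v)) :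
    d.T0 n x u v :=
  le_iSup (fun γ => trS (d.s0 n) x γ) γ h

theorem T0_step {n i j : ℕ} (hi : i < n) (hj : j < d.l i) {x : X} {γ : Gam}
    (hx : γ⁻¹ • x ∈ d.A i) : d.T0 n x (γ • d.w i j) (γ • d.w i (j + 1)) := by
  refine d.T0_of (γ * d.z i j) ?_
  have h1 : d.arc ((γ * d.z i j)⁻¹ • x) i j ≤ d.s0 n ((γ * d.z i j)⁻¹ • x) :=
    (le_iSup (fun b : d.I n => d.arc ((γ * d.z i j)⁻¹ • x) b.1.1 b.1.2)
      ⟨⟨i, j⟩, d.mem_I.2 ⟨hi, hj⟩⟩).trans le_sup_left
  refine h1 ?_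
  have e : ∀ v : Vtx, (γ * d.z i j)⁻¹ • γ • v = (d.z i j)⁻¹ • v := by
    intro v; rw [smul_smul]; congr 1; group
  rw [e, e]
  refine cpair_rel ?_ _ _
  change d.z i j • (γ * d.z i j)⁻¹ • x ∈ d.A i
  rwa [smul_smul, mul_inv_rev, mul_inv_cancel_left]

theorem w_zero (i : ℕ) : d.w i 0 = Vtx.ex 1 0 := by
  simp [w, lab, d.p_zero]

theorem w_last (i : ℕ) : d.w i (d.l i) = Vtx.ex (d.g i)⁻¹ 0 := by
  simp [w, lab, d.p_last]

theorem T0_arc {n i : ℕ} (hi : i < n) {x : X} {γ : Gam} (hx : γ⁻¹ • x ∈ d.A i) :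
    ∀ j ≤ d.l i, d.T0 n x (Vtx.ex γ 0) (γ • d.w i j) := by
  intro j
  induction j with
  | zero => intro _; rw [w_zero]; simp
  | succ j ih =>
    intro hj
    exact (d.T0 n x).trans' (ih (by omega)) (d.T0_step hi (by omega) hx)

theorem T0_marker (n : ℕ) {x : X} {γ : Gam} (hx : γ⁻¹ • x ∈ d.D) :
    d.T0 n x (Vtx.ex γ 0) (Vtx.sp (γ : K)) := by
  refine d.T0_of γ ?_
  have h1 : cpair (γ⁻¹ • x ∈ d.D) (Vtx.ex 1 0) (Vtx.sp ((1 : Gam) : K)) ≤ d.s0 n (γ⁻¹ • x) :=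
    le_sup_right
  refine h1 ?_
  have e : γ⁻¹ • (γ : K) = ((1 : Gam) : K) := by
    rw [MulAction.Quotient.smul_coe]; simp
  simp only [Vtx.smul_ex, Vtx.smul_sp, inv_mul_cancel, e]
  exact cpair_rel hx _ _

/-- at a good point the arcs and markers eventually connect what is needed -/
theorem exists_not_bad (x : X) (hfree : ∀ g : Gam, g • x = x → g = 1)
    (hgen : ∀ g : Gam, Relation.EqvGen (GraphingStep fun i => (d.g i, d.A i)) x (g • x))
    (hmark : ∀ g : Gam, ∃ k : ℤ, tt ^ k • g • x ∈ d.D) : ∃ n, x ∉ d.Bad n := by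
  have hfree' : ∀ γ γ' : Gam, γ⁻¹ • x = γ'⁻¹ • x → γ = γ' := by
    intro γ γ' h
    have : (γ' * γ⁻¹) • x = x := by rw [mul_smul, h, smul_inv_smul]
    have := hfree _ this
    exact (mul_inv_eq_one.1 this).symm
  have htrans : ∀ u v w : Vtx, (∃ n, d.T0 n x u v) → (∃ n, d.T0 n x v w) → ∃ n, d.T0 n x u w := by
    rintro u v w ⟨n, hn⟩ ⟨m, hm⟩
    exact ⟨max n m, (d.T0 _ x).trans' (d.T0_mono (le_max_left _ _) x hn)
      (d.T0_mono (le_max_right _ _) x hm)⟩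
  have key : ∀ y y' : X, Relation.EqvGen (GraphingStep fun i => (d.g i, d.A i)) y y' →
      (∃ g : Gam, y' = g • y) ∧ ∀ γ γ' : Gam, y = γ⁻¹ • x → y' = γ'⁻¹ • x →
        ∃ n, d.T0 n x (Vtx.ex γ 0) (Vtx.ex γ' 0) := by
    intro y y' h
    induction h with
    | rel y y' h =>
      obtain ⟨i, hy, rfl⟩ := h
      refine ⟨⟨_, rfl⟩, ?_⟩
      rintro γ γ' rfl h
      have h' : γ * (d.g i)⁻¹ = γ' := by
        apply hfree'
        rw [← h, mul_inv_rev, inv_inv, mul_smul]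
      refine ⟨i + 1, ?_⟩
      have := d.T0_arc (Nat.lt_succ_self i) hy (d.l i) le_rfl
      rwa [w_last, Vtx.smul_ex, h'] at this
    | refl y =>
      refine ⟨⟨1, by simp⟩, ?_⟩
      rintro γ γ' rfl h
      rw [hfree' _ _ h]
      exact ⟨0, (d.T0 0 x).refl' _⟩
    | symm y y' _ ih =>
      obtain ⟨⟨g, hg⟩, ih⟩ := ih
      refine ⟨⟨g⁻¹, by rw [hg, inv_smul_smul]⟩, fun γ γ' h h' => ?_⟩
      obtain ⟨n, hn⟩ := ih γ' γ h' h
      exact ⟨n, (d.T0 n x).symm' hn⟩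
    | trans y y' y'' _ _ ih ih' =>
      obtain ⟨⟨g, hg⟩, ih⟩ := ih
      obtain ⟨⟨g', hg'⟩, ih'⟩ := ih'
      refine ⟨⟨g' * g, by rw [hg', hg, mul_smul]⟩, fun γ γ' h h' => ?_⟩
      have h2 : y' = (γ * g⁻¹)⁻¹ • x := by rw [hg, h, mul_inv_rev, inv_inv, mul_smul]
      exact htrans _ _ _ (ih γ _ h h2) (ih' _ γ' h2 h')
  have hex : ∀ γ : Gam, ∃ n, d.T0 n x (Vtx.ex 1 0) (Vtx.ex γ 0) := fun γ =>
    (key _ _ (hgen γ⁻¹)).2 1 γ (by simp) rfl
  have hsp : ∀ γ : Gam, ∃ n, d.T0 n x (Vtx.ex 1 0) (Vtx.sp (γ : K)) := by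
    intro γ
    obtain ⟨k, hk⟩ := hmark γ⁻¹
    have h1 : (γ * tt ^ (-k))⁻¹ • x ∈ d.D := by
      rwa [mul_inv_rev, zpow_neg, inv_inv, mul_smul]
    have h2 : ((γ * tt ^ (-k) : Gam) : K) = (γ : K) :=
      QuotientGroup.mk_mul_of_mem γ (Gsub.zpow_mem tt_mem _)
    have h3 := d.T0_marker 0 h1
    rw [h2] at h3
    exact htrans _ _ _ (hex _) ⟨0, h3⟩
  obtain ⟨n, hn⟩ := hsp 1
  obtain ⟨m, hm⟩ := hsp aa
  refine ⟨max n m, fun h => h ?_⟩
  have hn' := d.T0_mono (le_max_left n m) x hn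
  have hm' := d.T0_mono (le_max_right n m) x hm
  exact ⟨hn', (d.T0 _ x).trans' ((d.T0 _ x).symm' hn') hm'⟩

def T (n : ℕ) (x : X) : Setoid Vtx := ⨆ γ, trS (d.s n) x γ

theorem T0_le_T (n : ℕ) (x : X) : d.T0 n x ≤ d.T n x :=
  iSup_mono fun γ => trS_mono (fun _ => le_sup_left) x γ

theorem s_le_T (n : ℕ) (x : X) : d.s n x ≤ d.T n x := by
  have := le_iSup (fun γ => trS (d.s n) x γ) 1
  rwa [trS_one] at this

theorem T_one (n : ℕ) (x : X) : d.T n x (Vtx.ex 1 0) (Vtx.sp ((1 : Gam) : K)) ∧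
    d.T n x (Vtx.sp ((1 : Gam) : K)) (Vtx.sp (aa : K)) := by
  by_cases h : x ∈ d.Bad n
  · constructor
    · exact d.s_le_T n x ((le_sup_left.trans le_sup_right : _ ≤ d.s n x) (cpair_rel h _ _))
    · exact d.s_le_T n x ((le_sup_right.trans le_sup_right : _ ≤ d.s n x) (cpair_rel h _ _))
  · have h' := not_not.1 h
    exact ⟨d.T0_le_T n x h'.1, d.T0_le_T n x h'.2⟩

theorem T_smul (n : ℕ) (x : X) (γ : Gam) {u v : Vtx} (h : d.T n (γ⁻¹ • x) u v) :
    d.T n x (γ • u) (γ • v) := by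
  have := (iSup_trS_smul (d.s n) (γ⁻¹ • x) γ u v).2 h
  rwa [smul_inv_smul] at this

theorem T_sp (n : ℕ) (γ : Gam) : ∀ x : X, d.T n x (Vtx.sp ((1 : Gam) : K)) (Vtx.sp (γ : K)) := by
  have hγ : γ ∈ Subgroup.closure ((Gsub : Set Gam) ∪ {aa}) := by
    rw [closure_Gsub_aa]; trivial
  induction hγ using Subgroup.closure_induction with
  | mem γ h =>
    intro x
    rcases h with h | h
    · have : (γ : K) = ((1 : Gam) : K) := by
        have := QuotientGroup.mk_mul_of_mem (1 : Gam) h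
        rwa [one_mul] at this
      rw [this]
    · rw [mem_singleton_iff.1 h]
      exact (d.T_one n x).2
  | one => intro x; exact (d.T n x).refl' _
  | mul a b _ _ ha hb =>
    intro x
    have := d.T_smul n x a (hb _)
    simp only [Vtx.smul_sp, MulAction.Quotient.smul_coe, smul_eq_mul, mul_one] at this
    exact (d.T n x).trans' (ha x) this
  | inv a _ ha =>
    intro x
    have := d.T_smul n x a⁻¹ (ha _)
    simp only [Vtx.smul_sp, MulAction.Quotient.smul_coe, smul_eq_mul, mul_one,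
      inv_mul_cancel] at this
    exact (d.T n x).symm' this

theorem T_ex_zero (n : ℕ) (x : X) (γ : Gam) :
    d.T n x (Vtx.sp ((1 : Gam) : K)) (Vtx.ex γ 0) := by
  have := d.T_smul n x γ (d.T_one n _).1
  simp only [Vtx.smul_sp, Vtx.smul_ex, MulAction.Quotient.smul_coe, smul_eq_mul, mul_one] at this
  exact (d.T n x).trans' (d.T_sp n γ x) ((d.T n x).symm' this)

theorem T_all (n : ℕ) (x : X) (v : Vtx) (hv : v ∈ range Vtx.sp ∪ glob (d.vert n) x) :
    d.T n x (Vtx.sp ((1 : Gam) : K)) v := by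
  rcases hv with ⟨q, rfl⟩ | ⟨γ, k, rfl, hk⟩
  · obtain ⟨γ, rfl⟩ := QuotientGroup.mk_surjective q
    exact d.T_sp n γ x
  · rcases hk with rfl | ⟨a, ha, rfl, hx⟩
    · exact d.T_ex_zero n x γ
    · obtain ⟨h1, h2, h3⟩ := d.mem_J.1 ha
      have hx' : (γ * (d.p a.1 a.2)⁻¹)⁻¹ • x ∈ d.A a.1 := by
        rwa [mul_inv_rev, inv_inv, mul_smul]
      have := d.T0_arc h1 hx' a.2 h3.le
      simp only [w, lab, h2, h3, and_self, if_true, Vtx.smul_ex, inv_mul_cancel_right] at this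
      exact (d.T n x).trans' (d.T_ex_zero n x _) (d.T0_le_T n x this)

theorem w_mem (n : ℕ) (x : X) {i j : ℕ} (hi : i < n) {γ : Gam} (hx : γ • x ∈ d.A i) :
    γ⁻¹ • d.w i j ∈ range Vtx.sp ∪ glob (d.vert n) x := by
  refine Or.inr ⟨γ⁻¹ * d.p i j, d.lab i j, rfl, ?_⟩
  unfold lab
  split_ifs with h
  · refine Or.inr ⟨⟨i, j⟩, d.mem_J.2 ⟨hi, h⟩, rfl, ?_⟩
    rwa [mul_inv_rev, inv_inv, smul_smul, mul_inv_cancel_left]
  · exact Or.inl rfl

theorem supp_s (n : ℕ) (x : X) (v : Vtx) (hv : v ∈ supp (d.s n x)) :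
    v ∈ range Vtx.sp ∪ glob (d.vert n) x ∧ IsEnd 1 v.base := by
  have h1 : Vtx.ex 1 0 ∈ range Vtx.sp ∪ glob (d.vert n) x ∧ IsEnd 1 (Vtx.ex 1 0).base :=
    ⟨Or.inr ⟨1, 0, rfl, Or.inl rfl⟩, Or.inl rfl⟩
  have h2 : Vtx.sp ((1 : Gam) : K) ∈ range Vtx.sp ∪ glob (d.vert n) x ∧
      IsEnd 1 (Vtx.sp ((1 : Gam) : K)).base := ⟨Or.inl ⟨_, rfl⟩, Or.inl rfl⟩
  have h3 : Vtx.sp (aa : K) ∈ range Vtx.sp ∪ glob (d.vert n) x ∧
      IsEnd 1 (Vtx.sp (aa : K)).base := ⟨Or.inl ⟨_, rfl⟩, Or.inr (by simp)⟩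
  simp only [s, s0, supp_sup, supp_iSup, mem_union, mem_iUnion] at hv
  rcases hv with (⟨a, ha⟩ | ha) | ha | ha
  · obtain ⟨hi, hj⟩ := d.mem_I.1 a.2
    obtain ⟨hx, hv⟩ := supp_cpair ha
    have hE := d.isEnd _ _ hj
    rcases hv with rfl | rfl
    · refine ⟨d.w_mem n x hi hx, ?_⟩
      have := (isEnd_smul (d.z a.1.1 a.1.2)⁻¹ _ _).2 hE.1
      rwa [inv_mul_cancel] at this
    · refine ⟨d.w_mem n x hi hx, ?_⟩
      have := (isEnd_smul (d.z a.1.1 a.1.2)⁻¹ _ _).2 hE.2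
      rwa [inv_mul_cancel] at this
  · rcases (supp_cpair ha).2 with rfl | rfl <;> assumption
  · rcases (supp_cpair ha).2 with rfl | rfl <;> assumption
  · rcases (supp_cpair ha).2 with rfl | rfl <;> assumption

theorem rk_s_le (n : ℕ) (x : X) : (rk (d.s n x) : ℝ≥0∞) ≤
    ∑ a ∈ d.I n, {y : X | d.z a.1 a.2 • y ∈ d.A a.1}.indicator 1 x + d.D.indicator 1 x +
      ((d.Bad n).indicator 1 x + (d.Bad n).indicator 1 x) := by
  have h1 : rk (d.s n x) ≤ ∑ a : d.I n, rk (d.arc x a.1.1 a.1.2) +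
      rk (cpair (x ∈ d.D) (Vtx.ex 1 0) (Vtx.sp ((1 : Gam) : K))) +
      (rk (cpair (x ∈ d.Bad n) (Vtx.ex 1 0) (Vtx.sp ((1 : Gam) : K))) +
        rk (cpair (x ∈ d.Bad n) (Vtx.sp ((1 : Gam) : K)) (Vtx.sp (aa : K)))) :=
    (rk_sup_le _ _).trans (add_le_add ((rk_sup_le _ _).trans
      (add_le_add (rk_iSup_le _) le_rfl)) (rk_sup_le _ _))
  refine (ENat.toENNReal_le.2 h1).trans ?_
  simp only [ENat.toENNReal_add]
  refine add_le_add (add_le_add ?_ (rk_cpair_le _ _ _ _))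
    (add_le_add (rk_cpair_le _ _ _ _) (rk_cpair_le _ _ _ _))
  rw [← Finset.sum_coe_sort (d.I n)]
  have : ((∑ a : d.I n, rk (d.arc x a.1.1 a.1.2) : ℕ∞) : ℝ≥0∞) =
      ∑ a : d.I n, (rk (d.arc x a.1.1 a.1.2) : ℝ≥0∞) :=
    map_sum ENat.toENNRealRingHom _ _
  rw [this]
  exact Finset.sum_le_sum fun a _ => rk_cpair_le _ _ _ _

theorem encard_vert (n : ℕ) (x : X) : ((d.vert n x).encard : ℝ≥0∞) =
    1 + ∑ a ∈ d.J n, {y : X | d.p a.1 a.2 • y ∈ d.A a.1}.indicator 1 x := by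
  classical
  have hinj : Function.Injective fun a : (Σ _ : ℕ, ℕ) => Nat.pair a.1 a.2 + 1 := by
    rintro ⟨a, b⟩ ⟨a', b'⟩ h
    have := Nat.pair_eq_pair.1 (Nat.add_right_cancel h)
    simp only at this
    rw [this.1, this.2]
  have h1 : d.vert n x = ↑(insert 0 (((d.J n).filter fun a => d.p a.1 a.2 • x ∈ d.A a.1).image
      fun a => Nat.pair a.1 a.2 + 1)) := by
    ext k
    simp only [vert, mem_ofPred_eq, Finset.coe_insert, Finset.coe_image, Finset.coe_filter,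
      mem_insert_iff, mem_image]
    refine or_congr Iff.rfl ⟨?_, ?_⟩
    · rintro ⟨a, ha, rfl, h⟩; exact ⟨a, ⟨ha, h⟩, rfl⟩
    · rintro ⟨a, ⟨ha, h⟩, rfl⟩; exact ⟨a, ha, rfl, h⟩
  rw [h1, encard_coe_eq_coe_finsetCard, Finset.card_insert_of_notMem (by simp),
    Finset.card_image_of_injective _ hinj, Finset.card_filter]
  rw [ENat.toENNReal_coe]
  simp only [Nat.cast_add, Nat.cast_sum, Nat.cast_ite, Nat.cast_one, Nat.cast_zero, add_comm]
  congr 1

variable [MeasurableSpace X] {μ : Measure X}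

theorem measS_s0 (hX : IsFreePMPAction Gam X μ) (hA : ∀ i, MeasurableSet (d.A i))
    (hD : MeasurableSet d.D) (n : ℕ) : MeasS (d.s0 n) := by
  refine MeasS.sup (MeasS.iSup fun a => ?_) (measS_cpair hD _ _)
  exact measS_cpair (measurable_smul_of hX _ (hA _)) _ _

theorem measurableSet_Bad (hX : IsFreePMPAction Gam X μ) (hA : ∀ i, MeasurableSet (d.A i))
    (hD : MeasurableSet d.D) (n : ℕ) : MeasurableSet (d.Bad n) := by
  have : MeasS (d.T0 n) := MeasS.iSup fun γ => MeasS.trS hX (d.measS_s0 hX hA hD n) γ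
  exact ((this _ _).inter (this _ _)).compl

theorem measS_s (hX : IsFreePMPAction Gam X μ) (hA : ∀ i, MeasurableSet (d.A i))
    (hD : MeasurableSet d.D) (n : ℕ) : MeasS (d.s n) :=
  MeasS.sup (d.measS_s0 hX hA hD n) (MeasS.sup (measS_cpair (d.measurableSet_Bad hX hA hD n) _ _)
    (measS_cpair (d.measurableSet_Bad hX hA hD n) _ _))

theorem measL_vert (hX : IsFreePMPAction Gam X μ) (hA : ∀ i, MeasurableSet (d.A i)) (n : ℕ) :
    MeasL (d.vert n) := by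
  intro k
  have : {x | k ∈ d.vert n x} = {x | k = 0} ∪ ⋃ a ∈ d.J n,
      ({x | k = Nat.pair a.1 a.2 + 1} ∩ {x | d.p a.1 a.2 • x ∈ d.A a.1}) := by
    ext x; simp only [vert, mem_ofPred_eq, mem_union, mem_iUnion, mem_inter_iff, exists_prop]
  rw [this]
  refine (MeasurableSet.const _).union (Finset.measurableSet_biUnion _ fun a _ => ?_)
  exact (MeasurableSet.const _).inter (measurable_smul_of hX _ (hA _))

/-- the structure -/
def str (hX : IsFreePMPAction Gam X μ) (hA : ∀ i, MeasurableSet (d.A i))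
    (hD : MeasurableSet d.D) (n : ℕ) : Str X where
  s := d.s n
  m := fun _ => 0
  vert := d.vert n
  meas_s := d.measS_s hX hA hD n
  meas_m := measurable_const
  meas_vert := d.measL_vert hX hA n

theorem lintegral_ind (hX : IsFreePMPAction Gam X μ) (hA : ∀ i, MeasurableSet (d.A i))
    (S : Finset (Σ _ : ℕ, ℕ)) (q : ℕ → ℕ → Gam) :
    ∫⁻ x, ∑ a ∈ S, {y : X | q a.1 a.2 • y ∈ d.A a.1}.indicator 1 x ∂μ = ∑ a ∈ S, μ (d.A a.1) := by
  have hm : ∀ a : (Σ _ : ℕ, ℕ), MeasurableSet {y : X | q a.1 a.2 • y ∈ d.A a.1} := fun a =>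
    measurable_smul_of hX _ (hA _)
  rw [lintegral_finsetSum _ fun a _ => measurable_one.indicator (hm a)]
  refine Finset.sum_congr rfl fun a _ => ?_
  rw [lintegral_indicator_one (hm a)]
  exact (hX.1 _).measure_preimage (hA _).nullMeasurableSet

theorem E_le (hX : IsFreePMPAction Gam X μ) (hA : ∀ i, MeasurableSet (d.A i))
    (hD : MeasurableSet d.D) (n : ℕ) : (d.str hX hA hD n).E μ ≤
      ∑ a ∈ d.I n, μ (d.A a.1) + μ d.D + (μ (d.Bad n) + μ (d.Bad n)) := by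
  have hB := d.measurableSet_Bad hX hA hD n
  refine (lintegral_mono fun x => d.rk_s_le n x).trans ?_
  rw [lintegral_add_right _ ((measurable_one.indicator hB).fun_add (measurable_one.indicator hB)),
    lintegral_add_right _ (measurable_one.indicator hD),
    lintegral_add_right _ (measurable_one.indicator hB), lintegral_indicator_one hB,
    lintegral_indicator_one hD, d.lintegral_ind hX hA]

theorem V_eq [IsProbabilityMeasure μ] (hX : IsFreePMPAction Gam X μ)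
    (hA : ∀ i, MeasurableSet (d.A i)) (hD : MeasurableSet d.D) (n : ℕ) :
    (d.str hX hA hD n).V μ = 1 + ∑ a ∈ d.J n, μ (d.A a.1) := by
  refine (lintegral_congr fun x => d.encard_vert n x).trans ?_
  rw [lintegral_add_left measurable_const, d.lintegral_ind hX hA]
  simp

omit [MulAction Gam X] in
theorem sum_I (n : ℕ) : ∑ a ∈ d.I n, μ (d.A a.1) =
    ∑ a ∈ d.J n, μ (d.A a.1) + ∑ i ∈ Finset.range n, μ (d.A i) := by
  rw [I, J, Finset.sum_sigma, Finset.sum_sigma, ← Finset.sum_add_distrib]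
  refine Finset.sum_congr rfl fun i _ => ?_
  have := d.l_pos i
  simp only [Finset.sum_const, Finset.card_range, Nat.card_Ioo, Nat.sub_zero]
  rw [← succ_nsmul]
  congr 1
  omega

theorem valid [IsProbabilityMeasure μ] (hX : IsFreePMPAction Gam X μ)
    (hA : ∀ i, MeasurableSet (d.A i)) (hD : MeasurableSet d.D) (n : ℕ) :
    Valid μ (d.str hX hA hD n) where
  supp := Filter.Eventually.of_forall fun x v hv => d.supp_s n x v hv
  conn := Filter.Eventually.of_forall fun x u hu v hv =>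
    (d.T n x).trans' ((d.T n x).symm' (d.T_all n x u hu)) (d.T_all n x v hv)
  cyc := Filter.Eventually.of_forall fun x => by
    have := rk_iSup_le fun i => trS (d.s n) x (sig i)
    rw [← trJ_one] at this
    simpa [str] using this
  E_lt := (d.E_le hX hA hD n).trans_lt (by
    refine ENNReal.add_lt_top.2 ⟨ENNReal.add_lt_top.2 ⟨?_, measure_lt_top _ _⟩,
      ENNReal.add_lt_top.2 ⟨measure_lt_top _ _, measure_lt_top _ _⟩⟩
    exact ENNReal.sum_lt_top.2 fun a _ => measure_lt_top _ _)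
  V_lt := by
    rw [d.V_eq hX hA hD n]
    exact ENNReal.add_lt_top.2 ⟨by simp, ENNReal.sum_lt_top.2 fun a _ => measure_lt_top _ _⟩
  M_le := by simp [Str.M, str]

end Dat

end Start

variable {X : Type} [MeasurableSpace X] [StandardBorelSpace X] [MulAction Gam X]
  {μ : Measure X} [IsProbabilityMeasure μ]

theorem exists_start (hX : IsFreePMPAction Gam X μ) (hmark : HasMarkers μ) {c η : ℝ}
    (hc : 0 ≤ c) (hη : 0 < η) (hcost : actionCost Gam X μ < 1 + ENNReal.ofReal c) :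
    ∃ Y : Str X, Valid μ Y ∧ Y.df μ ≤ c + η := by
  obtain ⟨_, ⟨Φ, ⟨hA, N, hN, hgen⟩, rfl⟩, hΦ⟩ := sInf_lt_iff.1 hcost
  have hη3 : 0 < ENNReal.ofReal (η / 3) := ENNReal.ofReal_pos.2 (by positivity)
  obtain ⟨D, hD, hDη, hDm⟩ := hmark _ hη3
  choose l p z hl hp0 hpl hE using fun i => exists_path (Φ i).1⁻¹
  let d : Start.Dat X := ⟨fun i => (Φ i).1, fun i => (Φ i).2, l, p, z, D, hl, hp0, hpl, hE⟩
  have hA' : ∀ i, MeasurableSet (d.A i) := hA
  have hD' : MeasurableSet d.D := hD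
  have hnull : μ (⋂ n, d.Bad n) = 0 := by
    have h1 : ∀ᵐ x ∂μ, x ∉ N := measure_eq_zero_iff_ae_notMem.1 hN
    rw [measure_eq_zero_iff_ae_notMem]
    filter_upwards [h1, ae_free hX, ae_forall_smul hX hDm] with x h1 h2 h3
    obtain ⟨n, hn⟩ := d.exists_not_bad x h2 (hgen x h1) h3
    exact fun h => hn (mem_iInter.1 h n)
  have htend := tendsto_measure_iInter_atTop (μ := μ)
    (fun n => (d.measurableSet_Bad hX hA' hD' n).nullMeasurableSet) d.Bad_anti
    ⟨0, measure_ne_top _ _⟩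
  rw [hnull] at htend
  obtain ⟨n, hn⟩ := (htend.eventually (gt_mem_nhds hη3)).exists
  refine ⟨d.str hX hA' hD' n, d.valid hX hA' hD' n, ?_⟩
  have hE := d.E_le hX hA' hD' n
  have hV := d.V_eq hX hA' hD' n
  have hS : ∑ i ∈ Finset.range n, μ (d.A i) ≤ 1 + ENNReal.ofReal c :=
    (ENNReal.sum_le_tsum _).trans hΦ.le
  rw [d.sum_I] at hE
  set R := ∑ a ∈ d.J n, μ (d.A a.1) with hR
  have hRtop : R ≠ ∞ := (ENNReal.sum_lt_top.2 fun a _ => measure_lt_top _ _).ne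
  have hE' : (d.str hX hA' hD' n).E μ ≤ R + (1 + ENNReal.ofReal c) + ENNReal.ofReal (η / 3) +
      (ENNReal.ofReal (η / 3) + ENNReal.ofReal (η / 3)) :=
    hE.trans (add_le_add (add_le_add (add_le_add le_rfl hS) hDη) (add_le_add hn.le hn.le))
  have hE'' := ENNReal.toReal_mono (by simp [hRtop]) hE'
  have hM : (d.str hX hA' hD' n).M μ = 0 := by simp [Str.M, Start.Dat.str]
  rw [ENNReal.toReal_add (by simp [hRtop]) (by simp), ENNReal.toReal_add (by simp [hRtop]) (by simp),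
    ENNReal.toReal_add hRtop (by simp), ENNReal.toReal_add (by simp) (by simp),
    ENNReal.toReal_add (by simp) (by simp), ENNReal.toReal_ofReal hc,
    ENNReal.toReal_ofReal (by positivity), ENNReal.toReal_one] at hE''
  unfold Str.df Str.Phi
  rw [hV, hM, ENNReal.toReal_add (by simp) hRtop, ENNReal.toReal_one, ENNReal.toReal_zero]
  linarith

end Crest.Agent.R191
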