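import Crest.Agent.R191.Force
import Crest.Agent.R191.Start

/-! The lower bound for the cost. -/

set_option autoImplicit false

open MeasureTheory Set Crest.Dynamics
open scoped ENNReal

namespace Crest.Agent.R191

variable {X : Type} [MeasurableSpace X] [StandardBorelSpace X] [MulAction Gam X]
  {μ : Measure X} [IsProbabilityMeasure μ]

omit [StandardBorelSpace X] [IsProbabilityMeasure μ] in
theorem Lower.M_real_le {Y : Str X} (hY : Valid μ Y) : (Y.M μ).toReal ≤ 1 / 100 := by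
  have := ENNReal.toReal_mono (by simp) hY.M_le
  simpa using this

omit [StandardBorelSpace X] [IsProbabilityMeasure μ] in
/-- pigeonhole: a near-minimiser with some room in the deficiency -/
theorem Lower.exists_min (Y : Str X) (hY : Valid μ Y) (hdf : Y.df μ ≤ 1 / 500) :
    ∃ (Y₀ : Str X) (ε : ℝ), Valid μ Y₀ ∧ Y₀.df μ < ε ∧ ε ≤ 1 / 250 ∧
      ∀ Y' : Str X, Valid μ Y' → Y'.df μ ≤ ε → Y₀.Phi μ - 1 / 2000 ≤ Y'.Phi μ := by
  by_contra hcon
  push Not at hcon
  have key : ∀ n : ℕ, ∃ Z : Str X, Valid μ Z ∧ Z.df μ ≤ 1 / 250 - 1 / (500 * ((n : ℝ) + 1)) ∧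
      Z.Phi μ ≤ Y.Phi μ - n / 2000 := by
    intro n
    induction n with
    | zero => exact ⟨Y, hY, by norm_num; linarith, by simp⟩
    | succ n ih =>
      obtain ⟨Z, h1, h2, h3⟩ := ih
      have hn : (0 : ℝ) ≤ n := Nat.cast_nonneg n
      have hlt : 1 / (500 * (((n + 1 : ℕ) : ℝ) + 1)) < 1 / (500 * ((n : ℝ) + 1)) := by
        apply one_div_lt_one_div_of_lt (by positivity)
        push_cast; linarith
      have hpos : 0 < 1 / (500 * (((n + 1 : ℕ) : ℝ) + 1)) := by positivity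
      obtain ⟨Z', h4, h5, h6⟩ := hcon Z (1 / 250 - 1 / (500 * (((n + 1 : ℕ) : ℝ) + 1))) h1
        (by linarith) (by linarith)
      refine ⟨Z', h4, h5, ?_⟩
      push_cast; linarith
  obtain ⟨n, hn⟩ := exists_nat_gt (2000 * (Y.Phi μ + 1))
  obtain ⟨Z, h1, -, h3⟩ := key n
  have h4 := Lower.M_real_le h1
  have h5 : 0 ≤ (Z.E μ).toReal := ENNReal.toReal_nonneg
  unfold Str.Phi at h3 hn
  linarith

theorem lower_bound (hX : IsFreePMPAction Gam X μ) (hexp : Expands μ) (hcov : SmallCover μ)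
    (hmark : HasMarkers μ) : 1 + ENNReal.ofReal (1 / 1000) ≤ actionCost Gam X μ := by
  by_contra hlt
  obtain ⟨Y, hY, hdf⟩ := exists_start hX hmark (c := 1 / 1000) (η := 1 / 1000) (by norm_num)
    (by norm_num) (not_le.1 hlt)
  obtain ⟨Y₀, ε, h1, h2, h3, h4⟩ := Lower.exists_min Y hY (by linarith)
  obtain ⟨Z, h5, h6, h7, h8⟩ := force hX hexp hcov Y₀ h1 h2 h3 h4
  have hmin : NearMin μ (1 / 2000) Z := fun Y' hY' hd => by
    have := h4 Y' hY' (hd.trans h6.le)
    linarith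
  obtain ⟨h9, h10⟩ := rrob_real hX Z h5 (by norm_num) hmin
  have h11 := ENNReal.toReal_mono h9 (h8.trans (special_le hX Z))
  have h12 := Lower.M_real_le h5
  have h13 : ((1 / 2 : ℝ≥0∞)).toReal = 1 / 2 := by simp
  rw [h13] at h11
  linarith

end Crest.Agent.R191
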