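import Crest.Agent.R191.Equiv

/-! Measurability toolkit and the mass transport principle. -/

set_option autoImplicit false

open MeasureTheory Set Crest.Dynamics
open scoped ENNReal

namespace Crest.Agent.R191

section
variable {X : Type} [MeasurableSpace X]

theorem measurable_encard_enat {ι : Type*} [Countable ι] (A : X → Set ι)
    (hA : ∀ i, MeasurableSet {x | i ∈ A x}) : Measurable fun x => (A x).encard :=
  measurable_encard.comp (measurable_set_iff.2 fun i => measurableSet_setOfPred.1 (hA i))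

theorem measurable_encard_of {ι : Type*} [Countable ι] (A : X → Set ι)
    (hA : ∀ i, MeasurableSet {x | i ∈ A x}) : Measurable fun x => ((A x).encard : ℝ≥0∞) := by
  exact (Measurable.of_discrete (f := fun n : ℕ∞ => (n : ℝ≥0∞))).comp (measurable_encard_enat A hA)

theorem measurableSet_encard_le {ι : Type*} [Countable ι] (A : X → Set ι)
    (hA : ∀ i, MeasurableSet {x | i ∈ A x}) (n : ℕ∞) : MeasurableSet {x | (A x).encard ≤ n} := by
  exact measurable_encard_enat A hA (MeasurableSet.of_discrete (s := {m : ℕ∞ | m ≤ n}))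

theorem measurableSet_encard_eq {ι : Type*} [Countable ι] (A : X → Set ι)
    (hA : ∀ i, MeasurableSet {x | i ∈ A x}) (n : ℕ∞) : MeasurableSet {x | (A x).encard = n} := by
  exact measurable_encard_enat A hA (MeasurableSet.of_discrete (s := {m : ℕ∞ | m = n}))

theorem encard_eq_tsum {ι : Type*} (A : Set ι) :
    (A.encard : ℝ≥0∞) = ∑' i, A.indicator (fun _ => (1 : ℝ≥0∞)) i := by
  rw [← ENNReal.tsum_set_one, ← tsum_subtype]

theorem encard_prod_eq_tsum {α β : Type*} (P : α → β → Prop) :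
    ({p : α × β | P p.1 p.2}.encard : ℝ≥0∞) = ∑' a, ({b | P a b}.encard : ℝ≥0∞) := by
  rw [encard_eq_tsum, ENNReal.tsum_prod']
  refine tsum_congr fun a => ?_
  rw [encard_eq_tsum]
  rfl

/-- the stages of the equivalence closure -/
def eqvStep {V : Type*} (R : V → V → Prop) : ℕ → V → V → Prop
  | 0 => fun u v => u = v ∨ R u v
  | n + 1 => fun u v => eqvStep R n u v ∨ eqvStep R n v u ∨ ∃ w, eqvStep R n u w ∧ eqvStep R n w v

theorem eqvStep_mono {V : Type*} (R : V → V → Prop) {n m : ℕ} (h : n ≤ m) {u v : V}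
    (huv : eqvStep R n u v) : eqvStep R m u v := by
  induction h with
  | refl => exact huv
  | step _ ih => exact Or.inl ih

theorem eqvGen_iff_exists_step {V : Type*} (R : V → V → Prop) (u v : V) :
    Relation.EqvGen R u v ↔ ∃ n, eqvStep R n u v := by
  constructor
  · intro h
    induction h with
    | rel a b h => exact ⟨0, Or.inr h⟩
    | refl a => exact ⟨0, Or.inl rfl⟩
    | symm a b _ ih =>
      obtain ⟨n, hn⟩ := ih
      exact ⟨n + 1, Or.inr (Or.inl hn)⟩
    | trans a b c _ _ ih ih' =>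
      obtain ⟨n, hn⟩ := ih
      obtain ⟨m, hm⟩ := ih'
      exact ⟨max n m + 1, Or.inr (Or.inr ⟨b, eqvStep_mono R (le_max_left _ _) hn,
        eqvStep_mono R (le_max_right _ _) hm⟩)⟩
  · rintro ⟨n, hn⟩
    induction n generalizing u v with
    | zero =>
      rcases hn with rfl | hn
      · exact Relation.EqvGen.refl _
      · exact Relation.EqvGen.rel _ _ hn
    | succ n ih =>
      rcases hn with hn | hn | ⟨w, h1, h2⟩
      · exact ih _ _ hn
      · exact Relation.EqvGen.symm _ _ (ih _ _ hn)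
      · exact Relation.EqvGen.trans _ _ _ (ih _ _ h1) (ih _ _ h2)

theorem measurableSet_eqvGen {V : Type*} [Countable V] (R : X → V → V → Prop)
    (hR : ∀ u v, MeasurableSet {x | R x u v}) (u v : V) :
    MeasurableSet {x | Relation.EqvGen (R x) u v} := by
  have key : ∀ n u v, Measurable fun x => eqvStep (R x) n u v := by
    intro n
    induction n with
    | zero => exact fun u v => measurable_const.or (measurableSet_setOfPred.1 (hR u v))
    | succ n ih =>
      exact fun u v => (ih u v).or ((ih v u).or (Measurable.exists fun w => (ih u w).and (ih w v)))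
  simp only [eqvGen_iff_exists_step]
  exact (Measurable.exists fun n => key n u v).setOf

/-- substituting a measurable function with values in a countable type -/
theorem measurableSet_subst {ι : Type*} [Countable ι] (P : X → ι → Prop)
    (hP : ∀ i, MeasurableSet {x | P x i}) (f : X → ι) (hf : ∀ i, MeasurableSet {x | f x = i}) :
    MeasurableSet {x | P x (f x)} := by
  have : {x | P x (f x)} = ⋃ i, {x | f x = i} ∩ {x | P x i} := by
    ext x; simp
  rw [this]
  exact MeasurableSet.iUnion fun i => (hf i).inter (hP i)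

theorem exists_measurable_choice {ι : Type*} [Countable ι] (P : X → ι → Prop)
    (hP : ∀ i, MeasurableSet {x | P x i}) (h : ∀ x, ∃ i, P x i) :
    ∃ f : X → ι, (∀ i, MeasurableSet {x | f x = i}) ∧ ∀ x, P x (f x) := by
  classical
  obtain ⟨e, he⟩ := exists_injective_nat ι
  have h' : ∀ x, ∃ n, ∃ i, e i = n ∧ P x i := fun x => by
    obtain ⟨i, hi⟩ := h x
    exact ⟨e i, i, rfl, hi⟩
  have hm : Measurable fun x => Nat.find (h' x) :=
    measurable_find h' fun n =>
      (Measurable.exists fun i => measurable_const.and (measurableSet_setOfPred.1 (hP i))).setOf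
  refine ⟨fun x => (Nat.find_spec (h' x)).choose, fun i => ?_,
    fun x => (Nat.find_spec (h' x)).choose_spec.2⟩
  have : {x | (Nat.find_spec (h' x)).choose = i} = {x | Nat.find (h' x) = e i} := by
    ext x
    have := (Nat.find_spec (h' x)).choose_spec.1
    simp only [mem_ofPred_eq]
    constructor
    · intro hx
      rw [← hx, this]
    · intro hx
      exact he (this.trans hx)
  rw [this]
  exact hm (measurableSet_singleton (e i))

theorem MeasS.rk {s : X → Setoid Vtx} (hs : MeasS s) :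
    Measurable fun x => (rk (s x) : ℝ≥0∞) := by
  obtain ⟨e, he⟩ := exists_injective_nat Vtx
  simp only [rk_eq_encard_lt _ e he]
  exact measurable_encard_of _ fun v =>
    (Measurable.exists fun u => measurable_const.and (measurableSet_setOfPred.1 (hs u v))).setOf

theorem MeasS.supp {s : X → Setoid Vtx} (hs : MeasS s) (v : Vtx) :
    MeasurableSet {x | v ∈ supp (s x)} :=   (Measurable.exists fun u => measurable_const.and (measurableSet_setOfPred.1 (hs u v))).setOf

theorem MeasS.iSup {ι : Type*} [Countable ι] {s : ι → X → Setoid Vtx} (hs : ∀ i, MeasS (s i)) :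
    MeasS fun x => ⨆ i, s i x := by
  intro u v
  simp only [iSup_rel_iff]
  exact measurableSet_eqvGen (fun x a b => ∃ i, s i x a b)
    (fun a b => (Measurable.exists fun i => measurableSet_setOfPred.1 (hs i a b)).setOf) u v

theorem MeasS.sup {s t : X → Setoid Vtx} (hs : MeasS s) (ht : MeasS t) :
    MeasS fun x => s x ⊔ t x := by
  have := MeasS.iSup (ι := Bool) (s := fun b x => bif b then s x else t x) (by
    intro b; cases b
    · exact ht
    · exact hs)
  simpa only [← sup_eq_iSup] using this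

theorem MeasS.map {s : X → Setoid Vtx} (hs : MeasS s) (ρ : X → Vtx → Vtx)
    (hρ : ∀ v w, MeasurableSet {x | ρ x v = w}) : MeasS fun x => (s x).map (ρ x) := by
  intro u v
  exact measurableSet_eqvGen (fun x => Relation.Map (s x) (ρ x) (ρ x))
    (fun a b => (Measurable.exists fun c => Measurable.exists fun d =>
      (measurableSet_setOfPred.1 (hs c d)).and ((measurableSet_setOfPred.1 (hρ c a)).and
        (measurableSet_setOfPred.1 (hρ d b)))).setOf) u v

theorem MeasS.del {s : X → Setoid Vtx} (hs : MeasS s) (P : X → Set Vtx)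
    (hP : ∀ v, MeasurableSet {x | v ∈ P x}) : MeasS fun x => del (s x) (P x) := by
  intro u v
  exact (measurable_const.or ((measurableSet_setOfPred.1 (hs u v)).and
    ((measurableSet_setOfPred.1 (hP u)).not.and (measurableSet_setOfPred.1 (hP v)).not))).setOf

theorem MeasS.pairS (u v : X → Vtx) (hu : ∀ w, MeasurableSet {x | u x = w})
    (hv : ∀ w, MeasurableSet {x | v x = w}) : MeasS fun x => pairS (u x) (v x) := by
  intro a b
  refine measurableSet_eqvGen (fun x c d => c = u x ∧ d = v x) (fun c d => ?_) a b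
  simp only [@eq_comm _ c, @eq_comm _ d]
  exact (hu c).inter (hv d)

theorem MeasS.apply {s : X → Setoid Vtx} (hs : MeasS s) (u v : X → Vtx)
    (hu : ∀ w, MeasurableSet {x | u x = w}) (hv : ∀ w, MeasurableSet {x | v x = w}) :
    MeasurableSet {x | s x (u x) (v x)} := by
  refine measurableSet_subst (fun x a => s x a (v x)) (fun a => ?_) u hu
  exact measurableSet_subst (fun x b => s x a b) (fun b => hs a b) v hv

end

section
variable {X : Type} [MeasurableSpace X] [MulAction Gam X] {μ : Measure X}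

theorem measurable_smul_of (hX : IsFreePMPAction Gam X μ) (g : Gam) :
    Measurable fun x : X => g • x := (hX.1 g).measurable

theorem measurableSet_smul_of (hX : IsFreePMPAction Gam X μ) (g : Gam) {P : X → Prop}
    (hP : MeasurableSet {x | P x}) : MeasurableSet {x | P (g • x)} :=   measurable_smul_of hX g hP

theorem measure_smul_of (hX : IsFreePMPAction Gam X μ) (g : Gam) {P : X → Prop}
    (hP : MeasurableSet {x | P x}) : μ {x | P (g • x)} = μ {x | P x} :=   (hX.1 g).measure_preimage hP.nullMeasurableSet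

theorem lintegral_smul_of (hX : IsFreePMPAction Gam X μ) (g : Gam) {f : X → ℝ≥0∞}
    (hf : Measurable f) : ∫⁻ x, f (g • x) ∂μ = ∫⁻ x, f x ∂μ :=   (hX.1 g).lintegral_comp hf

theorem ae_forall_smul (hX : IsFreePMPAction Gam X μ) {p : X → Prop} (h : ∀ᵐ x ∂μ, p x) :
    ∀ᵐ x ∂μ, ∀ g : Gam, p (g • x) :=   ae_all_iff.2 fun g => (hX.1 g).quasiMeasurePreserving.ae h

theorem ae_free (hX : IsFreePMPAction Gam X μ) : ∀ᵐ x ∂μ, ∀ g : Gam, g • x = x → g = 1 := by
  refine ae_all_iff.2 fun g => ?_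
  by_cases hg : g = 1
  · exact Filter.Eventually.of_forall fun _ _ => hg
  · have := hX.2 g hg
    rw [measure_eq_zero_iff_ae_notMem] at this
    filter_upwards [this] with x hx h
    exact absurd h hx

/-- the mass transport principle -/
theorem mtp (hX : IsFreePMPAction Gam X μ) (f : X → Gam → ℝ≥0∞)
    (hf : ∀ γ, Measurable fun x => f x γ) :
    ∫⁻ x, ∑' γ, f x γ ∂μ = ∫⁻ x, ∑' γ, f (γ⁻¹ • x) γ⁻¹ ∂μ := by
  rw [lintegral_tsum fun γ => (hf γ).aemeasurable,
    lintegral_tsum (f := fun γ x => f (γ⁻¹ • x) γ⁻¹)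
      fun γ => ((hf γ⁻¹).comp (measurable_smul_of hX γ⁻¹)).aemeasurable]
  rw [← (Equiv.inv Gam).tsum_eq]
  refine tsum_congr fun γ => ?_
  exact (lintegral_smul_of hX γ⁻¹ (hf γ⁻¹)).symm

/-- the mass transport principle for counting -/
theorem mtp_encard (hX : IsFreePMPAction Gam X μ) {ι : Type*} [Countable ι]
    (P : X → Gam → ι → Prop) (hP : ∀ γ i, MeasurableSet {x | P x γ i}) :
    ∫⁻ x, ({p : Gam × ι | P x p.1 p.2}.encard : ℝ≥0∞) ∂μ =
      ∫⁻ x, ({p : Gam × ι | P (p.1⁻¹ • x) p.1⁻¹ p.2}.encard : ℝ≥0∞) ∂μ := by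
  have h1 : ∀ x : X, ({p : Gam × ι | P (p.1⁻¹ • x) p.1⁻¹ p.2}.encard : ℝ≥0∞) =
      ∑' γ : Gam, ({i | P (γ⁻¹ • x) γ⁻¹ i}.encard : ℝ≥0∞) :=
    fun x => encard_prod_eq_tsum fun γ i => P (γ⁻¹ • x) γ⁻¹ i
  simp only [h1, encard_prod_eq_tsum]
  exact mtp hX (fun x γ => ({i | P x γ i}.encard : ℝ≥0∞))
    fun γ => measurable_encard_of _ fun i => hP γ i

theorem MeasS.trS (hX : IsFreePMPAction Gam X μ) {s : X → Setoid Vtx} (hs : MeasS s) (γ : Gam) :
    MeasS fun x => trS s x γ :=   fun u v => measurableSet_smul_of hX γ⁻¹ (P := fun y => s y (γ⁻¹ • u) (γ⁻¹ • v)) (hs _ _)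

theorem MeasS.trJ (hX : IsFreePMPAction Gam X μ) {s : X → Setoid Vtx} (hs : MeasS s) (c : Gam) :
    MeasS fun x => trJ s x c :=   MeasS.iSup fun i => hs.trS hX (c * sig i)

theorem MeasL.glob (hX : IsFreePMPAction Gam X μ) {A : X → Set ℕ} (hA : MeasL A) (v : Vtx) :
    MeasurableSet {x | v ∈ glob A x} := by
  cases v with
  | sp q => simp [sp_notMem_glob]
  | ex γ k =>
    simp only [ex_mem_glob]
    exact measurableSet_smul_of hX γ⁻¹ (P := fun y => k ∈ A y) (hA k)

theorem measurableSet_relab (hX : IsFreePMPAction Gam X μ) {τ : X → ℕ → Vtx}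
    (hτ : ∀ k v, MeasurableSet {x | τ x k = v}) (v w : Vtx) :
    MeasurableSet {x | relab τ x v = w} := by
  cases v with
  | sp q => exact MeasurableSet.const (Vtx.sp q = w)
  | ex γ k =>
    have : {x | relab τ x (Vtx.ex γ k) = w} = {x | τ (γ⁻¹ • x) k = γ⁻¹ • w} := by
      ext x
      change γ • τ (γ⁻¹ • x) k = w ↔ τ (γ⁻¹ • x) k = γ⁻¹ • w
      rw [eq_inv_smul_iff]
    rw [this]
    exact measurableSet_smul_of hX γ⁻¹ (P := fun y => τ y k = γ⁻¹ • w) (hτ k _)

theorem Str.measurableSet_Vert (hX : IsFreePMPAction Gam X μ) (Y : Str X) (v : Vtx) :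
    MeasurableSet {x | v ∈ Y.Vert x} :=   (MeasurableSet.const (v ∈ Set.range Vtx.sp)).union (Y.meas_vert.glob hX v)

theorem Str.measurableSet_deg_le (hX : IsFreePMPAction Gam X μ) (Y : Str X) (k : ℕ) (n : ℕ∞) :
    MeasurableSet {x | Y.deg x k ≤ n} :=   measurableSet_encard_le _ (fun z => (Y.meas_s.trS hX z).supp _) n

theorem Str.measL_leaf (hX : IsFreePMPAction Gam X μ) (Y : Str X) : MeasL Y.leaf := fun k =>
  (Y.meas_vert k).inter (measurableSet_encard_eq _ (fun z => (Y.meas_s.trS hX z).supp _) 1)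

theorem Str.measL_weak (hX : IsFreePMPAction Gam X μ) (Y : Str X) : MeasL Y.weak := fun k =>
  (Y.meas_vert k).inter (Y.measurableSet_deg_le hX k 2)

theorem Str.measS_srob (hX : IsFreePMPAction Gam X μ) (Y : Str X) : MeasS Y.srob :=   Y.meas_s.del _ fun v => (Y.measL_weak hX).glob hX v

theorem Str.measurableSet_bad (Y : Str X) : MeasurableSet {x | Y.Bad x} :=   (Measurable.exists fun u => Measurable.exists fun v => measurable_const.and
    (measurable_const.and (measurableSet_setOfPred.1 (Y.meas_s u v)))).setOf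

theorem Str.measurableSet_badPoly (hX : IsFreePMPAction Gam X μ) (Y : Str X) :
    MeasurableSet {x | Y.BadPoly x} :=   (Measurable.exists fun i => measurableSet_setOfPred.1
    (measurableSet_smul_of hX (sig i)⁻¹ Y.measurableSet_bad)).setOf

theorem exists_key_eq [StandardBorelSpace X] (hX : IsFreePMPAction Gam X μ) (v : Vtx) :
    ∃ (f : X → ℝ) (n : ℕ), Measurable f ∧ ∀ x : X, key x v = toLex (f x, n) := by
  cases v with
  | sp q => exact ⟨fun _ => 0, 0, measurable_const, fun _ => rfl⟩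
  | ex γ k =>
    exact ⟨fun x => embeddingReal X (γ⁻¹ • x), k,
      (measurableEmbedding_embeddingReal X).measurable.comp (measurable_smul_of hX γ⁻¹),
      fun _ => rfl⟩

theorem measurableSet_key_lt [StandardBorelSpace X] (hX : IsFreePMPAction Gam X μ) (v w : Vtx) :
    MeasurableSet {x : X | key x v < key x w} := by
  obtain ⟨f, n, hf, h⟩ := exists_key_eq hX v
  obtain ⟨g, m, hg, h'⟩ := exists_key_eq hX w
  simp only [h, h', Prod.Lex.toLex_lt_toLex]
  exact (measurableSet_lt hf hg).union ((measurableSet_eq_fun hf hg).inter (MeasurableSet.const _))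

theorem measurableSet_key_le [StandardBorelSpace X] (hX : IsFreePMPAction Gam X μ) (v w : Vtx) :
    MeasurableSet {x : X | key x v ≤ key x w} := by
  simp only [← not_lt]
  exact (measurableSet_key_lt hX w v).compl

/-- the support condition on every variable -/
theorem Valid.supp_all (hX : IsFreePMPAction Gam X μ) {Y : Str X} (hY : Valid μ Y) :
    ∀ᵐ x ∂μ, ∀ γ, ∀ v ∈ R191.supp (Y.S x γ), v ∈ Y.Vert x ∧ IsEnd γ v.base := by
  filter_upwards [ae_forall_smul hX hY.supp] with x hx γ v hv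
  rw [mem_supp_trS] at hv
  obtain ⟨h1, h2⟩ := hx γ⁻¹ _ hv
  rw [Str.smul_mem_Vert] at h1
  refine ⟨h1, ?_⟩
  rw [← isEnd_smul γ⁻¹, inv_mul_cancel, ← Vtx.base_smul]
  exact h2

theorem Valid.rk_ne_top (hX : IsFreePMPAction Gam X μ) {Y : Str X} (hY : Valid μ Y) :
    ∀ᵐ x ∂μ, ∀ γ, rk (Y.S x γ) ≠ ⊤ := by
  have h1 : ∀ᵐ x ∂μ, (rk (Y.s x) : ℝ≥0∞) < ∞ := ae_lt_top Y.meas_s.rk hY.E_lt.ne
  filter_upwards [ae_forall_smul hX h1] with x hx γ
  rw [rk_trS]
  exact (ENat.toENNReal_lt_top.1 (hx γ⁻¹)).ne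

/-- every extra vertex has degree at least one -/
theorem Valid.one_le_deg (hX : IsFreePMPAction Gam X μ) {Y : Str X} (hY : Valid μ Y) :
    ∀ᵐ x ∂μ, ∀ k ∈ Y.vert x, 1 ≤ Y.deg x k := by
  filter_upwards [hY.conn] with x hx k hk
  have h1 : Vtx.ex 1 k ∈ Y.Vert x := by
    rw [Str.ex_mem_Vert, inv_one, one_smul]; exact hk
  have h2 := hx _ h1 _ (Y.sp_mem_Vert x ((1 : Gam) : K))
  have h3 := (mem_supp_of_rel h2 (by simp)).1
  rw [supp_iSup, mem_iUnion] at h3
  exact one_le_encard_iff_nonempty.2 h3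

/-- mass transport for slots: the extra vertices with labels in `A` met by the variable `1`
versus the degrees of the vertices with labels in `A` located at `1` -/
theorem lintegral_slots (hX : IsFreePMPAction Gam X μ) (Y : Str X) {A : X → Set ℕ}
    (hA : MeasL A) :
    ∫⁻ x, ((supp (Y.s x) ∩ glob A x).encard : ℝ≥0∞) ∂μ =
      ∫⁻ x, ∑' k, (A x).indicator (fun k => (Y.deg x k : ℝ≥0∞)) k ∂μ := by
  have h1 : ∀ x : X, (supp (Y.s x) ∩ glob A x).encard =
      {p : Gam × ℕ | Vtx.ex p.1 p.2 ∈ supp (Y.s x) ∧ p.2 ∈ A (p.1⁻¹ • x)}.encard := by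
    intro x
    have hinj : Function.Injective fun p : Gam × ℕ => Vtx.ex p.1 p.2 := by
      rintro ⟨a, b⟩ ⟨c, d⟩ h
      obtain ⟨rfl, rfl⟩ := Vtx.ex.inj h
      rfl
    rw [← hinj.encard_image]
    congr 1
    ext v
    constructor
    · rintro ⟨hv, γ, k, rfl, hk⟩
      exact ⟨(γ, k), ⟨hv, hk⟩, rfl⟩
    · rintro ⟨⟨γ, k⟩, ⟨hv, hk⟩, rfl⟩
      exact ⟨hv, γ, k, rfl, hk⟩
  simp only [h1]
  rw [mtp_encard hX (fun x γ k => Vtx.ex γ k ∈ supp (Y.s x) ∧ k ∈ A (γ⁻¹ • x))
    fun γ k => (Y.meas_s.supp _).inter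
      (measurableSet_smul_of hX γ⁻¹ (P := fun y => k ∈ A y) (hA k))]
  refine lintegral_congr fun x => ?_
  have h2 : {p : Gam × ℕ | Vtx.ex p.1⁻¹ p.2 ∈ supp (Y.s (p.1⁻¹ • x)) ∧
      p.2 ∈ A (p.1⁻¹⁻¹ • p.1⁻¹ • x)} =
      Prod.swap '' {p : ℕ × Gam | Vtx.ex 1 p.1 ∈ supp (Y.S x p.2) ∧ p.1 ∈ A x} := by
    ext ⟨γ, k⟩
    rw [image_swap_eq_preimage_swap]
    simp only [mem_ofPred_eq, mem_preimage, Prod.swap_prod_mk, inv_inv, smul_inv_smul,
      mem_supp_trS, Vtx.smul_ex, mul_one]
  rw [h2, Prod.swap_injective.encard_image,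
    encard_prod_eq_tsum fun k γ => Vtx.ex 1 k ∈ supp (Y.S x γ) ∧ k ∈ A x]
  refine tsum_congr fun k => ?_
  by_cases hk : k ∈ A x
  · simp only [hk, and_true, indicator_of_mem]
    rfl
  · simp [hk]

theorem Succ.refl (Y : Str X) : Succ μ Y Y fun _ v => v :=   ⟨fun _ _ => MeasurableSet.const _, fun _ _ => rfl, fun _ _ => rfl,
    Filter.Eventually.of_forall fun _ _ _ _ h => h⟩

theorem Succ.trans {Y Y' Y'' : Str X} {ρ ρ' : X → Vtx → Vtx} (h : Succ μ Y Y' ρ)
    (h' : Succ μ Y' Y'' ρ') : Succ μ Y Y'' fun x v => ρ' x (ρ x v) := by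
  refine ⟨fun v w => ?_, fun x v => ?_, fun x q => ?_, ?_⟩
  · exact measurableSet_subst (fun x u => ρ' x u = w) (fun u => h'.meas u w) (fun x => ρ x v)
      (h.meas v)
  · rw [h'.base, h.base]
  · rw [h.sp, h'.sp]
  · filter_upwards [h.rel, h'.rel] with x hx hx' γ u v huv
    exact hx' γ _ _ (hx γ u v huv)

end

end Crest.Agent.R191
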