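import Crest.Agent.R191.Delete

/-! A near-minimiser has few leaves and few cycles through vertices of degree two. -/

set_option autoImplicit false

open MeasureTheory Set Crest.Dynamics Filter
open scoped ENNReal

namespace Crest.Agent.R191

section Det
variable {V ι L : Type*} [LinearOrder L]

omit [LinearOrder L] in
/-- connectivity survives a deletion when anchors exist and are connected -/
theorem prune_conn_del (t : ι → Setoid V) (Q : Set V)
    (hanch : ∀ l, ∀ v ∈ Q, v ∈ supp (t l) → ∃ u, u ∉ Q ∧ t l u v)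
    (hconn : ∀ w ∈ Q, ∀ l l' a a', a ∉ Q → a' ∉ Q → t l a w → t l' a' w →
      (⨆ l, del (t l) Q) a a')
    {a a' : V} (ha : a ∉ Q) (ha' : a' ∉ Q) (h : (⨆ l, t l) a a') : (⨆ l, del (t l) Q) a a' := by
  set J := ⨆ l, del (t l) Q with hJ
  let anc : V → V → Prop := fun b u => b ∉ Q ∧ (b = u ∨ (u ∈ Q ∧ ∃ l, t l b u))
  have hsame : ∀ u b b', anc b u → anc b' u → J b b' := by
    rintro u b b' ⟨hb, rfl | ⟨hu, l, hl⟩⟩ ⟨hb', e | ⟨hu', l', hl'⟩⟩
    · rw [e]
    · exact absurd hu' hb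
    · exact absurd (e ▸ hu) hb'
    · exact hconn u hu l l' b b' hb hb' hl hl'
  let R : Setoid V :=
    { r := fun u v => u = v ∨ ∃ b b', anc b u ∧ anc b' v ∧ J b b'
      iseqv :=
        { refl := fun _ => Or.inl rfl
          symm := by
            rintro u v (h | ⟨b, b', h1, h2, h3⟩)
            · exact Or.inl h.symm
            · exact Or.inr ⟨b', b, h2, h1, J.symm' h3⟩
          trans := by
            rintro u v w (h | ⟨b, b', h1, h2, h3⟩) (h' | ⟨c, c', h1', h2', h3'⟩)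
            · exact Or.inl (h.trans h')
            · subst h; exact Or.inr ⟨c, c', h1', h2', h3'⟩
            · subst h'; exact Or.inr ⟨b, b', h1, h2, h3⟩
            · exact Or.inr ⟨b, c', h1, h2', J.trans' h3 (J.trans' (hsame v b' c h2 h1') h3')⟩ } }
  have hanc : ∀ l u, u ∈ supp (t l) → ∃ b, anc b u ∧ t l b u := by
    intro l u hu
    by_cases hQ : u ∈ Q
    · obtain ⟨b, hb, hbu⟩ := hanch l u hQ hu
      exact ⟨b, ⟨hb, Or.inr ⟨hQ, l, hbu⟩⟩, hbu⟩
    · exact ⟨u, ⟨hQ, Or.inl rfl⟩, Setoid.refl' _ _⟩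
  have hle : (⨆ l, t l) ≤ R := by
    refine iSup_le fun l u v huv => ?_
    by_cases e : u = v
    · exact Or.inl e
    · obtain ⟨b, hb, hbu⟩ := hanc l u (mem_supp_of_rel huv e).1
      obtain ⟨b', hb', hbv⟩ := hanc l v (mem_supp_of_rel huv e).2
      refine Or.inr ⟨b, b', hb, hb', (le_iSup (fun l => del (t l) Q) l) ?_⟩
      exact Or.inr ⟨(t l).trans' hbu ((t l).trans' huv ((t l).symm' hbv)), hb.1, hb'.1⟩
  rcases hle h with e | ⟨b, b', h1, h2, h3⟩
  · rw [e]
  · exact J.trans' (hsame a a b ⟨ha, Or.inl rfl⟩ h1)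
      (J.trans' h3 (hsame a' b' a' h2 ⟨ha', Or.inl rfl⟩))

omit [LinearOrder L] in
theorem eq_or_eq_of_encard_le_two {α : Type*} {Z : Set α} (hZ : Z.encard ≤ 2) {i j l : α}
    (hi : i ∈ Z) (hj : j ∈ Z) (hl : l ∈ Z) (hij : i ≠ j) : l = i ∨ l = j := by
  by_contra hc
  push Not at hc
  have h1 : ({i, j, l} : Set α) ⊆ Z := by
    intro y hy
    rcases hy with rfl | rfl | rfl <;> assumption
  have h2 : ({i, j, l} : Set α).encard = 3 := by
    rw [encard_insert_of_notMem (by simp [hij, hc.1.symm]), encard_pair hc.2.symm]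
    norm_num
  have := (encard_le_encard h1).trans hZ
  rw [h2] at this
  norm_num at this

theorem CycAt.mem_supp {s : ι → Setoid V} {W : Set V} {key : V → L} {w : V}
    (h : CycAt s W key w) : ∃ i j, i ≠ j ∧ w ∈ supp (s i) ∧ w ∈ supp (s j) := by
  obtain ⟨i, j, u, v, hij, hu, hv, h1, h2, -⟩ := h
  exact ⟨i, j, hij, ⟨u, hu, del_le _ _ h1⟩, ⟨v, hv, del_le _ _ h2⟩⟩

/-- deleting points that close a cycle keeps the other points connected -/
theorem prune_stepA (s : ι → Setoid V) (W : Set V) (key : V → L) (hkey : InjOn key W)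
    (hdeg : ∀ w ∈ W, {l | w ∈ supp (s l)}.encard ≤ 2) (B : Finset V)
    (hB : ∀ w ∈ B, w ∈ W ∧ CycAt s W key w) :
    ∀ a a', a ∉ B → a' ∉ B → (⨆ l, s l) a a' → (⨆ l, del (s l) B) a a' := by
  classical
  induction B using Finset.induction_on_max_value key with
  | empty =>
    intro a a' _ _ h
    have : (⨆ l, s l) ≤ ⨆ l, del (s l) ((∅ : Finset V) : Set V) :=
      iSup_mono fun l u v huv => Or.inr ⟨huv, by simp, by simp⟩
    exact this h
  | insert w B hwB hmax ih =>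
    intro a a' ha ha' h
    have hw := hB w (Finset.mem_insert_self _ _)
    have hB' : ∀ y ∈ B, y ∈ W ∧ CycAt s W key y := fun y hy => hB y (Finset.mem_insert_of_mem hy)
    have hlt : (B : Set V) ⊆ {y ∈ W | key y < key w} := by
      intro y hy
      refine ⟨(hB' y hy).1, lt_of_le_of_ne (hmax y hy) fun e => hwB ?_⟩
      rw [← hkey (hB' y hy).1 hw.1 e]; exact hy
    have hle : (B : Set V) ∪ {w} ⊆ {y ∈ W | key y ≤ key w} := by
      rintro y (hy | rfl)
      · exact ⟨(hlt hy).1, (hlt hy).2.le⟩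
      · exact ⟨hw.1, le_rfl⟩
    have e : ∀ l, del (s l) ((insert w B : Finset V) : Set V) = del (del (s l) B) {w} := by
      intro l
      rw [del_del, Finset.coe_insert, union_comm, singleton_union]
    rw [iSup_congr e]
    simp only [Finset.mem_insert, not_or] at ha ha'
    refine prune_conn_del (fun l => del (s l) B) {w} ?_ ?_ ha.1 ha'.1
      (ih hB' a a' ha.2 ha'.2 h)
    · rintro l v rfl ⟨u, hu, huv⟩
      exact ⟨u, hu, huv⟩
    · rintro w' rfl l l' b b' hb hb' h1 h2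
      obtain ⟨i, j, u, v, hij, hu, hv, h3, h4, h5⟩ := hw.2
      have h3' : del (s i) B u w' := del_mono le_rfl hlt h3
      have h4' : del (s j) B v w' := del_mono le_rfl hlt h4
      have h5' : (⨆ l, del (del (s l) B) {w'}) u v := by
        have : (⨆ l, del (s l) {y ∈ W | key y ≤ key w'}) ≤ ⨆ l, del (del (s l) B) {w'} := by
          refine iSup_mono fun l => ?_
          rw [del_del]
          exact del_mono le_rfl hle
        exact this h5
      have key1 : ∀ (l : ι) (b c : V), b ≠ w' → c ≠ w' → del (s l) B b w' → del (s l) B c w' →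
          (⨆ l, del (del (s l) B) {w'}) b c := fun l b c hb hc h1 h2 =>
        (le_iSup (fun l => del (del (s l) B) {w'}) l)
          (Or.inr ⟨Setoid.trans' _ h1 (Setoid.symm' _ h2), hb, hc⟩)
      have hi : w' ∈ supp (s i) := ⟨u, hu, del_le _ _ h3⟩
      have hj : w' ∈ supp (s j) := ⟨v, hv, del_le _ _ h4⟩
      have hl : w' ∈ supp (s l) := ⟨b, hb, del_le _ _ h1⟩
      have hl' : w' ∈ supp (s l') := ⟨b', hb', del_le _ _ h2⟩
      rcases eq_or_eq_of_encard_le_two (hdeg w' hw.1) hi hj hl hij with rfl | rfl <;>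
        rcases eq_or_eq_of_encard_le_two (hdeg w' hw.1) hi hj hl' hij with rfl | rfl
      · exact key1 _ _ _ hb hb' h1 h2
      · exact Setoid.trans' _ (key1 _ _ _ hb hu h1 h3')
          (Setoid.trans' _ h5' (key1 _ _ _ hv hb' h4' h2))
      · exact Setoid.trans' _ (key1 _ _ _ hb hv h1 h4')
          (Setoid.trans' _ (Setoid.symm' _ h5') (key1 _ _ _ hu hb' h3' h2))
      · exact key1 _ _ _ hb hb' h1 h2

omit [LinearOrder L] in
theorem del_comap {V' : Type*} (s : Setoid V') (e : V → V') (he : Function.Injective e)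
    (P : Set V') : del (s.comap e) (e ⁻¹' P) = (del s P).comap e := by
  ext u v
  change (u = v ∨ s (e u) (e v) ∧ e u ∉ P ∧ e v ∉ P) ↔ (e u = e v ∨ s (e u) (e v) ∧ e u ∉ P ∧ e v ∉ P)
  rw [he.eq_iff]

theorem cycAt_comap {V' : Type*} (s : ι → Setoid V') (e : V → V') (he : Function.Bijective e)
    (P : Set V') (key : V' → L) (w : V) :
    CycAt (fun i => (s i).comap e) (e ⁻¹' P) (key ∘ e) w ↔ CycAt s P key (e w) := by
  have h1 : {y ∈ e ⁻¹' P | (key ∘ e) y < (key ∘ e) w} = e ⁻¹' {y ∈ P | key y < key (e w)} := rfl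
  have h2 : {y ∈ e ⁻¹' P | (key ∘ e) y ≤ (key ∘ e) w} = e ⁻¹' {y ∈ P | key y ≤ key (e w)} := rfl
  unfold CycAt
  have h3 : (⨆ l, del ((s l).comap e) {y ∈ e ⁻¹' P | (key ∘ e) y ≤ (key ∘ e) w}) =
      (⨆ l, del (s l) {y ∈ P | key y ≤ key (e w)}).comap e := by
    rw [comap_iSup_of_bijective _ e he, h2]
    exact iSup_congr fun l => del_comap _ e he.1 _
  have h4 : ∀ l, del ((s l).comap e) {y ∈ e ⁻¹' P | (key ∘ e) y < (key ∘ e) w} =
      (del (s l) {y ∈ P | key y < key (e w)}).comap e := by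
    intro l
    rw [h1]
    exact del_comap _ e he.1 _
  rw [h3]
  have h5 : ∀ l a b, del ((s l).comap e) {y ∈ e ⁻¹' P | (key ∘ e) y < (key ∘ e) w} a b ↔
      del (s l) {y ∈ P | key y < key (e w)} (e a) (e b) := by
    intro l a b
    rw [h4]
    rfl
  constructor
  · rintro ⟨i, j, u, v, hij, hu, hv, a1, a2, a3⟩
    exact ⟨i, j, e u, e v, hij, he.1.ne hu, he.1.ne hv, (h5 _ _ _).1 a1, (h5 _ _ _).1 a2, a3⟩
  · rintro ⟨i, j, u, v, hij, hu, hv, a1, a2, a3⟩
    obtain ⟨u, rfl⟩ := he.2 u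
    obtain ⟨v, rfl⟩ := he.2 v
    exact ⟨i, j, u, v, hij, fun h => hu (by rw [h]), fun h => hv (by rw [h]), (h5 _ _ _).2 a1,
      (h5 _ _ _).2 a2, a3⟩

end Det

theorem prune_mul_sig_injective (c : Gam) : Function.Injective fun i => c * sig i := by
  intro i j h
  exact corner_injective c (congrArg (fun g : Gam => (g : K)) h)

/-- two polygons share at most one side -/
theorem poly_unique {Z : Set Gam} (hZ : Z.encard ≤ 2) {c c' : Gam} {i j i' j' : Fin 100}
    (hij : i ≠ j) (hij' : i' ≠ j') (hi : c * sig i ∈ Z) (hj : c * sig j ∈ Z)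
    (hi' : c' * sig i' ∈ Z) (hj' : c' * sig j' ∈ Z) : c = c' := by
  by_contra hne
  have hmem : ∀ {c : Gam} {i j : Fin 100}, i ≠ j → c * sig i ∈ Z → c * sig j ∈ Z →
      ∃ l, (c, l) ∈ {p : Gam × Fin 100 | p.1 * sig p.2 ∈ Z ∧ ∃ j < p.2, p.1 * sig j ∈ Z} := by
    intro c i j hij hi hj
    rcases lt_or_gt_of_ne hij with h | h
    · exact ⟨j, hj, i, h, hi⟩
    · exact ⟨i, hi, j, h, hj⟩
  obtain ⟨l, hl⟩ := hmem hij hi hj
  obtain ⟨l', hl'⟩ := hmem hij' hi' hj'
  have h1 := hyperforest Z ⟨_, hi⟩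
  have h2 : ({(c, l), (c', l')} : Set (Gam × Fin 100)).encard = 2 :=
    encard_pair fun e => hne (congrArg Prod.fst e)
  have h3 : ({(c, l), (c', l')} : Set (Gam × Fin 100)) ⊆
      {p : Gam × Fin 100 | p.1 * sig p.2 ∈ Z ∧ ∃ j < p.2, p.1 * sig j ∈ Z} := by
    rintro p (rfl | rfl) <;> assumption
  have h4 := encard_le_encard h3
  rw [h2] at h4
  have h5 : (2 : ℕ∞) + 1 ≤ 2 := (add_le_add h4 le_rfl).trans (h1.trans hZ)
  norm_num at h5

variable {X : Type} [MeasurableSpace X] [StandardBorelSpace X] [MulAction Gam X]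
  {μ : Measure X} [IsProbabilityMeasure μ]

omit [StandardBorelSpace X] in
theorem Str.encard_of_mem_leaf (Y : Str X) (x : X) {w : Vtx} (hw : w ∈ glob Y.leaf x) :
    {z : Gam | w ∈ supp (Y.S x z)}.encard = 1 := by
  obtain ⟨γ, k, rfl, hk⟩ := hw
  rw [← Y.deg_eq]; exact hk.2

omit [StandardBorelSpace X] in
theorem Str.encard_of_mem_weak (Y : Str X) (x : X) {w : Vtx} (hw : w ∈ glob Y.weak x) :
    {z : Gam | w ∈ supp (Y.S x z)}.encard ≤ 2 := by
  obtain ⟨γ, k, rfl, hk⟩ := hw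
  rw [← Y.deg_eq]; exact hk.2

theorem L_le (hX : IsFreePMPAction Gam X μ) (Y : Str X) (hY : Valid μ Y) {δ : ℝ}
    (hmin : NearMin μ δ Y) : Y.L μ ≤ ENNReal.ofReal δ := by
  have huniq : ∀ x, ∀ w ∈ glob Y.leaf x, ∀ z z', w ∈ supp (Y.S x z) → w ∈ supp (Y.S x z') →
      z = z' := by
    intro x w hw z z' hz hz'
    obtain ⟨y, hy⟩ := encard_eq_one.1 (Y.encard_of_mem_leaf x hw)
    have h1 : z ∈ ({y} : Set Gam) := hy ▸ hz
    have h2 : z' ∈ ({y} : Set Gam) := hy ▸ hz'
    exact h1.trans h2.symm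
  refine delete_le hX Y hY hmin Y.leaf (Y.measL_leaf hX)
    (Eventually.of_forall fun x k hk => hk.1) ?_ (Eventually.of_forall ?_)
  · filter_upwards [hY.supp, hY.conn] with x h1 h2 v hv
    by_contra hc
    push Not at hc
    have hall : ∀ u, Y.s x u v → u ∈ glob Y.leaf x := fun u hu => by
      by_contra h; exact hc u h hu
    have hsupp : ∀ u, Y.s x u v → u ∈ supp (Y.S x 1) := by
      intro u hu
      change u ∈ supp (trS Y.s x 1)
      rw [trS_one]
      obtain ⟨y, hy, hyv⟩ := hv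
      by_cases e : u = v
      · exact e ▸ ⟨y, hy, hyv⟩
      · exact (mem_supp_of_rel hu e).1
    have hstep : ∀ z a b, Y.S x z a b → Y.s x a v → Y.s x b v := by
      intro z a b hab ha
      by_cases e : a = b
      · exact e ▸ ha
      · have := huniq x a (hall a ha) z 1 (mem_supp_of_rel hab e).1 (hsupp a ha)
        subst this
        change trS Y.s x 1 a b at hab
        rw [trS_one] at hab
        exact Setoid.trans' _ (Setoid.symm' _ hab) ha
    have hle : (⨆ γ, Y.S x γ) ≤ Setoid.ker fun a => Y.s x a v := by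
      refine iSup_le fun z a b hab => ?_
      exact propext ⟨hstep z a b hab, hstep z b a (Setoid.symm' _ hab)⟩
    have h3 := hle (h2 v (h1 v hv).1 _ (Y.sp_mem_Vert x ((1 : Gam) : K)))
    have h4 : Y.s x (Vtx.sp ((1 : Gam) : K)) v := by
      have h5 : (Y.s x v v) = Y.s x (Vtx.sp ((1 : Gam) : K)) v := h3
      rw [← h5]
    exact sp_notMem_glob _ _ _ (hall _ h4)
  · intro x k hk z z' a a' ha ha' h h'
    have hw : Vtx.ex 1 k ∈ glob Y.leaf x := by rw [ex_mem_glob]; simpa using hk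
    have e := huniq x _ hw z z' ⟨a, fun e => ha (e ▸ hw), h⟩ ⟨a', fun e => ha' (e ▸ hw), h'⟩
    subst e
    exact (le_iSup (fun γ => del (Y.S x γ) (glob Y.leaf x)) z)
      (Or.inr ⟨Setoid.trans' _ h (Setoid.symm' _ h'), ha, ha'⟩)

/-- the weak vertex `w` closes a cycle over the polygon `c` -/
def Str.Cy (Y : Str X) (x : X) (c : Gam) (w : Vtx) : Prop :=
  w ∈ glob Y.weak x ∧ CycAt (fun i => Y.S x (c * sig i)) (glob Y.weak x) (key x) w

theorem Str.cy_smul (Y : Str X) (x : X) (g c : Gam) (w : Vtx) :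
    Y.Cy (g • x) (g * c) (g • w) ↔ Y.Cy x c w := by
  unfold Str.Cy
  rw [smul_mem_glob]
  refine and_congr_right fun _ => ?_
  have h1 : (fun i => Y.S x (c * sig i)) =
      fun i => (Y.S (g • x) (g * c * sig i)).comap fun v => g • v := by
    funext i
    ext u v
    rw [Setoid.comap_rel, mul_assoc]
    exact (trS_smul Y.s x g _ u v).symm
  have h2 : glob Y.weak x = (fun v : Vtx => g • v) ⁻¹' glob Y.weak (g • x) := by
    ext v; exact (smul_mem_glob _ x g v).symm
  have h3 : key x = key (g • x) ∘ fun v : Vtx => g • v := by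
    funext v; exact (key_smul x g v).symm
  rw [h1, h3]
  conv_rhs => rw [h2]
  exact (cycAt_comap _ _ (MulAction.bijective g) _ _ w).symm

omit [IsProbabilityMeasure μ] in
theorem Str.measurableSet_cy (hX : IsFreePMPAction Gam X μ) (Y : Str X) (c : Gam) (w : Vtx) :
    MeasurableSet {x | Y.Cy x c w} := by
  have hW := (Y.measL_weak hX).glob hX
  have h1 : ∀ i, MeasS fun x => del (Y.S x (c * sig i))
      {y ∈ glob Y.weak x | key x y < key x w} := fun i =>
    (Y.meas_s.trS hX _).del _ fun v => (hW v).inter (measurableSet_key_lt hX v w)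
  have h2 : MeasS fun x => ⨆ l, del (Y.S x (c * sig l))
      {y ∈ glob Y.weak x | key x y ≤ key x w} :=
    MeasS.iSup fun l => (Y.meas_s.trS hX _).del _ fun v =>
      (hW v).inter (measurableSet_key_le hX v w)
  refine (hW w).inter ?_
  change MeasurableSet {x | CycAt (fun i => Y.S x (c * sig i)) (glob Y.weak x) (key x) w}
  unfold CycAt
  simp only [ofPred_exists]
  refine MeasurableSet.iUnion fun i => MeasurableSet.iUnion fun j =>
    MeasurableSet.iUnion fun u => MeasurableSet.iUnion fun v => ?_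
  exact (MeasurableSet.const _).inter ((MeasurableSet.const _).inter
    ((MeasurableSet.const _).inter ((h1 i u w).inter ((h1 j v w).inter (h2 u v)))))

theorem Str.Cy.unique {Y : Str X} {x : X} {c c' : Gam} {w : Vtx} (h : Y.Cy x c w)
    (h' : Y.Cy x c' w) : c = c' := by
  obtain ⟨i, j, hij, hi, hj⟩ := h.2.mem_supp
  obtain ⟨i', j', hij', hi', hj'⟩ := h'.2.mem_supp
  exact poly_unique (Y.encard_of_mem_weak x h.1) hij hij' hi hj hi' hj'

/-- the labels of the vertices at `1` that close a cycle over some polygon -/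
def Str.cyP (Y : Str X) (x : X) : Set ℕ := {k | ∃ c, Y.Cy x c (Vtx.ex 1 k)}

theorem Str.mem_glob_cyP (Y : Str X) (x : X) (w : Vtx) :
    w ∈ glob Y.cyP x ↔ ∃ c, Y.Cy x c w := by
  cases w with
  | sp q =>
    exact ⟨fun h => absurd h (sp_notMem_glob _ _ _),
      fun ⟨_, h⟩ => absurd h.1 (sp_notMem_glob _ _ _)⟩
  | ex γ k =>
    rw [ex_mem_glob]
    constructor
    · rintro ⟨c, hc⟩
      refine ⟨γ * c, ?_⟩
      have := (Y.cy_smul (γ⁻¹ • x) γ c (Vtx.ex 1 k)).2 hc
      simpa using this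
    · rintro ⟨c, hc⟩
      refine ⟨γ⁻¹ * c, ?_⟩
      have := (Y.cy_smul x γ⁻¹ c (Vtx.ex γ k)).2 hc
      simpa using this

theorem Str.key_injOn_weak (Y : Str X) {x : X} (hx : ∀ g : Gam, g • x = x → g = 1) :
    InjOn (key x) (glob Y.weak x) :=
  (key_injOn x hx).mono (by rintro _ ⟨γ, k, e, -⟩; exact ⟨γ, k, e⟩)

/-- every non-trivial class has a point that is not deleted -/
theorem Str.cyP_anchor (Y : Str X) {x : X} (hx : ∀ g : Gam, g • x = x → g = 1)
    (hfin : ∀ γ, rk (Y.S x γ) ≠ ⊤) (z : Gam) (v : Vtx) (hv : v ∈ supp (Y.S x z)) :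
    ∃ u, u ∉ glob Y.cyP x ∧ Y.S x z u v := by
  by_contra hc
  push Not at hc
  have hall : ∀ u, Y.S x z u v → ∃ c, Y.Cy x c u := fun u hu => by
    rw [← Y.mem_glob_cyP]
    by_contra h; exact hc u h hu
  have hsupp : ∀ u, Y.S x z u v → u ∈ supp (Y.S x z) := by
    intro u hu
    obtain ⟨y, hy, hyv⟩ := hv
    by_cases e : u = v
    · exact e ▸ ⟨y, hy, hyv⟩
    · exact (mem_supp_of_rel hu e).1
  have hκ : {u | Y.S x z u v}.Finite := (supp_finite (hfin z)).subset hsupp
  obtain ⟨w, hw, hmax⟩ := exists_max_image _ (key x) hκ ⟨v, Setoid.refl' _ _⟩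
  obtain ⟨c, hwW, i, j, u, u', hij, hu, hu', h1, h2, -⟩ := hall w hw
  have hcon : ∀ (l : Fin 100) (y : Vtx), y ≠ w → z = c * sig l →
      del (Y.S x (c * sig l)) {y ∈ glob Y.weak x | key x y < key x w} y w → False := by
    intro l y hy e h
    rcases h with h | ⟨h, hn, -⟩
    · exact hy h
    · rw [← e] at h
      have hyv : Y.S x z y v := Setoid.trans' _ h hw
      obtain ⟨c', hyW, -⟩ := hall y hyv
      have h3 : key x w ≤ key x y := not_lt.1 fun hlt => hn ⟨hyW, hlt⟩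
      exact hy (Y.key_injOn_weak hx hyW hwW (le_antisymm (hmax y hyv) h3))
  rcases eq_or_eq_of_encard_le_two (Y.encard_of_mem_weak x hwW) (i := c * sig i) (j := c * sig j)
    (l := z) ⟨u, hu, del_le _ _ h1⟩ ⟨u', hu', del_le _ _ h2⟩ (hsupp w hw)
    ((prune_mul_sig_injective c).ne hij) with e | e
  · exact hcon i u hu e h1
  · exact hcon j u' hu' e h2

/-- over each polygon, connectivity survives the deletion -/
theorem Str.cyP_conn (Y : Str X) {x : X} (hx : ∀ g : Gam, g • x = x → g = 1)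
    (hfin : ∀ γ, rk (Y.S x γ) ≠ ⊤) (c : Gam) {a a' : Vtx} (ha : a ∉ glob Y.cyP x)
    (ha' : a' ∉ glob Y.cyP x) (h : Y.J x c a a') :
    (⨆ l, del (Y.S x (c * sig l)) (glob Y.cyP x)) a a' := by
  have hPfin : {w | Y.Cy x c w}.Finite := by
    refine (finite_iUnion fun l : Fin 100 => supp_finite (hfin (c * sig l))).subset ?_
    intro w hw
    obtain ⟨i, -, -, hi, -⟩ := hw.2.mem_supp
    exact mem_iUnion.2 ⟨i, hi⟩
  have hdeg : ∀ w ∈ glob Y.weak x, {l | w ∈ supp (Y.S x (c * sig l))}.encard ≤ 2 := by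
    intro w hw
    refine le_trans ?_ (Y.encard_of_mem_weak x hw)
    exact encard_le_encard_of_injOn (f := fun l => c * sig l) (fun l hl => hl)
      (prune_mul_sig_injective c).injOn
  have hsub : {w | Y.Cy x c w} ⊆ glob Y.cyP x := fun w hw => (Y.mem_glob_cyP x w).2 ⟨c, hw⟩
  have hA := prune_stepA (fun l => Y.S x (c * sig l)) (glob Y.weak x) (key x)
    (Y.key_injOn_weak hx) hdeg hPfin.toFinset (fun w hw => hPfin.mem_toFinset.1 hw) a a'
    (fun h => ha (hsub (hPfin.mem_toFinset.1 h))) (fun h => ha' (hsub (hPfin.mem_toFinset.1 h))) h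
  rw [hPfin.coe_toFinset] at hA
  have e : ∀ l, del (Y.S x (c * sig l)) (glob Y.cyP x) =
      del (del (Y.S x (c * sig l)) {w | Y.Cy x c w}) (glob Y.cyP x \ {w | Y.Cy x c w}) := by
    intro l
    rw [del_del, union_sdiff_cancel hsub]
  rw [iSup_congr e]
  refine prune_conn_del (fun l => del (Y.S x (c * sig l)) {w | Y.Cy x c w}) _ ?_ ?_
    (fun h => ha h.1) (fun h => ha' h.1) hA
  · intro l v hv hvs
    obtain ⟨u, hu, huv⟩ := Y.cyP_anchor hx hfin _ v (supp_mono (del_le _ _) hvs)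
    exact ⟨u, fun h => hu h.1, Or.inr ⟨huv, fun h => hu (hsub h), hv.2⟩⟩
  · intro w hw l l' b b' hb hb' h1 h2
    have hl : w ∈ supp (Y.S x (c * sig l)) := ⟨b, fun e => hb (e ▸ hw), del_le _ _ h1⟩
    have hl' : w ∈ supp (Y.S x (c * sig l')) := ⟨b', fun e => hb' (e ▸ hw), del_le _ _ h2⟩
    have hll : l = l' := by
      by_contra hne
      obtain ⟨c', hc'⟩ := (Y.mem_glob_cyP x w).1 hw.1
      obtain ⟨i, j, hij, hi, hj⟩ := hc'.2.mem_supp
      have := poly_unique (Y.encard_of_mem_weak x hc'.1) hne hij hl hl' hi hj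
      exact hw.2 (this ▸ hc')
    subst hll
    exact (le_iSup (fun l => del (del (Y.S x (c * sig l)) {w | Y.Cy x c w})
      (glob Y.cyP x \ {w | Y.Cy x c w})) l)
      (Or.inr ⟨Setoid.trans' _ h1 (Setoid.symm' _ h2), hb, hb'⟩)

theorem cyP_le (hX : IsFreePMPAction Gam X μ) (Y : Str X) (hY : Valid μ Y) {δ : ℝ}
    (hmin : NearMin μ δ Y) :
    ∫⁻ x, ((Y.cyP x).encard : ℝ≥0∞) ∂μ ≤ ENNReal.ofReal δ := by
  refine delete_le hX Y hY hmin Y.cyP ?_ (Eventually.of_forall ?_) ?_ ?_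
  · intro k
    change MeasurableSet {x | ∃ c, Y.Cy x c (Vtx.ex 1 k)}
    rw [ofPred_exists]
    exact MeasurableSet.iUnion fun c => Y.measurableSet_cy hX c _
  · rintro x k ⟨c, hc, -⟩
    rw [ex_mem_glob] at hc
    simpa using hc.1
  · filter_upwards [ae_free hX, hY.rk_ne_top hX] with x hx hfin v hv
    have := Y.cyP_anchor hx hfin 1 v (by change v ∈ supp (trS Y.s x 1); rwa [trS_one])
    change ∃ u, _ ∧ trS Y.s x 1 u v at this
    rwa [trS_one] at this
  · filter_upwards [ae_free hX, hY.rk_ne_top hX] with x hx hfin k hk z z' a a' ha ha' h h'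
    obtain ⟨c, hc⟩ := hk
    have hw : Vtx.ex 1 k ∈ glob Y.cyP x := (Y.mem_glob_cyP x _).2 ⟨c, hc⟩
    obtain ⟨i, j, hij, hi, hj⟩ := hc.2.mem_supp
    have hz : ∀ {z : Gam} {a : Vtx}, a ∉ glob Y.cyP x → Y.S x z a (Vtx.ex 1 k) →
        Y.J x c a (Vtx.ex 1 k) := by
      intro z a ha h
      rcases eq_or_eq_of_encard_le_two (Y.encard_of_mem_weak x hc.1) (l := z) hi hj
        ⟨a, fun e => ha (e ▸ hw), h⟩ ((prune_mul_sig_injective c).ne hij) with rfl | rfl
      · exact (le_iSup (fun l => trS Y.s x (c * sig l)) i) h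
      · exact (le_iSup (fun l => trS Y.s x (c * sig l)) j) h
    have h1 := Y.cyP_conn hx hfin c ha ha'
      (Setoid.trans' _ (hz ha h) (Setoid.symm' _ (hz ha' h')))
    have hle : (⨆ l, del (Y.S x (c * sig l)) (glob Y.cyP x)) ≤
        ⨆ γ, del (Y.S x γ) (glob Y.cyP x) :=
      iSup_le fun l => le_iSup (fun γ => del (Y.S x γ) (glob Y.cyP x)) _
    exact hle h1

/-- Take `cy x = encard {w ∈ glob Y.weak x | CycAt (fun i => Y.S x (sig i)) (glob Y.weak x) (key x) w}`
(`cyc_tele`), delete `P x = {k ∈ Y.weak x | ∃ c, CycAt (fun i => Y.S x (c * sig i)) .. (ex 1 k)}`. -/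
theorem cyc_le (hX : IsFreePMPAction Gam X μ) (Y : Str X) (hY : Valid μ Y) {δ : ℝ}
    (hmin : NearMin μ δ Y) :
    ∃ cy : X → ℕ∞, Measurable (fun x => (cy x : ℝ≥0∞)) ∧
      ∫⁻ x, (cy x : ℝ≥0∞) ∂μ ≤ ENNReal.ofReal δ ∧
      ∀ᵐ x ∂μ, ∑ i, rk (Y.S x (sig i)) + rk (trJ Y.srob x 1) ≤
        ∑ i, rk (trS Y.srob x (sig i)) + rk (Y.J x 1) + cy x := by
  refine ⟨fun x => {w | Y.Cy x 1 w}.encard,
    measurable_encard_of _ fun w => Y.measurableSet_cy hX 1 w, ?_, ?_⟩
  · refine le_trans ?_ (cyP_le hX Y hY hmin)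
    have h1 : ∀ x, {w | Y.Cy x 1 w}.encard =
        {p : Gam × ℕ | Y.Cy (p.1⁻¹ • x) p.1⁻¹ (Vtx.ex 1 p.2)}.encard := by
      intro x
      have hinj : Function.Injective fun p : Gam × ℕ => Vtx.ex p.1 p.2 := by
        rintro ⟨a, b⟩ ⟨a', b'⟩ h
        simp only [Vtx.ex.injEq] at h
        exact Prod.ext h.1 h.2
      rw [← hinj.encard_image]
      congr 1
      ext w
      have h2 : ∀ γ k, Y.Cy (γ⁻¹ • x) γ⁻¹ (Vtx.ex 1 k) ↔ Y.Cy x 1 (Vtx.ex γ k) := by
        intro γ k
        have := Y.cy_smul x γ⁻¹ 1 (Vtx.ex γ k)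
        simpa using this
      constructor
      · intro hw
        obtain ⟨γ, k, rfl, -⟩ := hw.1
        exact ⟨(γ, k), (h2 γ k).2 hw, rfl⟩
      · rintro ⟨⟨γ, k⟩, hp, rfl⟩
        exact (h2 γ k).1 hp
    simp only [h1]
    rw [← mtp_encard hX (fun x γ k => Y.Cy x γ (Vtx.ex 1 k))
      fun γ k => Y.measurableSet_cy hX γ _]
    refine lintegral_mono fun x => ?_
    refine ENat.toENNReal_le.2 ?_
    refine encard_le_encard_of_injOn (f := Prod.snd) (fun p hp => ⟨p.1, hp⟩) ?_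
    rintro ⟨c, k⟩ hp ⟨c', k'⟩ hp' e
    simp only at e
    subst e
    exact Prod.ext (Str.Cy.unique hp hp') rfl
  · filter_upwards [ae_free hX, hY.rk_ne_top hX] with x hx hfin
    have e : ∀ γ, trS Y.srob x γ = del (Y.S x γ) (glob Y.weak x) := fun γ =>
      trS_del Y.s (glob Y.weak) (fun x g v => smul_mem_glob _ x g v) x γ
    have hdeg : ∀ w ∈ glob Y.weak x, {l | w ∈ supp (Y.S x (sig l))}.encard ≤ 2 := by
      intro w hw
      refine le_trans ?_ (Y.encard_of_mem_weak x hw)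
      refine encard_le_encard_of_injOn (f := fun l => sig l) (fun l hl => hl) ?_
      intro i _ j _ h
      exact prune_mul_sig_injective 1 (by simpa using h)
    have := cyc_tele (fun i => Y.S x (sig i)) (fun i => hfin _) (glob Y.weak x) (key x)
      (Y.key_injOn_weak hx) hdeg
    simp only [Str.J, trJ_one, e, Str.Cy, one_mul]
    exact this

end Crest.Agent.R191
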