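import Crest.Agent.R191.Rank

/-! Telescoping the rank along a linearly ordered family of operations. -/

set_option autoImplicit false

open MeasureTheory Set
open scoped ENNReal

namespace Crest.Agent.R191

section
variable {V L : Type*} [LinearOrder L]

/-- Induction along the key order of the finite set `A ∩ T`. -/
theorem tele_ind (A : Set V) (key : V → L) (hkey : InjOn key A) (T : Set V) (hT : T.Finite)
    (p : Set V → Prop) (h0 : p ∅)
    (hstep : ∀ w ∈ A, w ∈ T → p ({v ∈ A | key v < key w} ∩ T) → p ({v ∈ A | key v ≤ key w} ∩ T)) :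
    p (A ∩ T) := by
  classical
  have main : ∀ S : Finset V, (↑S : Set V) ⊆ A ∩ T →
      (∀ v ∈ A ∩ T, ∀ w ∈ S, key v ≤ key w → v ∈ S) → p ↑S := by
    intro S
    induction S using Finset.induction_on_max_value key with
    | empty => intro _ _; simpa using h0
    | insert a s ha hmax ih =>
      intro hsub hini
      have haA : a ∈ A ∩ T := hsub (by simp)
      have hsub' : (↑s : Set V) ⊆ A ∩ T := fun x hx => hsub (by simp [Finset.mem_coe.1 hx])
      have hlt : ∀ x ∈ s, key x < key a := fun x hx =>
        lt_of_le_of_ne (hmax x hx) fun h => ha (hkey (hsub' hx).1 haA.1 h ▸ hx)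
      have e1 : {v ∈ A | key v < key a} ∩ T = ↑s := by
        ext v
        constructor
        · rintro ⟨⟨h1, h2⟩, h3⟩
          rcases Finset.mem_insert.1 (hini v ⟨h1, h3⟩ a (by simp) h2.le) with h | h
          · exact absurd (h ▸ h2) (lt_irrefl _)
          · exact h
        · intro h
          exact ⟨⟨(hsub' h).1, hlt v h⟩, (hsub' h).2⟩
      have e2 : {v ∈ A | key v ≤ key a} ∩ T = ↑(insert a s) := by
        ext v
        constructor
        · rintro ⟨⟨h1, h2⟩, h3⟩
          exact hini v ⟨h1, h3⟩ a (by simp) h2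
        · intro h
          refine ⟨⟨(hsub h).1, ?_⟩, (hsub h).2⟩
          rcases Finset.mem_insert.1 h with h | h
          · rw [h]
          · exact hmax v h
      rw [← e2]
      refine hstep a haA.1 haA.2 (e1 ▸ ih hsub' fun v hv w hw hvw => ?_)
      rcases Finset.mem_insert.1 (hini v hv w (by simp [hw]) hvw) with h | h
      · exact absurd (h ▸ hvw) (not_le.2 (hlt w hw))
      · exact h
  have hfin : (A ∩ T).Finite := hT.subset inter_subset_right
  have := main hfin.toFinset (by simp) (fun v hv _ _ _ => by simpa using hv)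
  simpa using this

open Classical in
theorem tele_encard (A : Set V) (key : V → L) (hkey : InjOn key A) (T : Set V) (hit : V → Prop)
    {w : V} (hw : w ∈ A) (hwT : w ∈ T) :
    {x ∈ {v ∈ A | key v ≤ key w} ∩ T | hit x}.encard =
      {x ∈ {v ∈ A | key v < key w} ∩ T | hit x}.encard + if hit w then 1 else 0 := by
  split_ifs with h
  · rw [← Set.encard_insert_of_notMem (a := w) (fun h' => lt_irrefl _ h'.1.1.2)]
    congr 1
    ext x
    constructor
    · rintro ⟨⟨⟨h1, h2⟩, h3⟩, h4⟩
      rcases h2.lt_or_eq with h5 | h5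
      · exact Or.inr ⟨⟨⟨h1, h5⟩, h3⟩, h4⟩
      · exact Or.inl (hkey h1 hw h5)
    · rintro (rfl | ⟨⟨⟨h1, h2⟩, h3⟩, h4⟩)
      · exact ⟨⟨⟨hw, le_rfl⟩, hwT⟩, h⟩
      · exact ⟨⟨⟨h1, h2.le⟩, h3⟩, h4⟩
  · rw [add_zero]
    congr 1
    ext x
    constructor
    · rintro ⟨⟨⟨h1, h2⟩, h3⟩, h4⟩
      rcases h2.lt_or_eq with h5 | h5
      · exact ⟨⟨⟨h1, h5⟩, h3⟩, h4⟩
      · exact absurd (hkey h1 hw h5 ▸ h4) h
    · rintro ⟨⟨⟨h1, h2⟩, h3⟩, h4⟩
      exact ⟨⟨⟨h1, h2.le⟩, h3⟩, h4⟩

theorem tele_le_union (A : Set V) (key : V → L) (hkey : InjOn key A) {w : V} (hw : w ∈ A) :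
    {v ∈ A | key v < key w} ∪ {w} = {v ∈ A | key v ≤ key w} := by
  ext x
  constructor
  · rintro (⟨h1, h2⟩ | rfl)
    · exact ⟨h1, h2.le⟩
    · exact ⟨hw, le_rfl⟩
  · rintro ⟨h1, h2⟩
    rcases h2.lt_or_eq with h5 | h5
    · exact Or.inl ⟨h1, h5⟩
    · exact Or.inr (hkey h1 hw h5)

theorem tele_del_empty (s : Setoid V) : del s ∅ = s := by
  ext u v
  constructor
  · rintro (rfl | h)
    · exact s.refl' _
    · exact h.1
  · intro h
    exact Or.inr ⟨h, notMem_empty _, notMem_empty _⟩

open Classical in
/-- Abstract telescoping, inequality form. Only the finitely many points of `T` matter. -/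
theorem tele_le (A : Set V) (key : V → L) (hkey : InjOn key A) (T : Set V) (hT : T.Finite)
    (f g : Set V → ℕ∞) (hit : V → Prop)
    (hf : ∀ B ⊆ A, f B = f (B ∩ T)) (hg : ∀ B ⊆ A, g B = g (B ∩ T))
    (hstep : ∀ w ∈ A, w ∈ T →
      f {v ∈ A | key v < key w} + g {v ∈ A | key v ≤ key w} ≤
        f {v ∈ A | key v ≤ key w} + g {v ∈ A | key v < key w} + if hit w then 1 else 0)
    (hfin : ∀ B ⊆ A, f B ≠ ⊤ ∧ g B ≠ ⊤) :
    f ∅ + g A ≤ f A + g ∅ + {w ∈ A | w ∈ T ∧ hit w}.encard := by
  have h := tele_ind A key hkey T hT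
    (fun B => f ∅ + g B ≤ f B + g ∅ + {w ∈ B | hit w}.encard) (by simp) (fun w hw hwT ih => by
      have h1 := hstep w hw hwT
      have s1 : {v ∈ A | key v < key w} ⊆ A := fun _ h => h.1
      have s2 : {v ∈ A | key v ≤ key w} ⊆ A := fun _ h => h.1
      beta_reduce at ih ⊢
      rw [tele_encard A key hkey T hit hw hwT, ← hf _ s2, ← hg _ s2]
      rw [← hf _ s1, ← hg _ s1] at ih
      have hne : f {v ∈ A | key v < key w} + g {v ∈ A | key v < key w} ≠ ⊤ :=
        WithTop.add_ne_top.2 (hfin _ s1)
      refine (ENat.add_le_add_iff_right hne).1 ?_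
      refine le_trans (le_of_eq ?_) ((add_le_add ih h1).trans (le_of_eq ?_))
      · ring
      · ring)
  beta_reduce at h
  rw [← hf A subset_rfl, ← hg A subset_rfl] at h
  have e : {w ∈ A ∩ T | hit w} = {w ∈ A | w ∈ T ∧ hit w} := by
    ext x; simp [and_assoc]
  rwa [e] at h

open Classical in
/-- Abstract telescoping, equality form. -/
theorem tele_eq (A : Set V) (key : V → L) (hkey : InjOn key A) (T : Set V) (hT : T.Finite)
    (f : Set V → ℕ∞) (hit : V → Prop) (hf : ∀ B ⊆ A, f B = f (B ∩ T))
    (hstep : ∀ w ∈ A, w ∈ T →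
      f {v ∈ A | key v < key w} = f {v ∈ A | key v ≤ key w} + if hit w then 1 else 0) :
    f ∅ = f A + {w ∈ A | w ∈ T ∧ hit w}.encard := by
  have h := tele_ind A key hkey T hT
    (fun B => f ∅ = f B + {w ∈ B | hit w}.encard) (by simp) (fun w hw hwT ih => by
      have h1 := hstep w hw hwT
      have s1 : {v ∈ A | key v < key w} ⊆ A := fun _ h => h.1
      have s2 : {v ∈ A | key v ≤ key w} ⊆ A := fun _ h => h.1
      beta_reduce at ih ⊢
      rw [tele_encard A key hkey T hit hw hwT, ← hf _ s2]
      rw [← hf _ s1, h1] at ih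
      rw [ih]; ring)
  beta_reduce at h
  rw [← hf A subset_rfl] at h
  have e : {w ∈ A ∩ T | hit w} = {w ∈ A | w ∈ T ∧ hit w} := by
    ext x; simp [and_assoc]
  rwa [e] at h

open Classical in
/-- apply `τ` only to the points whose key is below that of `w` -/
noncomputable def cut (τ : V → V) (key : V → L) (w : V) : V → V :=
  fun v => if key v < key w then τ v else v

/-- merging along an idempotent map, one moved point at a time -/
theorem rk_map_tele (s : Setoid V) (hs : rk s ≠ ⊤) (τ : V → V) (hτ : ∀ v, τ (τ v) = τ v)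
    (key : V → L) (hkey : InjOn key {v | τ v ≠ v}) :
    rk s = rk (s.map τ) + {w | τ w ≠ w ∧ (s.map (cut τ key w)) w (τ w)}.encard := by
  classical
  set part : Set V → V → V := fun B v => if v ∈ B then τ v else v with hpart
  have hcut : ∀ w, part {v ∈ {v | τ v ≠ v} | key v < key w} = cut τ key w := by
    intro w
    funext v
    simp only [hpart, cut, mem_setOf_eq]
    by_cases h1 : key v < key w
    · by_cases h2 : τ v = v
      · rw [if_neg (fun h => h.1 h2), if_pos h1, h2]
      · rw [if_pos ⟨h2, h1⟩, if_pos h1]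
    · rw [if_neg (fun h => h1 h.2), if_neg h1]
  have h := tele_eq {v | τ v ≠ v} key hkey (supp s) (supp_finite hs)
    (fun B => rk (s.map (part B))) (fun w => (s.map (cut τ key w)) w (τ w))
    (fun B _ => by
      beta_reduce
      rw [map_congr_supp s (f := part B) (g := part (B ∩ supp s)) fun v hv => by
        simp [hpart, hv]])
    (fun w hw _ => by
      beta_reduce
      have hw' : w ≠ τ w := fun h => hw h.symm
      have e : part {v ∈ {v | τ v ≠ v} | key v ≤ key w} =
          Function.update id w (τ w) ∘ cut τ key w := by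
        rw [← tele_le_union _ key hkey hw]
        funext v
        simp only [hpart, cut, Function.comp_apply, mem_union, mem_setOf_eq, mem_singleton_iff]
        by_cases h0 : v = w
        · subst h0; simp
        by_cases h1 : key v < key w
        · have h3 : τ v ≠ w := fun h => hw (by rw [← h]; exact hτ v)
          rw [if_pos h1, Function.update_of_ne h3]
          by_cases h2 : τ v = v
          · rw [if_neg (by simp [h2, h0]), h2]; rfl
          · rw [if_pos (Or.inl ⟨h2, h1⟩)]; rfl
        · rw [if_neg h1, Function.update_of_ne h0, if_neg (by simp [h1, h0])]; rfl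
      rw [hcut, e, ← map_map]
      convert rk_map_update (s.map (cut τ key w)) hw')
  beta_reduce at h
  have e1 : s.map (part ∅) = s := by
    have : part ∅ = id := by funext v; simp [hpart]
    rw [this]
    exact le_antisymm (map_le_iff.2 fun _ _ h => h) fun _ _ h => map_rel h id
  have e2 : part {v | τ v ≠ v} = τ := by
    funext v
    by_cases h2 : τ v = v <;> simp [hpart, h2]
  have e3 : {w ∈ {v | τ v ≠ v} | w ∈ supp s ∧ (s.map (cut τ key w)) w (τ w)} =
      {w | τ w ≠ w ∧ (s.map (cut τ key w)) w (τ w)} := by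
    ext w
    refine ⟨fun h => ⟨h.1, h.2.2⟩, fun h => ⟨h.1, ?_, h.2⟩⟩
    obtain ⟨v, hv, hvw⟩ := supp_map_subset s _ (mem_supp_of_rel h.2 h.1.symm).1
    simp only [cut] at hvw
    split_ifs at hvw with h1
    · exact absurd (by rw [← hvw]; exact hτ v) h.1
    · exact hvw ▸ hv
  rwa [e1, e2, e3] at h

/-- deleting the points of `P` one at a time -/
theorem rk_del_tele (s : Setoid V) (hs : rk s ≠ ⊤) (P : Set V) (key : V → L)
    (hkey : InjOn key P) :
    rk s = rk (del s P) + {w ∈ P | w ∈ supp (del s {v ∈ P | key v < key w})}.encard := by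
  classical
  have h := tele_eq P key hkey (supp s) (supp_finite hs) (fun B => rk (del s B))
    (fun w => w ∈ supp (del s {v ∈ P | key v < key w}))
    (fun B _ => by beta_reduce; rw [del_inter_supp])
    (fun w hw _ => by
      beta_reduce
      rw [← tele_le_union P key hkey hw, ← del_del]
      convert rk_del_singleton (del s {v ∈ P | key v < key w}) w)
  beta_reduce at h
  have e3 : {w ∈ P | w ∈ supp s ∧ w ∈ supp (del s {v ∈ P | key v < key w})} =
      {w ∈ P | w ∈ supp (del s {v ∈ P | key v < key w})} := by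
    ext w
    exact ⟨fun h => ⟨h.1, h.2.2⟩, fun h => ⟨h.1, (supp_del_subset _ _ h.2).1, h.2⟩⟩
  rwa [tele_del_empty, e3] at h

/-- `w` closes a cycle of the family `s` at the moment it is deleted -/
def CycAt {ι : Type*} (s : ι → Setoid V) (P : Set V) (key : V → L) (w : V) : Prop :=
  ∃ i j u v, i ≠ j ∧ u ≠ w ∧ v ≠ w ∧ del (s i) {y ∈ P | key y < key w} u w ∧
    del (s j) {y ∈ P | key y < key w} v w ∧ (⨆ l, del (s l) {y ∈ P | key y ≤ key w}) u v

/-- Deleting points that lie in at most two supports: the cycle rank `∑ rk (s i) - rk (⨆ s i)`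
only drops at the points that close a cycle. -/
theorem cyc_tele {ι : Type*} [Fintype ι] (s : ι → Setoid V) (hs : ∀ i, rk (s i) ≠ ⊤) (P : Set V)
    (key : V → L) (hkey : InjOn key P) (hdeg : ∀ w ∈ P, {i | w ∈ supp (s i)}.encard ≤ 2) :
    ∑ i, rk (s i) + rk (⨆ i, del (s i) P) ≤
      ∑ i, rk (del (s i) P) + rk (⨆ i, s i) + {w ∈ P | CycAt s P key w}.encard := by
  classical
  have hinter : ∀ (B : Set V) i, del (s i) (B ∩ ⋃ j, supp (s j)) = del (s i) B := by
    intro B i
    rw [← del_inter_supp (s i) B, ← del_inter_supp (s i) (B ∩ ⋃ j, supp (s j)), inter_assoc,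
      inter_eq_self_of_subset_right (subset_iUnion (fun j => supp (s j)) i)]
  have hsum : ∀ B : Set V, ∑ i, rk (del (s i) B) ≠ ⊤ := fun B =>
    WithTop.sum_ne_top.2 fun i _ => ne_top_of_le_ne_top (hs i) (rk_mono (del_le _ _))
  have h := tele_le P key hkey (⋃ j, supp (s j)) (finite_iUnion fun j => supp_finite (hs j))
    (fun B => ∑ i, rk (del (s i) B)) (fun B => rk (⨆ i, del (s i) B)) (CycAt s P key)
    (fun B _ => by simp only [hinter]) (fun B _ => by simp only [hinter])
    (fun w hw _ => by
      beta_reduce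
      set D : ι → Setoid V := fun i => del (s i) {v ∈ P | key v < key w} with hD
      set D' : ι → Setoid V := fun i => del (s i) {v ∈ P | key v ≤ key w} with hD'
      have hDD : ∀ i, D' i = del (D i) {w} := fun i => by
        simp only [hD, hD']
        rw [del_del, tele_le_union P key hkey hw]
      set S : Finset ι := Finset.univ.filter (fun i => w ∈ supp (D i)) with hS
      have h1 : ∑ i, rk (D i) = ∑ i, rk (D' i) + (S.card : ℕ∞) := by
        rw [hS, Finset.natCast_card_filter, ← Finset.sum_add_distrib]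
        refine Finset.sum_congr rfl fun i _ => ?_
        rw [hDD]
        convert rk_del_singleton (D i) w
      have hS2 : S.card ≤ 2 := by
        have h2 : (↑S : Set ι) ⊆ {i | w ∈ supp (s i)} := fun i hi =>
          (supp_del_subset _ _ (Finset.mem_filter.1 hi).2).1
        have h3 := (Set.encard_le_encard h2).trans (hdeg w hw)
        rw [Set.encard_coe_eq_coe_finsetCard] at h3
        exact_mod_cast h3
      have hle : (⨆ i, D' i) ≤ ⨆ i, D i := iSup_mono fun i => by rw [hDD]; exact del_le _ _
      have hwn : w ∉ supp (⨆ i, D' i) := by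
        rw [supp_iSup]
        intro h
        obtain ⟨i, hi⟩ := mem_iUnion.1 h
        rw [hDD] at hi
        exact (supp_del_subset _ _ hi).2 rfl
      have hone : ∀ i ∈ S, rk (⨆ i, D' i) + 1 ≤ rk (⨆ i, D i) := by
        intro i hi
        obtain ⟨u, hu, hrel⟩ := (Finset.mem_filter.1 hi).2
        rw [← rk_sup_pairS_of_not_rel (u := u) (v := w) fun h => hwn (mem_supp_of_rel h hu).2]
        exact rk_mono (sup_le hle (pairS_le_iff.2 (le_iSup D i hrel)))
      have hkey2 : (S.card : ℕ∞) + rk (⨆ i, D' i) ≤
          rk (⨆ i, D i) + if CycAt s P key w then 1 else 0 := by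
        obtain h0 | h0 | h0 : S.card = 0 ∨ S.card = 1 ∨ S.card = 2 := by omega
        · rw [h0, Nat.cast_zero, zero_add]
          exact (rk_mono hle).trans le_self_add
        · obtain ⟨i, hi⟩ := Finset.card_pos.1 (by omega : 0 < S.card)
          rw [h0, Nat.cast_one, add_comm]
          exact (hone i hi).trans le_self_add
        · obtain ⟨i, hi, j, hj, hij⟩ := Finset.one_lt_card.1 (by omega : 1 < S.card)
          rw [h0]
          split_ifs with hc
          · have := add_le_add (hone i hi) (le_refl (1 : ℕ∞))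
            refine le_trans (le_of_eq ?_) this
            push_cast; ring
          · obtain ⟨u, hu, hrel⟩ := (Finset.mem_filter.1 hi).2
            obtain ⟨v, hv, hrel'⟩ := (Finset.mem_filter.1 hj).2
            have hnuv : ¬ (⨆ i, D' i) u v := fun h => hc ⟨i, j, u, v, hij, hu, hv, hrel, hrel', h⟩
            have hn2 : ¬ ((⨆ i, D' i) ⊔ pairS u v) u w := by
              intro h
              have h3 := (mem_supp_of_rel h hu).2
              rw [supp_sup] at h3
              rcases h3 with h3 | ⟨x, hx, h3⟩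
              · exact hwn h3
              · rcases (pairS_iff u v x w).1 h3 with h4 | h4 | h4
                · exact hx h4
                · exact hv h4.2.symm
                · exact hu h4.2.symm
            have h4 := rk_sup_pairS_of_not_rel hn2
            rw [rk_sup_pairS_of_not_rel hnuv] at h4
            have r1 : (⨆ i, D i) u w := le_iSup D i hrel
            have r2 : (⨆ i, D i) v w := le_iSup D j hrel'
            have h5 := rk_mono (sup_le (sup_le hle (pairS_le_iff.2
              ((⨆ i, D i).trans' r1 ((⨆ i, D i).symm' r2)))) (pairS_le_iff.2 r1))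
            rw [h4] at h5
            rw [add_zero]
            refine le_trans (le_of_eq ?_) h5
            push_cast; ring
      change ∑ i, rk (D i) + rk (⨆ i, D' i) ≤ ∑ i, rk (D' i) + rk (⨆ i, D i) + _
      rw [h1, add_assoc, add_assoc]
      convert add_le_add le_rfl hkey2)
    (fun B _ => ⟨hsum B, ne_top_of_le_ne_top (hsum B) (rk_iSup_le _)⟩)
  simp only [tele_del_empty] at h
  exact h.trans (add_le_add le_rfl (Set.encard_le_encard fun w hw => ⟨hw.1, hw.2.2⟩))

end

end Crest.Agent.R191
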