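import Crest.Agent.R191.Meas
import Crest.Agent.R191.Tree
import Crest.Agent.R191.Tele

/-! The accounting lemma shared by merging and deleting vertices. -/

set_option autoImplicit false

open MeasureTheory Set Crest.Dynamics
open scoped ENNReal

namespace Crest.Agent.R191

section Aux

/-- counting fibre by fibre -/
theorem seq_encard_fiber {α β : Type*} (S : Set α) (f : α → β) :
    (S.encard : ℝ≥0∞) = ∑' b, ((S ∩ f ⁻¹' {b}).encard : ℝ≥0∞) := by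
  classical
  simp_rw [encard_eq_tsum]
  rw [ENNReal.tsum_comm]
  refine tsum_congr fun a => ?_
  rw [tsum_eq_single (f a)]
  · by_cases h : a ∈ S <;> simp [Set.indicator, h]
  · intro b hb
    have : a ∉ S ∩ f ⁻¹' {b} := fun h => hb (Set.mem_singleton_iff.mp h.2).symm
    simp [Set.indicator, this]

/-- the pointwise form of the hyperforest inequality, summed over the labels -/
theorem seq_forest_sum (A : Set ℕ) (H : ℕ → Set Gam) :
    ({p : Gam × (ℕ × Fin 100) | p.2.1 ∈ A ∧ p.1 * sig p.2.2 ∈ H p.2.1 ∧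
        ∃ j < p.2.2, p.1 * sig j ∈ H p.2.1}.encard : ℝ≥0∞) +
      ({k ∈ A | (H k).Nonempty}.encard : ℝ≥0∞) ≤
      ({p : Gam × ℕ | p.2 ∈ A ∧ p.1 ∈ H p.2}.encard : ℝ≥0∞) := by
  rw [seq_encard_fiber _ (fun p : Gam × (ℕ × Fin 100) => p.2.1),
    seq_encard_fiber {k ∈ A | (H k).Nonempty} (fun k : ℕ => k),
    seq_encard_fiber _ (fun p : Gam × ℕ => p.2), ← ENNReal.tsum_add]
  refine ENNReal.tsum_le_tsum fun k => ?_
  rw [← ENat.toENNReal_add]
  refine ENat.toENNReal_le.mpr ?_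
  by_cases hk : k ∈ A ∧ (H k).Nonempty
  · have h1 : ({p : Gam × (ℕ × Fin 100) | p.2.1 ∈ A ∧ p.1 * sig p.2.2 ∈ H p.2.1 ∧
        ∃ j < p.2.2, p.1 * sig j ∈ H p.2.1} ∩ (fun p : Gam × (ℕ × Fin 100) => p.2.1) ⁻¹' {k}).encard
        ≤ {p : Gam × Fin 100 | p.1 * sig p.2 ∈ H k ∧ ∃ j < p.2, p.1 * sig j ∈ H k}.encard := by
      refine Set.encard_le_encard_of_injOn (f := fun p => (p.1, p.2.2)) ?_ ?_
      · rintro ⟨γ, k', i⟩ ⟨⟨-, h1, h2⟩, h3⟩
        obtain rfl : k' = k := h3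
        exact ⟨h1, h2⟩
      · rintro ⟨γ, k', i⟩ ⟨-, h3⟩ ⟨γ₂, k₂, i₂⟩ ⟨-, h4⟩ h
        obtain rfl : k' = k := h3
        obtain rfl : k₂ = k' := h4
        simp only [Prod.mk.injEq] at h
        simp [h.1, h.2]
    have h2 : ({k ∈ A | (H k).Nonempty} ∩ (fun k : ℕ => k) ⁻¹' {k}).encard ≤ 1 := by
      refine le_trans (Set.encard_le_encard (t := {k}) ?_) (by simp)
      rintro k' ⟨-, h⟩
      exact h
    have h3 : (H k).encard ≤
        ({p : Gam × ℕ | p.2 ∈ A ∧ p.1 ∈ H p.2} ∩ (fun p : Gam × ℕ => p.2) ⁻¹' {k}).encard := by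
      refine Set.encard_le_encard_of_injOn (f := fun γ => (γ, k)) ?_ ?_
      · intro γ hγ
        exact ⟨⟨hk.1, hγ⟩, rfl⟩
      · intro γ _ γ' _ h
        exact (Prod.mk.inj h).1
    exact le_trans (add_le_add h1 h2) (le_trans (hyperforest (H k) hk.2) h3)
  · have h1 : ({p : Gam × (ℕ × Fin 100) | p.2.1 ∈ A ∧ p.1 * sig p.2.2 ∈ H p.2.1 ∧
        ∃ j < p.2.2, p.1 * sig j ∈ H p.2.1} ∩ (fun p : Gam × (ℕ × Fin 100) => p.2.1) ⁻¹' {k})
        = ∅ := by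
      rw [Set.eq_empty_iff_forall_notMem]
      rintro ⟨γ, k', i⟩ ⟨⟨h0, h1, -⟩, h3⟩
      obtain rfl : k' = k := h3
      exact hk ⟨h0, _, h1⟩
    have h2 : ({k ∈ A | (H k).Nonempty} ∩ (fun k : ℕ => k) ⁻¹' {k}) = ∅ := by
      rw [Set.eq_empty_iff_forall_notMem]
      rintro k' ⟨h0, h3⟩
      obtain rfl : k' = k := h3
      exact hk h0
    rw [h1, h2]
    simp

/-- all incidences with a polygon = first incidences + repeated incidences -/
theorem seq_sum_sides {α : Type*} (R : α → Fin 100 → Prop) :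
    ∑ i, {a | R a i}.encard ≤ {a | ∃ i, R a i}.encard +
      {p : α × Fin 100 | R p.1 p.2 ∧ ∃ j < p.2, R p.1 j}.encard := by
  have h1 : ∑ i, {a | R a i}.encard ≤ {p : α × Fin 100 | R p.1 p.2}.encard := by
    refine ENat.toENNReal_le.mp ?_
    rw [seq_encard_fiber _ (fun p : α × Fin 100 => p.2), tsum_fintype]
    have : ((∑ i, {a | R a i}.encard : ℕ∞) : ℝ≥0∞) = ∑ i, ({a | R a i}.encard : ℝ≥0∞) :=
      map_sum ENat.toENNRealRingHom _ _
    rw [this]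
    refine Finset.sum_le_sum fun i _ => ENat.toENNReal_le.mpr ?_
    refine Set.encard_le_encard_of_injOn (f := fun a => (a, i)) ?_ ?_
    · intro a ha
      exact ⟨ha, rfl⟩
    · intro a _ a' _ h
      exact (Prod.mk.inj h).1
  have h2 : {p : α × Fin 100 | R p.1 p.2} ⊆ {p : α × Fin 100 | R p.1 p.2 ∧ ¬ ∃ j < p.2, R p.1 j} ∪
      {p : α × Fin 100 | R p.1 p.2 ∧ ∃ j < p.2, R p.1 j} := by
    intro p hp
    by_cases h : ∃ j < p.2, R p.1 j
    · exact Or.inr ⟨hp, h⟩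
    · exact Or.inl ⟨hp, h⟩
  have h3 : {p : α × Fin 100 | R p.1 p.2 ∧ ¬ ∃ j < p.2, R p.1 j}.encard ≤
      {a | ∃ i, R a i}.encard := by
    refine Set.encard_le_encard_of_injOn (f := fun p => p.1) ?_ ?_
    · intro p hp
      exact ⟨p.2, hp.1⟩
    · rintro ⟨a, i⟩ ⟨h1, h2⟩ ⟨a', i'⟩ ⟨h1', h2'⟩ h
      obtain rfl : a = a' := h
      rcases lt_trichotomy i i' with hlt | heq | hlt
      · exact absurd ⟨i, hlt, h1⟩ h2'
      · rw [heq]
      · exact absurd ⟨i', hlt, h1'⟩ h2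
  exact le_trans h1 (le_trans (Set.encard_le_encard h2)
    (le_trans (Set.encard_union_le _ _) (add_le_add h3 le_rfl)))

theorem seq_arith (m : ℕ) (d b r r' e e' a : ℕ∞) (he : e ≠ ⊤) (h1 : (m : ℕ∞) + r ≤ e)
    (h2 : e = e' + a) (h3 : a ≤ b + d) (h4 : r' + b ≤ r) (h5 : r' ≤ e') :
    (((m : ℕ∞) - d).toNat : ℕ∞) + r' ≤ e' := by
  have hr : r ≠ ⊤ := ne_top_of_le_ne_top he (le_trans le_add_self h1)
  have hb : b ≠ ⊤ := ne_top_of_le_ne_top hr (le_trans le_add_self h4)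
  have hr' : r' ≠ ⊤ := ne_top_of_le_ne_top hr (le_trans le_self_add h4)
  have he' : e' ≠ ⊤ := ne_top_of_le_ne_top he (h2 ▸ le_self_add)
  have ha : a ≠ ⊤ := ne_top_of_le_ne_top he (h2 ▸ le_add_self)
  induction d using ENat.recTopCoe with
  | top => simpa using h5
  | coe d =>
    lift r to ℕ using hr
    lift b to ℕ using hb
    lift r' to ℕ using hr'
    lift e' to ℕ using he'
    lift a to ℕ using ha
    subst h2
    rw [← ENat.natCast_sub, ENat.toNat_natCast]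
    norm_cast at *
    omega

theorem seq_le_add (m : ℕ) (d : ℕ∞) : (m : ℕ∞) ≤ (((m : ℕ∞) - d).toNat : ℕ∞) + d := by
  induction d using ENat.recTopCoe with
  | top => simp
  | coe d =>
    rw [← ENat.natCast_sub, ENat.toNat_natCast]
    norm_cast
    omega

theorem seq_toNat_le (m : ℕ) (d : ℕ∞) : ((m : ℕ∞) - d).toNat ≤ m := by
  induction d using ENat.recTopCoe with
  | top => simp
  | coe d =>
    rw [← ENat.natCast_sub, ENat.toNat_natCast]
    omega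

end Aux

variable {X : Type} [MeasurableSpace X] [StandardBorelSpace X] [MulAction Gam X]
  {μ : Measure X} [IsProbabilityMeasure μ]

/-- Vertices `ex γ k` with `k ∈ act (γ⁻¹ • x)` are operated on; the operation on `ex 1 k` lowers
the rank of the variables in `H x k` by one. Then the cycle credits can be lowered so that the
potential drops by the number of operated vertices with `H x k` non-empty
(mass transport + `hyperforest`). Take
`drop x = encard {(γ, k, i) | k ∈ act (γ⁻¹ • x), γ⁻¹ * sig i ∈ H .., ∃ j < i, γ⁻¹ * sig j ∈ H ..}`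
and `m' x = Y.m x - drop x`. -/
theorem seq_account (hX : IsFreePMPAction Gam X μ) (Y : Str X) (hY : Valid μ Y)
    (act : X → Set ℕ) (hact : MeasL act) (H : X → ℕ → Set Gam)
    (hH : ∀ k z, MeasurableSet {x | z ∈ H x k}) (s' : X → Setoid Vtx) (hs' : MeasS s')
    (ha : ∀ᵐ x ∂μ, rk (Y.s x) = rk (s' x) +
      {p : Gam × ℕ | p.2 ∈ act (p.1⁻¹ • x) ∧ p.1⁻¹ ∈ H (p.1⁻¹ • x) p.2}.encard)
    (hb : ∀ᵐ x ∂μ, rk (trJ s' x 1) +
      {p : Gam × ℕ | p.2 ∈ act (p.1⁻¹ • x) ∧ ∃ i, p.1⁻¹ * sig i ∈ H (p.1⁻¹ • x) p.2}.encard ≤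
        rk (Y.J x 1)) :
    ∃ m' : X → ℕ, Measurable m' ∧ (∀ x, m' x ≤ Y.m x) ∧
      (∀ᵐ x ∂μ, (m' x : ℕ∞) + rk (trJ s' x 1) ≤ ∑ i, rk (trS s' x (sig i))) ∧
      ∫⁻ x, (rk (s' x) : ℝ≥0∞) ∂μ + Y.M μ +
          ∫⁻ x, ({k ∈ act x | (H x k).Nonempty}.encard : ℝ≥0∞) ∂μ ≤
        Y.E μ + ∫⁻ x, (m' x : ℝ≥0∞) ∂μ := by
  classical
  -- the set of repeated incidences with the polygon `1`
  let PD : X → Gam → ℕ × Fin 100 → Prop := fun x γ q =>
    q.1 ∈ act (γ⁻¹ • x) ∧ γ⁻¹ * sig q.2 ∈ H (γ⁻¹ • x) q.1 ∧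
      ∃ j < q.2, γ⁻¹ * sig j ∈ H (γ⁻¹ • x) q.1
  let PA : X → Gam → ℕ → Prop := fun x γ k => k ∈ act (γ⁻¹ • x) ∧ γ⁻¹ ∈ H (γ⁻¹ • x) k
  have hPD : ∀ γ q, MeasurableSet {x | PD x γ q} := by
    intro γ q
    refine measurableSet_smul_of hX γ⁻¹ (P := fun y => q.1 ∈ act y ∧ γ⁻¹ * sig q.2 ∈ H y q.1 ∧
      ∃ j < q.2, γ⁻¹ * sig j ∈ H y q.1) ?_
    refine (hact q.1).inter ((hH _ _).inter ?_)
    have : {y : X | ∃ j < q.2, γ⁻¹ * sig j ∈ H y q.1} =
        ⋃ j, ⋃ (_ : j < q.2), {y | γ⁻¹ * sig j ∈ H y q.1} := by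
      ext y; simp
    change MeasurableSet {y : X | ∃ j < q.2, γ⁻¹ * sig j ∈ H y q.1}
    rw [this]
    exact MeasurableSet.iUnion fun j => MeasurableSet.iUnion fun _ => hH _ _
  have hPA : ∀ γ k, MeasurableSet {x | PA x γ k} := by
    intro γ k
    exact measurableSet_smul_of hX γ⁻¹ (P := fun y => k ∈ act y ∧ γ⁻¹ ∈ H y k)
      ((hact k).inter (hH _ _))
  let d : X → ℕ∞ := fun x => {p : Gam × (ℕ × Fin 100) | PD x p.1 p.2}.encard
  have hdm : Measurable fun x => (d x : ℝ≥0∞) :=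
    measurable_encard_of (fun x => {p : Gam × (ℕ × Fin 100) | PD x p.1 p.2})
      fun p => hPD p.1 p.2
  let m' : X → ℕ := fun x => ((Y.m x : ℕ∞) - d x).toNat
  have hm' : Measurable m' := by
    refine measurable_to_countable' fun n => ?_
    refine measurableSet_subst (ι := ℕ × ℕ∞) (fun _ q => ((q.1 : ℕ∞) - q.2).toNat = n)
      (fun q => MeasurableSet.const _) (fun x => (Y.m x, d x)) ?_
    rintro ⟨a, b⟩
    have : {x | (Y.m x, d x) = (a, b)} = Y.m ⁻¹' {a} ∩ {x | d x = b} := by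
      ext x; simp
    rw [this]
    exact (Y.meas_m (measurableSet_singleton a)).inter
      (measurableSet_encard_eq (fun x => {p : Gam × (ℕ × Fin 100) | PD x p.1 p.2})
        (fun p => hPD p.1 p.2) b)
  refine ⟨m', hm', fun x => seq_toNat_le _ _, ?_, ?_⟩
  · filter_upwards [ae_forall_smul hX ha, hb, hY.cyc, hY.rk_ne_top hX] with x hax hbx hcyc hfin
    let R : Gam × ℕ → Fin 100 → Prop := fun p i =>
      p.2 ∈ act (p.1⁻¹ • x) ∧ p.1⁻¹ * sig i ∈ H (p.1⁻¹ • x) p.2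
    have hside : ∀ i, rk (Y.S x (sig i)) = rk (trS s' x (sig i)) + {p | R p i}.encard := by
      intro i
      rw [rk_trS, rk_trS, hax (sig i)⁻¹]
      congr 1
      refine Set.encard_congr ?_
      refine ⟨fun p => ⟨(sig i * p.1.1, p.1.2), ?_⟩, fun p => ⟨((sig i)⁻¹ * p.1.1, p.1.2), ?_⟩,
        ?_, ?_⟩
      · obtain ⟨h1, h2⟩ := p.2
        exact ⟨by simpa [mul_smul] using h1, by simpa [mul_smul, mul_assoc] using h2⟩
      · obtain ⟨h1, h2⟩ := p.2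
        exact ⟨by simpa [mul_smul] using h1, by simpa [mul_smul, mul_assoc] using h2⟩
      · intro p; ext <;> simp
      · intro p; ext <;> simp
    refine seq_arith (Y.m x) (d x)
      {p : Gam × ℕ | p.2 ∈ act (p.1⁻¹ • x) ∧ ∃ i, p.1⁻¹ * sig i ∈ H (p.1⁻¹ • x) p.2}.encard
      (rk (Y.J x 1)) _ (∑ i, rk (Y.S x (sig i))) _ (∑ i, {p | R p i}.encard) ?_ hcyc ?_ ?_ hbx ?_
    · exact ENat.sum_ne_top.mpr fun i _ => hfin _
    · rw [← Finset.sum_add_distrib]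
      exact Finset.sum_congr rfl fun i _ => hside i
    · refine le_trans (seq_sum_sides R) (add_le_add (le_of_eq ?_) ?_)
      · congr 1
        ext p
        simp [R]
      · refine Set.encard_le_encard_of_injOn (f := fun p => (p.1.1, p.1.2, p.2)) ?_ ?_
        · rintro ⟨⟨γ, k⟩, i⟩ ⟨⟨h1, h2⟩, j, hj, -, h3⟩
          exact ⟨h1, h2, j, hj, h3⟩
        · rintro ⟨⟨γ, k⟩, i⟩ - ⟨⟨γ', k'⟩, i'⟩ - h
          simp only [Prod.mk.injEq] at h
          simp [h.1, h.2.1, h.2.2]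
    · rw [trJ_one]
      exact rk_iSup_le _
  · have hE : Y.E μ = ∫⁻ x, (rk (s' x) : ℝ≥0∞) ∂μ +
        ∫⁻ x, ({p : Gam × ℕ | PA x p.1 p.2}.encard : ℝ≥0∞) ∂μ := by
      rw [← lintegral_add_left hs'.rk, Str.E]
      refine lintegral_congr_ae ?_
      filter_upwards [ha] with x hx
      rw [hx, ENat.toENNReal_add]
    have hM : Y.M μ ≤ ∫⁻ x, (m' x : ℝ≥0∞) ∂μ + ∫⁻ x, (d x : ℝ≥0∞) ∂μ := by
      rw [← lintegral_add_right _ hdm, Str.M]
      refine lintegral_mono fun x => ?_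
      have := ENat.toENNReal_le.mpr (seq_le_add (Y.m x) (d x))
      simpa [ENat.toENNReal_add] using this
    have hN : Measurable fun x => ({k ∈ act x | (H x k).Nonempty}.encard : ℝ≥0∞) := by
      refine measurable_encard_of (fun x => {k ∈ act x | (H x k).Nonempty})
        fun k => (hact k).inter ?_
      have : {x : X | (H x k).Nonempty} = ⋃ z, {x | z ∈ H x k} := by
        ext x; simp [Set.Nonempty]
      change MeasurableSet {x : X | (H x k).Nonempty}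
      rw [this]
      exact MeasurableSet.iUnion fun z => hH _ _
    have hF : ∫⁻ x, (d x : ℝ≥0∞) ∂μ + ∫⁻ x, ({k ∈ act x | (H x k).Nonempty}.encard : ℝ≥0∞) ∂μ ≤
        ∫⁻ x, ({p : Gam × ℕ | PA x p.1 p.2}.encard : ℝ≥0∞) ∂μ := by
      rw [mtp_encard hX PA hPA, mtp_encard hX PD hPD, ← lintegral_add_right _ hN]
      refine lintegral_mono fun x => ?_
      have := seq_forest_sum (act x) (H x)
      simpa [PA, PD] using this
    calc ∫⁻ x, (rk (s' x) : ℝ≥0∞) ∂μ + Y.M μ +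
          ∫⁻ x, ({k ∈ act x | (H x k).Nonempty}.encard : ℝ≥0∞) ∂μ
        ≤ ∫⁻ x, (rk (s' x) : ℝ≥0∞) ∂μ + (∫⁻ x, (m' x : ℝ≥0∞) ∂μ + ∫⁻ x, (d x : ℝ≥0∞) ∂μ) +
          ∫⁻ x, ({k ∈ act x | (H x k).Nonempty}.encard : ℝ≥0∞) ∂μ := by gcongr
      _ = ∫⁻ x, (rk (s' x) : ℝ≥0∞) ∂μ + (∫⁻ x, (d x : ℝ≥0∞) ∂μ +
          ∫⁻ x, ({k ∈ act x | (H x k).Nonempty}.encard : ℝ≥0∞) ∂μ) +
          ∫⁻ x, (m' x : ℝ≥0∞) ∂μ := by ring
      _ ≤ ∫⁻ x, (rk (s' x) : ℝ≥0∞) ∂μ + ∫⁻ x, ({p : Gam × ℕ | PA x p.1 p.2}.encard : ℝ≥0∞) ∂μ +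
          ∫⁻ x, (m' x : ℝ≥0∞) ∂μ := by gcongr
      _ = Y.E μ + ∫⁻ x, (m' x : ℝ≥0∞) ∂μ := by rw [hE]

end Crest.Agent.R191
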