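import Crest.Agent.R191.Seq

/-! Merging extra vertices into targets that are not moved. -/

set_option autoImplicit false

open MeasureTheory Set Crest.Dynamics
open scoped ENNReal

namespace Crest.Agent.R191

section Aux

/-- transport of `Setoid.map` along a bijection -/
theorem star_map_equiv {V : Type*} (e : V ≃ V) (s s' : Setoid V) (f f' : V → V)
    (hs : ∀ u v, s' (e u) (e v) ↔ s u v) (hf : ∀ v, f' (e v) = e (f v)) (u v : V) :
    s'.map f' (e u) (e v) ↔ s.map f u v := by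
  constructor
  · intro h
    have h1 : s'.map f' ≤ (s.map f).comap e.symm := by
      rw [map_le_iff]
      intro a b hab
      obtain ⟨a, rfl⟩ := e.surjective a
      obtain ⟨b, rfl⟩ := e.surjective b
      have := map_rel ((hs a b).mp hab) f
      change s.map f (e.symm (f' (e a))) (e.symm (f' (e b)))
      rwa [hf, hf, e.symm_apply_apply, e.symm_apply_apply]
    have h2 : s.map f (e.symm (e u)) (e.symm (e v)) := h1 h
    rwa [e.symm_apply_apply, e.symm_apply_apply] at h2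
  · intro h
    have h1 : s.map f ≤ (s'.map f').comap e := by
      rw [map_le_iff]
      intro a b hab
      have := map_rel ((hs a b).mpr hab) f'
      change s'.map f' (e (f a)) (e (f b))
      rwa [← hf, ← hf]
    exact h1 h

variable {X : Type} [MeasurableSpace X] [StandardBorelSpace X] [MulAction Gam X]

theorem star_cut_smul (τ : X → ℕ → Vtx) (x : X) (g : Gam) (w v : Vtx) :
    cut (relab τ (g • x)) (key (g • x)) (g • w) (g • v) = g • cut (relab τ x) (key x) w v := by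
  unfold cut
  rw [key_smul, key_smul, relab_smul]
  split_ifs <;> rfl

theorem star_hit_smul (s : X → Setoid Vtx) (τ : X → ℕ → Vtx) (x : X) (g z : Gam) (w u v : Vtx) :
    (trS s (g • x) (g * z)).map (cut (relab τ (g • x)) (key (g • x)) (g • w)) (g • u) (g • v) ↔
      (trS s x z).map (cut (relab τ x) (key x) w) u v :=
  star_map_equiv (MulAction.toPerm g) (trS s x z) (trS s (g • x) (g * z))
    (cut (relab τ x) (key x) w) (cut (relab τ (g • x)) (key (g • x)) (g • w))
    (fun a b => trS_smul s x g z a b) (fun a => star_cut_smul τ x g w a) u v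

omit [MeasurableSpace X] [StandardBorelSpace X] in
theorem star_relab_ex (τ : X → ℕ → Vtx) (x : X) (γ : Gam) (k : ℕ) :
    relab τ x (Vtx.ex γ k) = γ • τ (γ⁻¹ • x) k := rfl

omit [MeasurableSpace X] [StandardBorelSpace X] in
theorem star_relab_fix_iff (τ : X → ℕ → Vtx) (x : X) (γ : Gam) (k : ℕ) :
    relab τ x (Vtx.ex γ k) = Vtx.ex γ k ↔ τ (γ⁻¹ • x) k = Vtx.ex 1 k := by
  rw [star_relab_ex, smul_eq_iff_eq_inv_smul]
  simp

/-- the hit condition seen from `x` -/
theorem star_hit_iff (s : X → Setoid Vtx) (τ : X → ℕ → Vtx) (x : X) (γ z : Gam) (k : ℕ) :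
    (trS s (γ⁻¹ • x) (γ⁻¹ * z)).map (cut (relab τ (γ⁻¹ • x)) (key (γ⁻¹ • x)) (Vtx.ex 1 k))
        (Vtx.ex 1 k) (τ (γ⁻¹ • x) k) ↔
      (trS s x z).map (cut (relab τ x) (key x) (Vtx.ex γ k)) (Vtx.ex γ k)
        (relab τ x (Vtx.ex γ k)) := by
  have h : γ⁻¹ • Vtx.ex γ k = Vtx.ex 1 k := by simp
  rw [← star_hit_smul s τ x γ⁻¹ z, star_relab_ex, h, inv_smul_smul]

end Aux

variable {X : Type} [MeasurableSpace X] [StandardBorelSpace X] [MulAction Gam X]
  {μ : Measure X} [IsProbabilityMeasure μ]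

/-- Star move. Use `seq_account` with `act x = {k | τ x k ≠ ex 1 k}` and
`H x k = {z | (Y.S x z).map (cut (relab τ x) (key x) (ex 1 k)) (ex 1 k) (τ x k)}`, and
`rk_map_tele`. -/
theorem star (hX : IsFreePMPAction Gam X μ) (Y : Str X) (hY : Valid μ Y) (τ : X → ℕ → Vtx)
    (hτm : ∀ k v, MeasurableSet {x | τ x k = v})
    (hbase : ∀ x k, (τ x k).base = ((1 : Gam) : K))
    (hact : ∀ᵐ x ∂μ, ∀ k, τ x k ≠ Vtx.ex 1 k →
      k ∈ Y.vert x ∧ τ x k ∈ Y.Vert x ∧ relab τ x (τ x k) = τ x k) :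
    ∃ Y' : Str X, Valid μ Y' ∧ Succ μ Y Y' (relab τ) ∧
      (∀ x, Y'.s x = (Y.s x).map (relab τ x)) ∧
      (∀ x, Y'.vert x = {k ∈ Y.vert x | τ x k = Vtx.ex 1 k}) ∧ (∀ x, Y'.m x ≤ Y.m x) ∧
      Y'.V μ + ∫⁻ x, ({k | τ x k ≠ Vtx.ex 1 k}.encard : ℝ≥0∞) ∂μ = Y.V μ ∧
      Y'.E μ + Y.M μ + ∫⁻ x, ({k | τ x k ≠ Vtx.ex 1 k ∧
          ∃ z, Y.S x z (Vtx.ex 1 k) (τ x k)}.encard : ℝ≥0∞) ∂μ ≤ Y.E μ + Y'.M μ := by
  classical
  let act : X → Set ℕ := fun x => {k | τ x k ≠ Vtx.ex 1 k}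
  let H : X → ℕ → Set Gam := fun x k =>
    {z | (Y.S x z).map (cut (relab τ x) (key x) (Vtx.ex 1 k)) (Vtx.ex 1 k) (τ x k)}
  let s' : X → Setoid Vtx := fun x => (Y.s x).map (relab τ x)
  let vert' : X → Set ℕ := fun x => {k ∈ Y.vert x | τ x k = Vtx.ex 1 k}
  have hactm : MeasL act := fun k => (hτm k _).compl
  have hvert' : MeasL vert' := fun k => (Y.meas_vert k).inter (hτm k _)
  have hρm : ∀ v w, MeasurableSet {x | relab τ x v = w} := measurableSet_relab hX hτm
  have hs' : MeasS s' := Y.meas_s.map _ hρm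
  have hHm : ∀ k z, MeasurableSet {x | z ∈ H x k} := by
    intro k z
    have h1 : MeasS fun x => (Y.S x z).map (cut (relab τ x) (key x) (Vtx.ex 1 k)) := by
      refine (Y.meas_s.trS hX z).map (fun x => cut (relab τ x) (key x) (Vtx.ex 1 k)) ?_
      intro v w
      have : {x | cut (relab τ x) (key x) (Vtx.ex 1 k) v = w} =
          ({x : X | key x v < key x (Vtx.ex 1 k)} ∩ {x | relab τ x v = w}) ∪
          ({x : X | key x v < key x (Vtx.ex 1 k)}ᶜ ∩ {_x | v = w}) := by
        ext x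
        by_cases h : key x v < key x (Vtx.ex 1 k) <;> simp [cut, h]
      rw [this]
      exact ((measurableSet_key_lt hX _ _).inter (hρm _ _)).union
        ((measurableSet_key_lt hX _ _).compl.inter (MeasurableSet.const _))
    exact h1.apply (fun _ => Vtx.ex 1 k) (fun x => τ x k) (fun w => MeasurableSet.const _) (hτm k)
  have htr : ∀ x γ, trS s' x γ = (Y.S x γ).map (relab τ x) := fun x γ =>
    trS_map Y.s (relab τ) (fun x g v => relab_smul τ x g v) x γ
  have hρbase : ∀ x v, (relab τ x v).base = v.base := by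
    intro x v
    cases v with
    | sp q => rfl
    | ex γ k =>
      rw [star_relab_ex, Vtx.base_smul, hbase, Vtx.base_ex]
      change ((γ * 1 : Gam) : K) = _
      rw [mul_one]
  -- the good points
  have hgood : ∀ᵐ x ∂μ, (∀ v, relab τ x (relab τ x v) = relab τ x v) ∧
      (∀ v ∈ Y.Vert x, relab τ x v ∈ Y.Vert x) ∧ InjOn (key x) {v | relab τ x v ≠ v} := by
    filter_upwards [ae_forall_smul hX hact, ae_free hX] with x hx hfree
    refine ⟨?_, ?_, ?_⟩
    · intro v
      cases v with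
      | sp q => rfl
      | ex γ k =>
        by_cases h : τ (γ⁻¹ • x) k = Vtx.ex 1 k
        · rw [(star_relab_fix_iff τ x γ k).mpr h, (star_relab_fix_iff τ x γ k).mpr h]
        · have h1 := (hx γ⁻¹ k h).2.2
          have h2 := relab_smul τ (γ⁻¹ • x) γ (τ (γ⁻¹ • x) k)
          rw [smul_inv_smul, h1] at h2
          rw [star_relab_ex, h2]
    · intro v hv
      cases v with
      | sp q => exact hv
      | ex γ k =>
        by_cases h : τ (γ⁻¹ • x) k = Vtx.ex 1 k
        · rw [(star_relab_fix_iff τ x γ k).mpr h]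
          exact hv
        · have h1 := (hx γ⁻¹ k h).2.1
          have h2 := (Y.smul_mem_Vert (γ⁻¹ • x) γ (τ (γ⁻¹ • x) k)).mpr h1
          rwa [smul_inv_smul] at h2
    · refine (key_injOn x hfree).mono ?_
      intro v hv
      cases v with
      | sp q => exact absurd rfl hv
      | ex γ k => exact ⟨γ, k, rfl⟩
  have ha : ∀ᵐ x ∂μ, rk (Y.s x) = rk (s' x) +
      {p : Gam × ℕ | p.2 ∈ act (p.1⁻¹ • x) ∧ p.1⁻¹ ∈ H (p.1⁻¹ • x) p.2}.encard := by
    filter_upwards [hgood, hY.rk_ne_top hX] with x hx hfin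
    have hfin1 : rk (Y.s x) ≠ ⊤ := by
      have := hfin 1
      rwa [Str.S, trS_one] at this
    rw [rk_map_tele (Y.s x) hfin1 (relab τ x) hx.1 (key x) hx.2.2]
    congr 1
    have hinj : Function.Injective fun p : Gam × ℕ => Vtx.ex p.1 p.2 := by
      rintro ⟨γ, k⟩ ⟨γ', k'⟩ h
      simpa using h
    rw [← hinj.encard_image]
    congr 1
    ext w
    constructor
    · rintro ⟨h1, h2⟩
      cases w with
      | sp q => exact absurd rfl h1
      | ex γ k =>
        refine ⟨(γ, k), ⟨fun h => h1 ((star_relab_fix_iff τ x γ k).mpr h), ?_⟩, rfl⟩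
        have := (star_hit_iff Y.s τ x γ 1 k).mpr (by rwa [trS_one])
        rwa [mul_one] at this
    · rintro ⟨⟨γ, k⟩, ⟨h1, h2⟩, rfl⟩
      refine ⟨fun h => h1 ((star_relab_fix_iff τ x γ k).mp h), ?_⟩
      have := (star_hit_iff Y.s τ x γ 1 k).mp (by rw [mul_one]; exact h2)
      rwa [trS_one] at this
  have hb : ∀ᵐ x ∂μ, rk (trJ s' x 1) +
      {p : Gam × ℕ | p.2 ∈ act (p.1⁻¹ • x) ∧ ∃ i, p.1⁻¹ * sig i ∈ H (p.1⁻¹ • x) p.2}.encard ≤
        rk (Y.J x 1) := by
    filter_upwards [hgood, hY.rk_ne_top hX] with x hx hfin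
    have hJ : Y.J x 1 = ⨆ i, Y.S x (sig i) := trJ_one _ _
    have hfinJ : rk (Y.J x 1) ≠ ⊤ := by
      rw [hJ]
      exact ne_top_of_le_ne_top (ENat.sum_ne_top.mpr fun i _ => hfin _) (rk_iSup_le _)
    have hJ' : trJ s' x 1 = (Y.J x 1).map (relab τ x) := by
      rw [hJ, trJ_one, map_iSup]
      exact iSup_congr fun i => htr x _
    rw [rk_map_tele (Y.J x 1) hfinJ (relab τ x) hx.1 (key x) hx.2.2, hJ']
    refine add_le_add le_rfl ?_
    refine Set.encard_le_encard_of_injOn (f := fun p => Vtx.ex p.1 p.2) ?_ ?_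
    · rintro ⟨γ, k⟩ ⟨h1, i, h2⟩
      refine ⟨fun h => h1 ((star_relab_fix_iff τ x γ k).mp h), ?_⟩
      have h3 := (star_hit_iff Y.s τ x γ (sig i) k).mp h2
      have h4 : Y.S x (sig i) ≤ Y.J x 1 := by
        rw [hJ]
        exact le_iSup (fun i => Y.S x (sig i)) i
      exact map_mono h4 _ h3
    · rintro ⟨γ, k⟩ - ⟨γ', k'⟩ - h
      simpa using h
  obtain ⟨m', hm'm, hm'le, hcyc, hacc⟩ := seq_account hX Y hY act hactm H hHm s' hs' ha hb
  let Y' : Str X := ⟨s', m', vert', hs', hm'm, hvert'⟩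
  have hVert : ∀ x v, v ∈ Y'.Vert x ↔ v ∈ Y.Vert x ∧ relab τ x v = v := by
    intro x v
    cases v with
    | sp q => exact ⟨fun _ => ⟨Y.sp_mem_Vert x q, rfl⟩, fun _ => Y'.sp_mem_Vert x q⟩
    | ex γ k =>
      rw [Str.ex_mem_Vert, Str.ex_mem_Vert, star_relab_fix_iff]
      rfl
  refine ⟨Y', ⟨?_, ?_, hcyc, ?_, ?_, ?_⟩, ⟨hρm, hρbase, fun _ _ => rfl, ?_⟩, fun _ => rfl,
    fun _ => rfl, hm'le, ?_, ?_⟩
  · filter_upwards [hgood, hY.supp] with x hx hsupp v hv
    obtain ⟨u, hu, rfl⟩ := supp_map_subset _ _ hv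
    refine ⟨(hVert x _).mpr ⟨hx.2.1 u (hsupp u hu).1, hx.1 u⟩, ?_⟩
    rw [hρbase]
    exact (hsupp u hu).2
  · filter_upwards [hY.conn] with x hx u hu v hv
    obtain ⟨hu1, hu2⟩ := (hVert x u).mp hu
    obtain ⟨hv1, hv2⟩ := (hVert x v).mp hv
    have h1 := map_rel (hx u hu1 v hv1) (relab τ x)
    rw [hu2, hv2, map_iSup] at h1
    have h2 : (⨆ γ, Y'.S x γ) = ⨆ γ, (Y.S x γ).map (relab τ x) := iSup_congr fun γ => htr x γ
    rw [h2]
    exact h1
  · refine lt_of_le_of_lt (lintegral_mono_ae ?_) hY.E_lt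
    filter_upwards [ha] with x hx
    rw [hx]
    exact ENat.toENNReal_le.mpr le_self_add
  · refine lt_of_le_of_lt (lintegral_mono fun x => ?_) hY.V_lt
    exact ENat.toENNReal_le.mpr (Set.encard_le_encard fun k hk => hk.1)
  · refine le_trans (lintegral_mono fun x => ?_) hY.M_le
    exact Nat.cast_le.mpr (hm'le x)
  · refine Filter.Eventually.of_forall fun x γ u v h => ?_
    have := map_rel h (relab τ x)
    rw [← htr] at this
    exact this
  · rw [Str.V, Str.V, ← lintegral_add_left (measurable_encard_of vert' hvert')]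
    refine lintegral_congr_ae ?_
    filter_upwards [hact] with x hx
    rw [← ENat.toENNReal_add, ← Set.encard_union_eq]
    · congr 2
      ext k
      constructor
      · rintro (h | h)
        · exact h.1
        · exact (hx k h).1
      · intro h
        by_cases h' : τ x k = Vtx.ex 1 k
        · exact Or.inl ⟨h, h'⟩
        · exact Or.inr h'
    · rw [Set.disjoint_left]
      intro k h1 h2
      exact h2 h1.2
  · refine le_trans (add_le_add le_rfl (lintegral_mono_ae ?_)) hacc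
    filter_upwards [hact] with x hx
    refine ENat.toENNReal_le.mpr (Set.encard_le_encard ?_)
    rintro k ⟨h1, z, h2⟩
    refine ⟨h1, z, ?_⟩
    have h3 := map_rel h2 (cut (relab τ x) (key x) (Vtx.ex 1 k))
    have h4 : cut (relab τ x) (key x) (Vtx.ex 1 k) (Vtx.ex 1 k) = Vtx.ex 1 k := by
      simp [cut]
    have h5 : cut (relab τ x) (key x) (Vtx.ex 1 k) (τ x k) = τ x k := by
      simp [cut, (hx k h1).2.2]
    rw [h4, h5] at h3
    exact h3

end Crest.Agent.R191
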