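import Crest.Agent.R191.Meas

/-! Actions of cost close to one. -/

set_option autoImplicit false

open MeasureTheory Set Crest.Dynamics
open scoped ENNReal

namespace Crest.Agent.R191

/-- the cost is bounded by the cost of a finite generating graphing -/
theorem actionCost_le_sum {Γ Z : Type*} [Group Γ] [MulAction Γ Z] [MeasurableSpace Z]
    (ν : Measure Z) {ι : Type} [Fintype ι] (Ψ : ι → Γ × Set Z)
    (hm : ∀ i, MeasurableSet (Ψ i).2) (B : Set Z) (hB : ν B = 0)
    (h : ∀ x, x ∉ B → ∀ g : Γ,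
      Relation.EqvGen (fun x y => ∃ i, x ∈ (Ψ i).2 ∧ y = (Ψ i).1 • x) x (g • x)) :
    actionCost Γ Z ν ≤ ∑ i, ν (Ψ i).2 := by
  classical
  obtain ⟨e, he⟩ := exists_injective_nat ι
  let Φ : ℕ → Γ × Set Z := Function.extend e Ψ fun _ => (1, ∅)
  have hΦ : ∀ i, Φ (e i) = Ψ i := fun i => he.extend_apply _ _ i
  have hΦ' : ∀ n, ¬ (∃ i, e i = n) → Φ n = (1, ∅) := fun n hn => Function.extend_apply' _ _ _ hn
  refine sInf_le ⟨Φ, ⟨fun n => ?_, B, hB, fun x hx g => ?_⟩, ?_⟩
  · by_cases hn : ∃ i, e i = n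
    · obtain ⟨i, rfl⟩ := hn
      rw [hΦ]; exact hm i
    · rw [hΦ' n hn]; exact MeasurableSet.empty
  · refine Relation.EqvGen.mono ?_ _ _ (h x hx g)
    rintro a b ⟨i, ha, hb⟩
    exact ⟨e i, by rw [hΦ]; exact ha, by rw [hΦ]; exact hb⟩
  · unfold graphingCost
    rw [← he.tsum_eq (f := fun n => ν (Φ n).2), tsum_fintype]
    · simp only [hΦ]
    · intro n hn
      by_contra hn'
      apply hn
      change ν (Φ n).2 = 0
      rw [hΦ' n hn']
      simp

/-- the height homomorphism -/
noncomputable def chiZ (g : Gam) : ℤ := Multiplicative.toAdd (exists_chi.choose g)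

theorem chiZ_mul (g h : Gam) : chiZ (g * h) = chiZ g + chiZ h := by
  simp [chiZ]

theorem chiZ_one : chiZ 1 = 0 := by simp [chiZ]

theorem chiZ_inv (g : Gam) : chiZ g⁻¹ = -chiZ g := by simp [chiZ]

theorem chiZ_sig (i : Fin 100) : chiZ (sig i) = (i : ℕ) := by
  rw [chiZ, exists_chi.choose_spec.1 i]; rfl

/-- the set of levels -/
def Lev (M : ℕ) : Type := ZMod (M + 1)

instance (M : ℕ) : MeasurableSpace (Lev M) := ⊤

instance (M : ℕ) : DiscreteMeasurableSpace (Lev M) := ⟨fun _ => trivial⟩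

instance (M : ℕ) : Fintype (Lev M) := inferInstanceAs (Fintype (ZMod (M + 1)))

instance (M : ℕ) : CommRing (Lev M) := inferInstanceAs (CommRing (ZMod (M + 1)))

instance (M : ℕ) : Nonempty (Lev M) := ⟨0⟩

theorem Lev.card (M : ℕ) : Fintype.card (Lev M) = M + 1 := ZMod.card (M + 1)

theorem Lev.exists_int (M : ℕ) (l : Lev M) : ∃ n : ℕ, l = ((-(n : ℤ) : ℤ) : Lev M) := by
  have h : ∀ l : ZMod (M + 1), ∃ n : ℕ, l = ((-(n : ℤ) : ℤ) : ZMod (M + 1)) := fun l =>
    ⟨(-l).val, by simp⟩
  exact h l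

noncomputable instance (M : ℕ) : MulAction Gam (Lev M) where
  smul g l := l + (chiZ g : Lev M)
  one_smul l := by
    change l + (chiZ 1 : Lev M) = l
    simp [chiZ_one]
  mul_smul g h l := by
    change l + (chiZ (g * h) : Lev M) = l + (chiZ h : Lev M) + (chiZ g : Lev M)
    rw [chiZ_mul]; push_cast; ring

theorem Lev.smul_def (M : ℕ) (g : Gam) (l : Lev M) : g • l = l + (chiZ g : Lev M) := rfl

/-- the uniform measure on the levels -/
noncomputable def levM (M : ℕ) : Measure (Lev M) := ProbabilityTheory.uniformOn Set.univ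

instance (M : ℕ) : IsProbabilityMeasure (levM M) := by unfold levM; infer_instance

theorem levM_singleton (M : ℕ) (l : Lev M) : levM M {l} = ((M + 1 : ℕ) : ℝ≥0∞)⁻¹ := by
  rw [levM, ProbabilityTheory.uniformOn_univ, Lev.card]
  simp

theorem levM_preserving (M : ℕ) (g : Gam) :
    MeasurePreserving (fun l : Lev M => g • l) (levM M) (levM M) := by
  refine ⟨Measurable.of_discrete, ?_⟩
  refine Measure.ext_of_singleton fun l => ?_
  rw [Measure.map_apply Measurable.of_discrete (measurableSet_singleton _)]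
  have : (fun l : Lev M => g • l) ⁻¹' {l} = {g⁻¹ • l} := by
    ext a
    simp [eq_inv_smul_iff]
  rw [this, levM_singleton, levM_singleton]

/-- the levels `0, …, 98` -/
def lowLev (M : ℕ) : Set (Lev M) := ⋃ i : Fin 99, {((i : ℕ) : Lev M)}

theorem levM_lowLev (M : ℕ) : levM M (lowLev M) ≤ 99 * ((M + 1 : ℕ) : ℝ≥0∞)⁻¹ := by
  refine (measure_iUnion_fintype_le _ _).trans ?_
  simp only [levM_singleton]
  simp

section Gen
variable {Z : Type*} [MulAction Gam Z]

/-- the combinatorial heart of the upper bound -/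
theorem upper_generates (R : Z → Z → Prop) (hR : Equivalence R) (Good : Set Z)
    (hG : ∀ (g : Gam) p, p ∈ Good → g • p ∈ Good) (D : Set Z)
    (hD : ∀ p ∈ Good, ∃ k : ℤ, tt ^ k • p ∈ D) (ht : ∀ p, R p (tt • p))
    (hu : ∀ (j : Fin 100), ∀ p ∈ D,
      R p ((SemidirectProduct.inr ((yF 0)⁻¹ * yF j) : Gam) • p))
    {A : Type*} [AddCommGroupWithOne A] (lev : Z → A)
    (hlev : ∀ (g : Gam) p, lev (g • p) = lev p + (chiZ g : A))
    (hA : ∀ l : A, ∃ n : ℕ, l = ((-(n : ℤ) : ℤ) : A))
    (ha : ∀ p, ∀ i : ℕ, i < 99 → lev p = (i : A) → R p (aa⁻¹ • p)) :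
    ∀ p ∈ Good, ∀ g : Gam, R p (g • p) := by
  let H : Subgroup Gam :=
    { carrier := {g | ∀ p ∈ Good, R p (g • p)}
      one_mem' := fun p _ => by rw [one_smul]; exact hR.refl p
      mul_mem' := fun {a b} ha hb p hp => by
        rw [mul_smul]; exact hR.trans (hb p hp) (ha _ (hG b p hp))
      inv_mem' := fun {a} ha p hp => by
        have := ha _ (hG a⁻¹ p hp)
        rw [smul_inv_smul] at this
        exact hR.symm this }
  have htt : tt ∈ H := fun p _ => ht p
  have hGsub : Gsub ≤ H := by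
    rw [Gsub_eq_closure, Subgroup.closure_le]
    rintro g (rfl | ⟨j, rfl⟩)
    · exact htt
    · intro p hp
      obtain ⟨k, hk⟩ := hD p hp
      set u : Gam := SemidirectProduct.inr ((yF 0)⁻¹ * yF j) with hu_def
      have huG : u ∈ Gsub := inr_mem_Gsub (Subgroup.subset_closure ⟨j, rfl⟩)
      have hc : Commute (tt ^ k) u := (tt_commute huG).zpow_left k
      have h1 : R p (tt ^ k • p) := H.zpow_mem htt k p hp
      have h2 : R (tt ^ k • p) (u • tt ^ k • p) := hu j _ hk
      have h3 : R (u • p) (tt ^ k • u • p) := H.zpow_mem htt k _ (hG u p hp)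
      have h4 : u • tt ^ k • p = tt ^ k • u • p := by
        rw [← mul_smul, ← mul_smul, hc.eq]
      rw [h4] at h2
      exact hR.trans h1 (hR.trans h2 (hR.symm h3))
  -- consecutive corners
  have hstep : ∀ p ∈ Good, ∀ j : Fin 100,
      R ((sig (j + 1))⁻¹ • p) (aa⁻¹ • (sig j)⁻¹ • p) := by
    intro p hp j
    have h1 := mul_sig_mul_aa 1 j
    rw [one_mul, one_mul, QuotientGroup.eq] at h1
    have h2 := hGsub h1 _ (hG (sig (j + 1))⁻¹ p hp)
    rw [← mul_smul, mul_assoc, mul_inv_cancel, mul_one, mul_inv_rev, mul_smul] at h2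
    exact h2
  -- downward induction on the level
  have hind : ∀ n : ℕ, ∀ m : ℤ, -(n : ℤ) ≤ m → m ≤ 98 → ∀ q ∈ Good, lev q = (m : A) →
      R q (aa⁻¹ • q) := by
    intro n
    induction n with
    | zero =>
      intro m h0 h1 q _ hq
      obtain ⟨i, rfl⟩ := Int.eq_ofNat_of_zero_le (by simpa using h0 : 0 ≤ m)
      exact ha q i (by omega) (by simpa using hq)
    | succ n ih =>
      intro m h0 h1 q hq hl
      by_cases hm : -(n : ℤ) ≤ m
      · exact ih m hm h1 q hq hl
      have hmn : m = -(n : ℤ) - 1 := by push_cast at h0; omega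
      set p := sig (Fin.last 99) • q with hp_def
      have hp : p ∈ Good := hG _ q hq
      have hlp : lev p = ((m + 99 : ℤ) : A) := by
        rw [hp_def, hlev, hl, chiZ_sig]; push_cast; simp
      have hchain : ∀ i : ℕ, ∀ hi : i < 100, R p ((sig ⟨i, hi⟩)⁻¹ • p) := by
        intro i
        induction i with
        | zero =>
          intro hi
          have : (⟨0, hi⟩ : Fin 100) = 0 := rfl
          rw [this, sig_zero, inv_one, one_smul]
          exact hR.refl p
        | succ i ihi =>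
          intro hi
          have hi' : i < 100 := by omega
          have e1 : (⟨i + 1, hi⟩ : Fin 100) = ⟨i, hi'⟩ + 1 := by
            apply Fin.ext
            rw [Fin.val_add_one_of_lt (by rw [Fin.lt_def]; simp; omega)]
          have h2 : R ((sig ⟨i, hi'⟩)⁻¹ • p) (aa⁻¹ • (sig ⟨i, hi'⟩)⁻¹ • p) := by
            refine ih (m + 99 - i) (by omega) (by omega) _ (hG _ p hp) ?_
            rw [hlev, hlp, chiZ_inv, chiZ_sig]
            push_cast
            rw [sub_eq_add_neg]
          rw [e1]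
          exact hR.trans (ihi hi') (hR.trans h2 (hR.symm (hstep p hp _)))
      have h99 : R p q := by
        have := hchain 99 (by norm_num)
        have e : (⟨99, by norm_num⟩ : Fin 100) = Fin.last 99 := rfl
        rwa [e, hp_def, inv_smul_smul, ← hp_def] at this
      have hlast := hstep p hp (Fin.last 99)
      rw [Fin.last_add_one, sig_zero, inv_one, one_smul, hp_def, inv_smul_smul, ← hp_def] at hlast
      exact hR.trans (hR.symm h99) hlast
  have haa : aa⁻¹ ∈ H := by
    intro q hq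
    obtain ⟨n, hn⟩ := hA (lev q)
    exact hind n _ le_rfl (by omega) q hq hn
  have htop : H = ⊤ := by
    rw [eq_top_iff, ← closure_Gsub_aa, Subgroup.closure_le]
    rintro g (hg | rfl)
    · exact hGsub hg
    · exact (Subgroup.inv_mem_iff H).1 haa
  intro p hp g
  have : g ∈ H := htop ▸ Subgroup.mem_top g
  exact this p hp

end Gen

variable {X : Type} [MeasurableSpace X] [StandardBorelSpace X] [MulAction Gam X]
  {μ : Measure X} [IsProbabilityMeasure μ]

theorem upper_bound (hX : IsFreePMPAction Gam X μ) (hmark : HasMarkers μ) (η : ℝ≥0∞)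
    (hη : 0 < η) :
    ∃ (Y : Type) (_ : MeasurableSpace Y) (_ : StandardBorelSpace Y) (ν : Measure Y)
      (_ : IsProbabilityMeasure ν) (_ : MulAction Gam Y),
      IsFreePMPAction Gam Y ν ∧ actionCost Gam Y ν ≤ 1 + η := by
  classical
  have hη' : 0 < η / 200 := ENNReal.div_pos hη.ne' (by norm_num)
  obtain ⟨M, hM⟩ := ENNReal.exists_inv_nat_lt hη'.ne'
  obtain ⟨D, hDm, hDμ, hD⟩ := hmark _ hη'
  refine ⟨X × Lev M, inferInstance, inferInstance, μ.prod (levM M), inferInstance, inferInstance,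
    ⟨fun g => (hX.1 g).prod (levM_preserving M g), fun g hg => ?_⟩, ?_⟩
  · refine measure_mono_null (t := {x : X | g • x = x} ×ˢ univ) ?_ ?_
    · rintro ⟨x, l⟩ h
      exact ⟨congrArg Prod.fst h, trivial⟩
    · rw [Measure.prod_prod, hX.2 g hg, zero_mul]
  let Ψ : Option (Option (Fin 100)) → Gam × Set (X × Lev M) := fun i =>
    match i with
    | none => (tt, univ)
    | some none => (aa⁻¹, univ ×ˢ lowLev M)
    | some (some j) => (SemidirectProduct.inr ((yF 0)⁻¹ * yF j), D ×ˢ univ)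
  have hall : ∀ᵐ x ∂μ, ∀ g : Gam, ∃ k : ℤ, tt ^ k • g • x ∈ D :=
    ae_all_iff.2 fun g => (hX.1 g).quasiMeasurePreserving.ae hD
  let Good : Set (X × Lev M) := {p | ∀ g : Gam, ∃ k : ℤ, tt ^ k • g • p.1 ∈ D}
  have hGood : (μ.prod (levM M)) Goodᶜ = 0 := by
    have : Goodᶜ = {x : X | ¬ ∀ g : Gam, ∃ k : ℤ, tt ^ k • g • x ∈ D} ×ˢ univ := by
      ext p; simp [Good]
    rw [this, Measure.prod_prod, ae_iff.1 hall, zero_mul]
  refine (actionCost_le_sum _ Ψ ?_ Goodᶜ hGood ?_).trans ?_
  · rintro (_ | _ | j)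
    · exact MeasurableSet.univ
    · exact MeasurableSet.univ.prod MeasurableSet.of_discrete
    · exact hDm.prod MeasurableSet.univ
  · intro p hp
    refine upper_generates _ (Relation.EqvGen.is_equivalence _) Good ?_ (D ×ˢ univ) ?_ ?_ ?_
      (fun p => p.2) (fun _ _ => rfl) (Lev.exists_int M) ?_ p (not_not.1 hp)
    · intro g q hq h
      have := hq (h * g)
      rwa [mul_smul] at this
    · intro q hq
      obtain ⟨k, hk⟩ := hq 1
      rw [one_smul] at hk
      exact ⟨k, hk, trivial⟩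
    · intro q
      exact Relation.EqvGen.rel _ _ ⟨none, trivial, rfl⟩
    · intro j q hq
      exact Relation.EqvGen.rel _ _ ⟨some (some j), hq, rfl⟩
    · intro q i hi hq
      exact Relation.EqvGen.rel _ _ ⟨some none, ⟨trivial, mem_iUnion.2 ⟨⟨i, hi⟩, hq⟩⟩, rfl⟩
  · rw [Fintype.sum_option, Fintype.sum_option]
    simp only [Ψ, measure_univ, Measure.prod_prod, one_mul, mul_one, Finset.sum_const,
      Finset.card_univ, Fintype.card_fin, nsmul_eq_mul]
    have h1 : ((M + 1 : ℕ) : ℝ≥0∞)⁻¹ ≤ η / 200 :=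
      le_trans (ENNReal.inv_le_inv.2 (by exact_mod_cast Nat.le_succ M)) hM.le
    have h2 : levM M (lowLev M) ≤ 100 * (η / 200) :=
      (levM_lowLev M).trans (mul_le_mul' (by norm_num) h1)
    have h3 : ((100 : ℕ) : ℝ≥0∞) * μ D ≤ 100 * (η / 200) := mul_le_mul' (by norm_num) hDμ
    have h4 : 100 * (η / 200) + 100 * (η / 200) = η := by
      rw [← add_mul]
      have : (100 + 100 : ℝ≥0∞) = 200 := by norm_num
      rw [this, ENNReal.mul_div_cancel (by norm_num) (by norm_num)]
    calc _ ≤ 1 + (100 * (η / 200) + 100 * (η / 200)) := by gcongr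
      _ = 1 + η := by rw [h4]

end Crest.Agent.R191
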